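import Mathlib

/-!
Prékopa–Leindler inequality (midpoint version) in finite dimension.
-/

set_option autoImplicit false
open MeasureTheory Set
open scoped ENNReal NNReal Pointwise

namespace Crest.Agent.H3.OT

/-- one-dimensional Brunn–Minkowski, compact case -/
lemma volume_add_volume_le_of_isCompact {A B : Set ℝ} (hA : IsCompact A) (hB : IsCompact B)
    (hA0 : A.Nonempty) (hB0 : B.Nonempty) :
    volume A + volume B ≤ volume (A + B) := by
  obtain ⟨b, hb, hbmin⟩ := hB.exists_isLeast hB0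
  obtain ⟨a, ha, hamax⟩ := hA.exists_isGreatest hA0
  have h1 : volume (A + {b}) = volume A := by
    rw [Set.add_singleton]
    simp
  have h2 : volume ({a} + B) = volume B := by
    rw [Set.singleton_add]
    simp
  have hsub : (A + {b}) ∪ ({a} + B) ⊆ A + B := by
    apply Set.union_subset
    · exact Set.add_subset_add_left (by simpa using hb)
    · exact Set.add_subset_add_right (by simpa using ha)
  have hinter : (A + {b}) ∩ ({a} + B) ⊆ {a + b} := by
    rintro x ⟨⟨x1, hx1, y1, hy1, rfl⟩, ⟨x2, hx2, y2, hy2, h⟩⟩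
    simp only [Set.mem_singleton_iff] at hy1 hx2 ⊢
    subst hy1 hx2
    have e1 := hamax hx1
    have e2 := hbmin hy2
    simp only at h
    linarith
  have hinter0 : volume ((A + {b}) ∩ ({a} + B)) = 0 :=
    measure_mono_null hinter (by simp)
  have hmeas : MeasurableSet ({a} + B) := (isCompact_singleton.add hB).measurableSet
  calc volume A + volume B = volume (A + {b}) + volume ({a} + B) := by rw [h1, h2]
    _ = volume ((A + {b}) ∪ ({a} + B)) + volume ((A + {b}) ∩ ({a} + B)) :=
        (measure_union_add_inter _ hmeas).symm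
    _ = volume ((A + {b}) ∪ ({a} + B)) := by rw [hinter0, add_zero]
    _ ≤ volume (A + B) := measure_mono hsub

/-- one-dimensional Brunn–Minkowski -/
lemma volume_add_volume_le {A B D : Set ℝ} (hA : MeasurableSet A) (hB : MeasurableSet B)
    (hA0 : A.Nonempty) (hB0 : B.Nonempty) (hD : A + B ⊆ D) :
    volume A + volume B ≤ volume D := by
  obtain ⟨a, ha⟩ := hA0
  obtain ⟨b, hb⟩ := hB0
  rw [hA.measure_eq_iSup_isCompact volume, hB.measure_eq_iSup_isCompact volume]
  simp_rw [iSup_and']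
  refine ENNReal.biSup_add_biSup_le' (p := fun K : Set ℝ => K ⊆ A ∧ IsCompact K)
    (q := fun K : Set ℝ => K ⊆ B ∧ IsCompact K) ⟨∅, by simp⟩ ⟨∅, by simp⟩ ?_
  rintro K ⟨hKA, hK⟩ L ⟨hLB, hL⟩
  calc volume K + volume L ≤ volume (insert a K) + volume (insert b L) := by
        gcongr <;> exact Set.subset_insert _ _
    _ ≤ volume (insert a K + insert b L) :=
        volume_add_volume_le_of_isCompact (hK.insert a) (hL.insert b) ⟨a, by simp⟩ ⟨b, by simp⟩
    _ ≤ volume D := by
        refine measure_mono (subset_trans ?_ hD)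
        exact Set.add_subset_add (Set.insert_subset ha hKA) (Set.insert_subset hb hLB)

/-- The midpoint Prékopa–Leindler property of a measure on a real vector space. -/
def PLprop (V : Type*) [AddCommGroup V] [Module ℝ V] [MeasurableSpace V] (μ : Measure V) : Prop :=
  ∀ f g h : V → ℝ≥0∞, Measurable f → Measurable g → Measurable h →
    (∀ x y, f x * g y ≤ h ((2⁻¹ : ℝ) • (x + y)) ^ 2) →
    (∫⁻ x, f x ∂μ) * (∫⁻ x, g x ∂μ) ≤ (∫⁻ x, h x ∂μ) ^ 2

/-- normalised one-dimensional case: real valued, sup = 1 -/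
lemma pl_real_normalised {f g h : ℝ → ℝ} (hf : Measurable f) (hg : Measurable g)
    (hh : Measurable h) (hf0 : ∀ x, 0 ≤ f x) (hg0 : ∀ x, 0 ≤ g x) (hh0 : ∀ x, 0 ≤ h x)
    (hf1 : ∀ x, f x ≤ 1) (hg1 : ∀ x, g x ≤ 1) (hfs : ∀ t < 1, ∃ x, t < f x)
    (hgs : ∀ t < 1, ∃ x, t < g x)
    (hfgh : ∀ x y, f x * g y ≤ h ((2⁻¹ : ℝ) • (x + y)) ^ 2) :
    (∫⁻ x, ENNReal.ofReal (f x)) + (∫⁻ x, ENNReal.ofReal (g x)) ≤
      2 * (∫⁻ x, ENNReal.ofReal (h x)) := by
  rw [lintegral_eq_lintegral_meas_lt volume (Filter.Eventually.of_forall hf0) hf.aemeasurable,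
    lintegral_eq_lintegral_meas_lt volume (Filter.Eventually.of_forall hg0) hg.aemeasurable,
    lintegral_eq_lintegral_meas_lt volume (Filter.Eventually.of_forall hh0) hh.aemeasurable]
  have hmf : Measurable (fun t : ℝ => volume {a : ℝ | t < f a}) := by
    apply Antitone.measurable
    intro s t hst
    exact measure_mono fun x hx => lt_of_le_of_lt hst hx
  have hmh : Measurable (fun t : ℝ => volume {a : ℝ | t < h a}) := by
    apply Antitone.measurable
    intro s t hst
    exact measure_mono fun x hx => lt_of_le_of_lt hst hx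
  rw [← lintegral_add_left hmf, ← lintegral_const_mul _ hmh]
  refine setLIntegral_mono (hmh.const_mul _) ?_
  intro t ht
  have ht0 : 0 < t := ht
  rcases lt_or_ge t 1 with ht1 | ht1
  · have hD : {a : ℝ | t < f a} + {a : ℝ | t < g a} ⊆ (fun z => 2 * z) '' {a : ℝ | t < h a} := by
      rintro z ⟨x, hx, y, hy, rfl⟩
      refine ⟨2⁻¹ * (x + y), ?_, by simp⟩
      have hx' : t < f x := hx
      have hy' : t < g y := hy
      have h1 := hfgh x y
      have h2 : t ^ 2 < h ((2⁻¹ : ℝ) • (x + y)) ^ 2 := by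
        have : t * t < f x * g y := mul_lt_mul'' hx' hy' ht0.le ht0.le
        nlinarith
      have h3 := lt_of_pow_lt_pow_left₀ 2 (hh0 _) h2
      simpa [smul_eq_mul] using h3
    have h4 := volume_add_volume_le (measurableSet_lt measurable_const hf)
      (measurableSet_lt measurable_const hg) (hfs t ht1) (hgs t ht1) hD
    refine h4.trans ?_
    have : (fun z : ℝ => 2 * z) '' {a : ℝ | t < h a} = (2 : ℝ) • {a : ℝ | t < h a} := by
      ext z
      simp [Set.mem_smul_set]
    rw [this, Measure.addHaar_smul]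
    simp
  · have e1 : {a : ℝ | t < f a} = ∅ := by
      ext x; simp only [Set.mem_ofPred_eq, Set.mem_empty_iff_false, iff_false, not_lt]
      exact (hf1 x).trans ht1
    have e2 : {a : ℝ | t < g a} = ∅ := by
      ext x; simp only [Set.mem_ofPred_eq, Set.mem_empty_iff_false, iff_false, not_lt]
      exact (hg1 x).trans ht1
    simp [e1, e2]

lemma four_mul_le_add_sq (a b : ℝ≥0∞) : 4 * (a * b) ≤ (a + b) ^ 2 := by
  rcases eq_or_ne a ∞ with rfl | ha
  · simp
  rcases eq_or_ne b ∞ with rfl | hb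
  · simp
  lift a to ℝ≥0 using ha
  lift b to ℝ≥0 using hb
  have : 4 * (a * b) ≤ (a + b) ^ 2 := by
    rw [← NNReal.coe_le_coe]
    push_cast
    nlinarith [sq_nonneg ((a : ℝ) - b)]
  exact_mod_cast this

/-- one-dimensional Prékopa–Leindler, bounded functions -/
lemma pl_real_bounded {f g h : ℝ → ℝ≥0∞} (hf : Measurable f) (hg : Measurable g)
    (hh : Measurable h) (hfF : (⨆ x, f x) ≠ ∞) (hgG : (⨆ x, g x) ≠ ∞)
    (hfgh : ∀ x y, f x * g y ≤ h ((2⁻¹ : ℝ) • (x + y)) ^ 2) :
    (∫⁻ x, f x) * (∫⁻ x, g x) ≤ (∫⁻ x, h x) ^ 2 := by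
  set F := ⨆ x, f x with hF
  set G := ⨆ x, g x with hG
  rcases eq_or_ne F 0 with hF0 | hF0
  · have : ∀ x, f x = 0 := fun x => by
      have := le_iSup f x
      rw [← hF, hF0] at this
      simpa using this
    simp [this]
  rcases eq_or_ne G 0 with hG0 | hG0
  · have : ∀ x, g x = 0 := fun x => by
      have := le_iSup g x
      rw [← hG, hG0] at this
      simpa using this
    simp [this]
  have hfle : ∀ x, f x ≤ F := fun x => le_iSup f x
  have hgle : ∀ x, g x ≤ G := fun x => le_iSup g x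
  set S : ℝ≥0∞ := (F * G) ^ (2⁻¹ : ℝ) with hS
  have hS2 : S ^ 2 = F * G := by
    rw [hS, ← ENNReal.rpow_natCast, ← ENNReal.rpow_mul]
    norm_num
  have hS0 : S ≠ 0 := by
    intro h0
    rw [h0] at hS2
    have : F * G = 0 := by rw [← hS2]; simp
    rcases mul_eq_zero.1 this with h | h
    · exact hF0 h
    · exact hG0 h
  have hST : S ≠ ∞ := by
    intro h0
    rw [h0] at hS2
    have : F * G = ∞ := by rw [← hS2]; simp
    exact ENNReal.mul_ne_top hfF hgG this
  have hfF1 : ∀ x, f x / F ≤ 1 := fun x => ENNReal.div_le_of_le_mul (by simpa using hfle x)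
  have hgG1 : ∀ x, g x / G ≤ 1 := fun x => ENNReal.div_le_of_le_mul (by simpa using hgle x)
  have hne : ∀ x, f x / F ≠ ∞ := fun x => ne_top_of_le_ne_top ENNReal.one_ne_top (hfF1 x)
  have hne' : ∀ x, g x / G ≠ ∞ := fun x => ne_top_of_le_ne_top ENNReal.one_ne_top (hgG1 x)
  have hne'' : ∀ x, min (h x / S) 1 ≠ ∞ := fun x =>
    ne_top_of_le_ne_top ENNReal.one_ne_top (min_le_right _ _)
  have key := pl_real_normalised (f := fun x => (f x / F).toReal) (g := fun x => (g x / G).toReal)
    (h := fun x => (min (h x / S) 1).toReal)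
    (hf.div_const F).ennreal_toReal (hg.div_const G).ennreal_toReal
    ((hh.div_const S).min measurable_const).ennreal_toReal
    (fun _ => ENNReal.toReal_nonneg) (fun _ => ENNReal.toReal_nonneg)
    (fun _ => ENNReal.toReal_nonneg)
    (fun x => by
      have := ENNReal.toReal_mono ENNReal.one_ne_top (hfF1 x)
      simpa using this)
    (fun x => by
      have := ENNReal.toReal_mono ENNReal.one_ne_top (hgG1 x)
      simpa using this)
    (by
      intro t ht
      rcases lt_or_ge t 0 with ht0 | ht0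
      · exact ⟨0, lt_of_lt_of_le ht0 ENNReal.toReal_nonneg⟩
      have h1 : ENNReal.ofReal t * F < F := by
        calc ENNReal.ofReal t * F < 1 * F := by
              apply ENNReal.mul_lt_mul_left hF0 hfF
              exact ENNReal.ofReal_lt_one.2 ht
          _ = F := one_mul _
      rw [hF] at h1
      obtain ⟨x, hx⟩ := lt_iSup_iff.1 h1
      refine ⟨x, ?_⟩
      rw [← hF] at hx
      have h2 : ENNReal.ofReal t < f x / F := by
        rw [ENNReal.lt_div_iff_mul_lt (Or.inl hF0) (Or.inl hfF)]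
        exact hx
      rw [← ENNReal.ofReal_lt_iff_lt_toReal ht0 (hne x)]
      exact h2)
    (by
      intro t ht
      rcases lt_or_ge t 0 with ht0 | ht0
      · exact ⟨0, lt_of_lt_of_le ht0 ENNReal.toReal_nonneg⟩
      have h1 : ENNReal.ofReal t * G < G := by
        calc ENNReal.ofReal t * G < 1 * G := by
              apply ENNReal.mul_lt_mul_left hG0 hgG
              exact ENNReal.ofReal_lt_one.2 ht
          _ = G := one_mul _
      rw [hG] at h1
      obtain ⟨x, hx⟩ := lt_iSup_iff.1 h1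
      refine ⟨x, ?_⟩
      rw [← hG] at hx
      have h2 : ENNReal.ofReal t < g x / G := by
        rw [ENNReal.lt_div_iff_mul_lt (Or.inl hG0) (Or.inl hgG)]
        exact hx
      rw [← ENNReal.ofReal_lt_iff_lt_toReal ht0 (hne' x)]
      exact h2)
    (by
      intro x y
      rw [← ENNReal.toReal_mul, ← ENNReal.toReal_pow]
      refine ENNReal.toReal_mono (ENNReal.pow_ne_top (hne'' _)) ?_
      have h1 : f x / F * (g y / G) ≤ (h ((2⁻¹ : ℝ) • (x + y)) / S) ^ 2 := by
        have e1 : f x / F * (g y / G) = f x * g y / (F * G) := by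
          rw [ENNReal.mul_div_mul_comm (Or.inr hgG) (Or.inl hfF)]
        have e2 : (h ((2⁻¹ : ℝ) • (x + y)) / S) ^ 2 = h ((2⁻¹ : ℝ) • (x + y)) ^ 2 / (F * G) := by
          rw [← hS2, div_eq_mul_inv, mul_pow, ← ENNReal.inv_pow, div_eq_mul_inv]
        rw [e1, e2]
        exact ENNReal.div_le_div_right (hfgh x y) _
      have h2 : f x / F * (g y / G) ≤ 1 := mul_le_one' (hfF1 x) (hgG1 y)
      rcases le_total (h ((2⁻¹ : ℝ) • (x + y)) / S) 1 with h3 | h3
      · rw [min_eq_left h3]; exact h1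
      · rw [min_eq_right h3]; simpa using h2)
  have e1 : ∀ x, ENNReal.ofReal (f x / F).toReal = f x / F := fun x =>
    ENNReal.ofReal_toReal (hne x)
  have e2 : ∀ x, ENNReal.ofReal (g x / G).toReal = g x / G := fun x =>
    ENNReal.ofReal_toReal (hne' x)
  have e3 : ∀ x, ENNReal.ofReal (min (h x / S) 1).toReal = min (h x / S) 1 := fun x =>
    ENNReal.ofReal_toReal (hne'' x)
  simp_rw [e1, e2, e3] at key
  have key2 : (∫⁻ x, f x) / F + (∫⁻ x, g x) / G ≤ 2 * ((∫⁻ x, h x) / S) := by
    simp_rw [div_eq_mul_inv] at key ⊢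
    rw [lintegral_mul_const _ hf, lintegral_mul_const _ hg] at key
    refine key.trans ?_
    rw [← lintegral_mul_const _ hh]
    gcongr
    exact min_le_left _ _
  have key3 := (four_mul_le_add_sq ((∫⁻ x, f x) / F) ((∫⁻ x, g x) / G)).trans
    (pow_le_pow_left₀ zero_le key2 2)
  have key4 : (∫⁻ x, f x) / F * ((∫⁻ x, g x) / G) ≤ ((∫⁻ x, h x) / S) ^ 2 := by
    have : (2 * ((∫⁻ x, h x) / S)) ^ 2 = 4 * ((∫⁻ x, h x) / S) ^ 2 := by
      rw [mul_pow]; norm_num
    rw [this] at key3
    exact (ENNReal.mul_le_mul_iff_right (by norm_num) (by norm_num)).1 key3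
  have e4 : (∫⁻ x, f x) / F * ((∫⁻ x, g x) / G) = (∫⁻ x, f x) * (∫⁻ x, g x) / (F * G) := by
    rw [ENNReal.mul_div_mul_comm (Or.inr hgG) (Or.inl hfF)]
  have e5 : ((∫⁻ x, h x) / S) ^ 2 = (∫⁻ x, h x) ^ 2 / (F * G) := by
    rw [← hS2, div_eq_mul_inv, mul_pow, ← ENNReal.inv_pow, div_eq_mul_inv]
  rw [e4, e5] at key4
  have hFG0 : F * G ≠ 0 := mul_ne_zero hF0 hG0
  have hFGT : F * G ≠ ∞ := ENNReal.mul_ne_top hfF hgG
  have := mul_le_mul_left key4 (F * G)
  rwa [ENNReal.div_mul_cancel hFG0 hFGT, ENNReal.div_mul_cancel hFG0 hFGT] at this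

lemma plprop_real : PLprop ℝ volume := by
  intro f g h hf hg hh hfgh
  have hn : ∀ n : ℕ, (∫⁻ x, min (f x) n) * (∫⁻ x, min (g x) n) ≤ (∫⁻ x, h x) ^ 2 := by
    intro n
    refine pl_real_bounded (hf.min measurable_const) (hg.min measurable_const) hh ?_ ?_ ?_
    · exact ne_top_of_le_ne_top (ENNReal.natCast_ne_top n) (iSup_le fun x => min_le_right _ _)
    · exact ne_top_of_le_ne_top (ENNReal.natCast_ne_top n) (iSup_le fun x => min_le_right _ _)
    · intro x y
      refine le_trans ?_ (hfgh x y)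
      gcongr
      · exact min_le_left _ _
      · exact min_le_left _ _
  have hmonof : Monotone fun n : ℕ => fun x => min (f x) (n : ℝ≥0∞) := by
    intro m n hmn x
    have : (m : ℝ≥0∞) ≤ n := by exact_mod_cast hmn
    exact min_le_min_left _ this
  have hmonog : Monotone fun n : ℕ => fun x => min (g x) (n : ℝ≥0∞) := by
    intro m n hmn x
    have : (m : ℝ≥0∞) ≤ n := by exact_mod_cast hmn
    exact min_le_min_left _ this
  have hsup : ∀ a : ℝ≥0∞, ⨆ n : ℕ, min a (n : ℝ≥0∞) = a := by
    intro a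
    rw [← inf_iSup_eq, ENNReal.iSup_natCast]
    simp
  have hf' : ∫⁻ x, f x = ⨆ n : ℕ, ∫⁻ x, min (f x) n := by
    rw [← lintegral_iSup (fun n => hf.min measurable_const) hmonof]
    simp_rw [hsup]
  have hg' : ∫⁻ x, g x = ⨆ n : ℕ, ∫⁻ x, min (g x) n := by
    rw [← lintegral_iSup (fun n => hg.min measurable_const) hmonog]
    simp_rw [hsup]
  rw [hf', hg', ENNReal.iSup_mul]
  refine iSup_le fun m => ?_
  rw [ENNReal.mul_iSup]
  refine iSup_le fun n => ?_
  refine le_trans ?_ (hn (max m n))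
  gcongr
  · exact le_max_left _ _
  · exact le_max_right _ _

lemma PLprop.prod {V W : Type*} [AddCommGroup V] [Module ℝ V] [MeasurableSpace V]
    [AddCommGroup W] [Module ℝ W] [MeasurableSpace W] {μ : Measure V} {ν : Measure W}
    [SFinite μ] [SFinite ν] (hV : PLprop V μ) (hW : PLprop W ν) :
    PLprop (V × W) (μ.prod ν) := by
  intro f g h hf hg hh hfgh
  rw [lintegral_prod _ hf.aemeasurable, lintegral_prod _ hg.aemeasurable,
    lintegral_prod _ hh.aemeasurable]
  refine hV _ _ _ hf.lintegral_prod_right' hg.lintegral_prod_right' hh.lintegral_prod_right' ?_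
  intro x y
  refine hW _ _ _ (hf.comp measurable_prodMk_left) (hg.comp measurable_prodMk_left)
    (hh.comp measurable_prodMk_left) ?_
  intro u v
  exact hfgh (x, u) (y, v)

lemma PLprop.of_equiv {V W : Type*} [AddCommGroup V] [Module ℝ V] [MeasurableSpace V]
    [AddCommGroup W] [Module ℝ W] [MeasurableSpace W] {μ : Measure V} {ν : Measure W}
    (hV : PLprop V μ) (e : V ≃ᵐ W) (he : MeasurePreserving e μ ν)
    (hmid : ∀ x y : V, e ((2⁻¹ : ℝ) • (x + y)) = (2⁻¹ : ℝ) • (e x + e y)) :
    PLprop W ν := by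
  intro f g h hf hg hh hfgh
  rw [← he.lintegral_comp hf, ← he.lintegral_comp hg, ← he.lintegral_comp hh]
  refine hV _ _ _ (hf.comp e.measurable) (hg.comp e.measurable) (hh.comp e.measurable) ?_
  intro x y
  have := hfgh (e x) (e y)
  rw [← hmid] at this
  exact this

lemma plprop_pi : ∀ n : ℕ, PLprop (Fin n → ℝ) volume := by
  intro n
  induction n with
  | zero =>
    intro f g h hf hg hh hfgh
    rw [Measure.volume_pi_eq_dirac 0]
    rw [lintegral_dirac' _ hf, lintegral_dirac' _ hg, lintegral_dirac' _ hh]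
    have := hfgh 0 0
    simpa using this
  | succ n ih =>
    have h1 := plprop_real.prod ih
    refine h1.of_equiv (MeasurableEquiv.piFinSuccAbove (fun _ => ℝ) 0).symm
      (volume_preserving_piFinSuccAbove (fun _ => ℝ) 0).symm ?_
    intro x y
    ext i
    refine Fin.cases ?_ (fun j => ?_) i
    · simp [MeasurableEquiv.piFinSuccAbove]
      ring
    · simp [MeasurableEquiv.piFinSuccAbove]
      ring

lemma plprop_euclidean (d : ℕ) : PLprop (EuclideanSpace ℝ (Fin d)) volume :=
  (plprop_pi d).of_equiv (MeasurableEquiv.toLp 2 (Fin d → ℝ))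
    (PiLp.volume_preserving_toLp (Fin d)) (fun _ _ => rfl)

end Crest.Agent.H3.OT
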