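import Mathlib
import Crest.Agent.H3.OT.PL

/-!
Laguerre cells of finitely many sites in a compact convex set.
-/

set_option autoImplicit false
open MeasureTheory Set
open scoped ENNReal NNReal Pointwise RealInnerProductSpace

namespace Crest.Agent.H3.OT

variable {d : ℕ}

local notation "𝔼" => EuclideanSpace ℝ (Fin d)

/-- integrated Prékopa–Leindler for sets and real functions -/
lemma pl_sets {f g h : 𝔼 → ℝ} (hf : Measurable f) (hg : Measurable g) (hh : Measurable h)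
    {A B M : Set 𝔼} (hA : MeasurableSet A) (hB : MeasurableSet B) (hM : MeasurableSet M)
    (hfA : IntegrableOn f A) (hgB : IntegrableOn g B) (hhM : IntegrableOn h M)
    (hf0 : ∀ x ∈ A, 0 ≤ f x) (hg0 : ∀ x ∈ B, 0 ≤ g x) (hh0 : ∀ x ∈ M, 0 ≤ h x)
    (hmid : ∀ x ∈ A, ∀ y ∈ B, (2⁻¹ : ℝ) • (x + y) ∈ M)
    (H : ∀ x ∈ A, ∀ y ∈ B, f x * g y ≤ h ((2⁻¹ : ℝ) • (x + y)) ^ 2) :
    (∫ x in A, f x) * (∫ x in B, g x) ≤ (∫ x in M, h x) ^ 2 := by
  have key := plprop_euclidean d (A.indicator fun x => ENNReal.ofReal (f x))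
    (B.indicator fun x => ENNReal.ofReal (g x)) (M.indicator fun x => ENNReal.ofReal (h x))
    (hf.ennreal_ofReal.indicator hA) (hg.ennreal_ofReal.indicator hB)
    (hh.ennreal_ofReal.indicator hM) (by
      intro x y
      by_cases hx : x ∈ A
      · by_cases hy : y ∈ B
        · rw [Set.indicator_of_mem hx, Set.indicator_of_mem hy,
            Set.indicator_of_mem (hmid x hx y hy), ← ENNReal.ofReal_mul (hf0 x hx),
            ← ENNReal.ofReal_pow (hh0 _ (hmid x hx y hy))]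
          exact ENNReal.ofReal_le_ofReal (H x hx y hy)
        · rw [Set.indicator_of_notMem hy]; simp
      · rw [Set.indicator_of_notMem hx]; simp)
  rw [lintegral_indicator hA, lintegral_indicator hB, lintegral_indicator hM,
    ← ofReal_integral_eq_lintegral_ofReal hfA (ae_restrict_of_forall_mem hA hf0),
    ← ofReal_integral_eq_lintegral_ofReal hgB (ae_restrict_of_forall_mem hB hg0),
    ← ofReal_integral_eq_lintegral_ofReal hhM (ae_restrict_of_forall_mem hM hh0),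
    ← ENNReal.ofReal_mul (setIntegral_nonneg hA hf0),
    ← ENNReal.ofReal_pow (setIntegral_nonneg hM hh0)] at key
  exact (ENNReal.ofReal_le_ofReal_iff (by positivity)).1 key

variable {ι : Type*} [Fintype ι] [Nonempty ι]

/-- the convex potential `max_i (⟪y_i, x⟫ - ψ_i)` -/
noncomputable def phi (y : ι → 𝔼) (ψ : ι → ℝ) (x : 𝔼) : ℝ := ⨆ i, (⟪y i, x⟫ - ψ i)

/-- Laguerre cells -/
def cell (K : Set 𝔼) (y : ι → 𝔼) (ψ : ι → ℝ) (i : ι) : Set 𝔼 :=
  {x | x ∈ K ∧ ∀ j, ⟪y j, x⟫ - ψ j ≤ ⟪y i, x⟫ - ψ i}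

lemma le_phi (y : ι → 𝔼) (ψ : ι → ℝ) (x : 𝔼) (i : ι) : ⟪y i, x⟫ - ψ i ≤ phi y ψ x :=
  le_ciSup (f := fun i => ⟪y i, x⟫ - ψ i) (Set.finite_range _).bddAbove i

lemma phi_le {y : ι → 𝔼} {ψ : ι → ℝ} {x : 𝔼} {c : ℝ} (h : ∀ i, ⟪y i, x⟫ - ψ i ≤ c) :
    phi y ψ x ≤ c := ciSup_le h

lemma exists_phi_eq (y : ι → 𝔼) (ψ : ι → ℝ) (x : 𝔼) : ∃ i, phi y ψ x = ⟪y i, x⟫ - ψ i := by
  obtain ⟨i, hi⟩ := exists_eq_ciSup_of_finite (f := fun i => ⟪y i, x⟫ - ψ i)
  exact ⟨i, hi.symm⟩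

omit [Fintype ι] [Nonempty ι] in
lemma cell_subset (K : Set 𝔼) (y : ι → 𝔼) (ψ : ι → ℝ) (i : ι) : cell K y ψ i ⊆ K :=
  fun _ hx => hx.1

lemma phi_eq_of_mem_cell {K : Set 𝔼} {y : ι → 𝔼} {ψ : ι → ℝ} {i : ι} {x : 𝔼}
    (hx : x ∈ cell K y ψ i) : phi y ψ x = ⟪y i, x⟫ - ψ i :=
  le_antisymm (phi_le hx.2) (le_phi y ψ x i)

lemma mem_cell_iff {K : Set 𝔼} {y : ι → 𝔼} {ψ : ι → ℝ} {i : ι} {x : 𝔼} :
    x ∈ cell K y ψ i ↔ x ∈ K ∧ phi y ψ x = ⟪y i, x⟫ - ψ i := by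
  constructor
  · intro h; exact ⟨h.1, phi_eq_of_mem_cell h⟩
  · rintro ⟨h1, h2⟩
    exact ⟨h1, fun j => h2 ▸ le_phi y ψ x j⟩

omit [Fintype ι] [Nonempty ι] in
lemma isClosed_cell {K : Set 𝔼} (hK : IsClosed K) (y : ι → 𝔼) (ψ : ι → ℝ) (i : ι) :
    IsClosed (cell K y ψ i) := by
  have : cell K y ψ i = K ∩ ⋂ j, {x | ⟪y j, x⟫ - ψ j ≤ ⟪y i, x⟫ - ψ i} := by
    ext x; simp [cell]
  rw [this]
  refine hK.inter (isClosed_iInter fun j => ?_)
  exact isClosed_le (by fun_prop) (by fun_prop)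

omit [Fintype ι] [Nonempty ι] in
lemma measurableSet_cell {K : Set 𝔼} (hK : IsClosed K) (y : ι → 𝔼) (ψ : ι → ℝ) (i : ι) :
    MeasurableSet (cell K y ψ i) := (isClosed_cell hK y ψ i).measurableSet

lemma iUnion_cell (K : Set 𝔼) (y : ι → 𝔼) (ψ : ι → ℝ) : ⋃ i, cell K y ψ i = K := by
  ext x
  simp only [Set.mem_iUnion]
  constructor
  · rintro ⟨i, hi⟩; exact hi.1
  · intro hx
    obtain ⟨i, hi⟩ := exists_phi_eq y ψ x
    exact ⟨i, mem_cell_iff.2 ⟨hx, hi⟩⟩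

lemma volume_hyperplane (v : 𝔼) (hv : v ≠ 0) (c : ℝ) : volume {x : 𝔼 | ⟪v, x⟫ = c} = 0 := by
  rcases Set.eq_empty_or_nonempty {x : 𝔼 | ⟪v, x⟫ = c} with h | ⟨x₀, hx₀⟩
  · rw [h]; simp
  have hx₀' : ⟪v, x₀⟫ = c := hx₀
  have h1 : {x : 𝔼 | ⟪v, x⟫ = c} =
      (AffineSubspace.mk' x₀ (LinearMap.ker (innerSL ℝ v).toLinearMap) : Set 𝔼) := by
    ext x
    simp only [Set.mem_ofPred_eq, SetLike.mem_coe, AffineSubspace.mem_mk', vsub_eq_sub,
      LinearMap.mem_ker, ContinuousLinearMap.coe_coe, innerSL_apply_apply, inner_sub_right]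
    rw [hx₀']
    constructor
    · intro h; rw [h]; ring
    · intro h; linarith
  rw [h1]
  apply Measure.addHaar_affineSubspace
  intro htop
  have h2 : (x₀ + v : 𝔼) ∈ (AffineSubspace.mk' x₀ (LinearMap.ker (innerSL ℝ v).toLinearMap)) := by
    rw [htop]; trivial
  simp only [AffineSubspace.mem_mk', vsub_eq_sub, add_sub_cancel_left, LinearMap.mem_ker,
    ContinuousLinearMap.coe_coe, innerSL_apply_apply] at h2
  exact hv (inner_self_eq_zero.1 h2)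

omit [Fintype ι] [Nonempty ι] in
lemma volume_cell_inter {K : Set 𝔼} {y : ι → 𝔼} (hy : Function.Injective y) (ψ : ι → ℝ) {i j : ι}
    (hij : i ≠ j) : volume (cell K y ψ i ∩ cell K y ψ j) = 0 := by
  refine measure_mono_null ?_ (volume_hyperplane (y i - y j) (sub_ne_zero.2 (hy.ne hij))
    (ψ i - ψ j))
  rintro x ⟨h1, h2⟩
  have e1 := h1.2 j
  have e2 := h2.2 i
  simp only [Set.mem_ofPred_eq, inner_sub_left]
  linarith

lemma integral_eq_sum_cell {K : Set 𝔼} (hK : IsClosed K) {y : ι → 𝔼} (hy : Function.Injective y)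
    (ψ : ι → ℝ) {F : Type*} [NormedAddCommGroup F] [NormedSpace ℝ F] {f : 𝔼 → F}
    (hf : IntegrableOn f K) :
    ∫ x in K, f x = ∑ i, ∫ x in cell K y ψ i, f x := by
  have h := integral_iUnion_ae (μ := volume) (f := f) (s := fun i => cell K y ψ i)
    (fun i => (measurableSet_cell hK y ψ i).nullMeasurableSet)
    (fun i j hij => volume_cell_inter hy ψ hij) (by rw [iUnion_cell]; exact hf)
  rw [iUnion_cell, tsum_fintype] at h
  exact h

lemma sum_volume_cell {K : Set 𝔼} (hK : IsCompact K) {y : ι → 𝔼} (hy : Function.Injective y)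
    (ψ : ι → ℝ) : ∑ i, volume.real (cell K y ψ i) = volume.real K := by
  have h := integral_eq_sum_cell hK.isClosed hy ψ (f := fun _ => (1 : ℝ)) (K := K)
    (by simpa using hK.measure_lt_top)
  simpa using h.symm

omit [Fintype ι] [Nonempty ι] in
lemma midpoint_mem_cell {K : Set 𝔼} (hK : Convex ℝ K) {y : ι → 𝔼} {ψ ψ' : ι → ℝ} {i : ι}
    {x x' : 𝔼} (hx : x ∈ cell K y ψ i) (hx' : x' ∈ cell K y ψ' i) :
    (2⁻¹ : ℝ) • (x + x') ∈ cell K y (fun j => 2⁻¹ * (ψ j + ψ' j)) i := by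
  refine ⟨?_, fun j => ?_⟩
  · rw [smul_add]
    exact hK hx.1 hx'.1 (by norm_num) (by norm_num) (by norm_num)
  · have e1 := hx.2 j
    have e2 := hx'.2 j
    simp only [inner_smul_right, inner_add_right]
    linarith

end Crest.Agent.H3.OT
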