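import Mathlib
import Crest.Agent.H3.OT.Cells

/-!
The key inequality for a pair of Laguerre cells (real part).
-/

set_option autoImplicit false
open MeasureTheory Set
open scoped ENNReal NNReal Pointwise RealInnerProductSpace

namespace Crest.Agent.H3.OT

lemma add_sq_le_two (a b : ℝ) : (a + b) ^ 2 ≤ 2 * a ^ 2 + 2 * b ^ 2 := by
  nlinarith [sq_nonneg (a - b)]

lemma wlow {A B W : ℝ} (hT : 0 < A + B) (hW : 0 ≤ W) (h : A * B ≤ W ^ 2) :
    (A + B) / 2 - (A - B) ^ 2 / (2 * (A + B)) ≤ W := by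
  by_contra hcon
  push Not at hcon
  have hD0 : 0 ≤ (A - B) ^ 2 / (2 * (A + B)) := by positivity
  have hlt : W ^ 2 < ((A + B) / 2 - (A - B) ^ 2 / (2 * (A + B))) ^ 2 := by
    apply pow_lt_pow_left₀ hcon hW; norm_num
  set D := (A - B) ^ 2 / (2 * (A + B)) with hD
  have hDT : D * (2 * (A + B)) = (A - B) ^ 2 := by rw [hD]; field_simp
  have hDle : 0 ≤ (A + B) / 2 - D := by linarith
  have e1 := mul_nonneg hD0 hDle
  clear_value D
  nlinarith only [e1, hDT, hlt, h]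

lemma real_aux1 {R l θ Q p X : ℝ} (hp : p = X ^ 2) (hQ : Q = p + 1 / 2 * (l * θ))
    (hlθ : l * R ^ 2 = θ) : (3 * (R * X) + 2 * |θ|) ^ 2 ≤ 18 * R ^ 2 * Q := by
  have f1 : 18 * R ^ 2 * Q = 18 * R ^ 2 * X ^ 2 + 9 * θ ^ 2 := by
    rw [hQ, hp]
    have : R ^ 2 * (l * θ) = θ ^ 2 := by
      calc R ^ 2 * (l * θ) = (l * R ^ 2) * θ := by ring
        _ = θ ^ 2 := by rw [hlθ]; ring
    linear_combination 9 * this
  rw [f1, ← sq_abs θ]
  have f2 := add_sq_le_two (3 * (R * X)) (2 * |θ|)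
  have f3 := sq_nonneg |θ|
  linarith only [f2, f3]

lemma real_aux2 {R Q m m' U T D2 : ℝ} (hR : 0 < R) (hm' : 0 < m') (hQ0 : 0 ≤ Q)
    (hT : 2304 * R ^ 2 * m' ≤ T) (hU : U = 2305 * R ^ 2 * |m - m'|)
    (hD : D2 ≤ 2 * U ^ 2 + 36 * R ^ 2 * m' ^ 2 * Q) :
    D2 / (2 * T) ≤ 2307 * R ^ 2 * ((m - m') ^ 2 / m') + 1 / 128 * (m' * Q) := by
  have hTpos : 0 < T := lt_of_lt_of_le (by positivity) hT
  rw [div_le_iff₀ (by positivity)]
  have e0 : 0 ≤ 2307 * R ^ 2 * ((m - m') ^ 2 / m') + 1 / 128 * (m' * Q) := by positivity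
  have e1 : (2307 * R ^ 2 * ((m - m') ^ 2 / m') + 1 / 128 * (m' * Q)) *
      (2 * (2304 * R ^ 2 * m')) ≤
      (2307 * R ^ 2 * ((m - m') ^ 2 / m') + 1 / 128 * (m' * Q)) * (2 * T) :=
    mul_le_mul_of_nonneg_left (by linarith only [hT]) e0
  refine le_trans ?_ e1
  have e2 : (2307 * R ^ 2 * ((m - m') ^ 2 / m') + 1 / 128 * (m' * Q)) *
      (2 * (2304 * R ^ 2 * m')) =
      2 * (2307 * 2304) * (R ^ 4 * (m - m') ^ 2) + 36 * R ^ 2 * m' ^ 2 * Q := by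
    have : (m - m') ^ 2 / m' * m' = (m - m') ^ 2 := div_mul_cancel₀ _ hm'.ne'
    calc _ = 2 * (2307 * 2304) * (R ^ 4 * ((m - m') ^ 2 / m' * m')) +
          36 * R ^ 2 * m' ^ 2 * Q := by ring
      _ = _ := by rw [this]
  rw [e2]
  refine hD.trans ?_
  have e3 : 2 * U ^ 2 = 2 * 2305 ^ 2 * (R ^ 4 * (m - m') ^ 2) := by
    rw [hU, mul_pow, sq_abs]; ring
  rw [e3]
  have e4 : 0 ≤ R ^ 4 * (m - m') ^ 2 := by positivity
  linarith only [e4]

lemma real_aux3 {R m m' bb s β θ X : ℝ} (hm' : 0 < m') (hbb : 0 ≤ bb) (hs0 : 0 ≤ s)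
    (h1 : bb + s ≤ R ^ 2) (hβ : |β| ≤ R * X) :
    |(m - m') * (2305 * R ^ 2 - bb - s) - m' * (2 * β + θ)| ≤
      2305 * R ^ 2 * |m - m'| + m' * (2 * (R * X) + |θ|) := by
  calc |(m - m') * (2305 * R ^ 2 - bb - s) - m' * (2 * β + θ)|
      ≤ |(m - m') * (2305 * R ^ 2 - bb - s)| + |m' * (2 * β + θ)| := abs_sub _ _
    _ = |m - m'| * |2305 * R ^ 2 - bb - s| + m' * |2 * β + θ| := by
        rw [abs_mul, abs_mul, abs_of_pos hm']
    _ ≤ |m - m'| * (2305 * R ^ 2) + m' * (2 * (R * X) + |θ|) := by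
        gcongr
        · have : 0 ≤ R ^ 2 := sq_nonneg R
          rw [abs_le]; constructor <;> linarith only [h1, hbb, hs0, this]
        · calc |2 * β + θ| ≤ |2 * β| + |θ| := abs_add_le _ _
            _ = 2 * |β| + |θ| := by rw [abs_mul]; norm_num
            _ ≤ 2 * (R * X) + |θ| := by linarith only [hβ]
    _ = _ := by ring

/-- purely real part of the pair inequality -/
lemma real_key {R m m' p X β bb s s' W θ l Q N1 N2 I1 I2 A B : ℝ}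
    (hR : 0 < R) (hm : 0 < m) (hm' : 0 < m')
    (hmm : m ≤ 2 * m') (hX0 : 0 ≤ X) (hp : p = X ^ 2) (hX : X ≤ 2 * R)
    (hs0 : 0 ≤ s) (hs : s ≤ 4 * R ^ 2) (hs0' : 0 ≤ s') (hs' : s' ≤ 4 * R ^ 2)
    (hβ : |β| ≤ R * X) (hbb : 0 ≤ bb)
    (h1 : bb + s ≤ R ^ 2) (h2 : s' - 2 * β + bb ≤ R ^ 2) (hW : 0 ≤ W)
    (hθ : θ = s - s') (hlθ : l * R ^ 2 = θ) (hQ : Q = p + 1 / 2 * (l * θ))
    (hN1 : N1 = 1 / 1024 * (p + l ^ 2 * s))
    (hN2 : N2 = 1 / 1024 * (p - 2 * (l * p) + l ^ 2 * s'))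
    (hI1 : I1 = m * (2305 * R ^ 2 - bb - s))
    (hI2 : I2 = m' * (2305 * R ^ 2 - bb + 2 * β - s'))
    (hA : A = I1 - m * N1) (hB : B = I2 + 1 / 16 * (m' * Q) - m' * N2)
    (hWW : A * B ≤ W ^ 2) :
    1 / 2 * (I1 + I2) + 1 / 128 * (m' * p) - 2307 * R ^ 2 * ((m - m') ^ 2 / m') ≤ W := by
  have hR2 : 0 < R ^ 2 := by positivity
  have hθabs : |θ| ≤ 4 * R ^ 2 := by
    rw [abs_le]; constructor <;> linarith only [hθ, hs0, hs, hs0', hs']
  have hlabs : |l| ≤ 4 := by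
    have : |l| * R ^ 2 = |θ| := by rw [← hlθ, abs_mul, abs_of_pos hR2]
    by_contra hc
    push Not at hc
    have : 4 * R ^ 2 < |l| * R ^ 2 := mul_lt_mul_of_pos_right hc hR2
    linarith
  have hp0 : 0 ≤ p := by rw [hp]; positivity
  have hlθ0 : 0 ≤ l * θ := by
    rw [← hlθ]
    have : l * (l * R ^ 2) = l ^ 2 * R ^ 2 := by ring
    rw [this]; positivity
  have hQ0 : 0 ≤ Q := by rw [hQ]; linarith only [hp0, hlθ0]
  have hpQ : p ≤ Q := by rw [hQ]; linarith only [hp0, hlθ0]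
  have hl2 : ∀ t : ℝ, t ≤ 4 * R ^ 2 → l ^ 2 * t ≤ 4 * (l * θ) := by
    intro t ht
    have : l ^ 2 * t ≤ l ^ 2 * (4 * R ^ 2) := mul_le_mul_of_nonneg_left ht (sq_nonneg l)
    have e : l ^ 2 * (4 * R ^ 2) = 4 * (l * θ) := by rw [← hlθ]; ring
    linarith only [this, e]
  have hl2s := hl2 s hs
  have hl2s' := hl2 s' hs'
  have hl2s0 : 0 ≤ l ^ 2 * s := by positivity
  have hl2s0' : 0 ≤ l ^ 2 * s' := by positivity
  have hlp : |l * p| ≤ 4 * p := by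
    rw [abs_mul, abs_of_nonneg hp0]; exact mul_le_mul_of_nonneg_right hlabs hp0
  obtain ⟨hlp1, hlp2⟩ := abs_le.1 hlp
  have hN1a : 0 ≤ N1 := by rw [hN1]; positivity
  have hN1b : N1 ≤ 1 / 128 * Q := by
    rw [hN1, hQ]; linarith only [hl2s, hp0]
  have hN2a : -(9 / 1024 * Q) ≤ N2 := by
    rw [hN2, hQ]; linarith only [hl2s0', hlp1, hlp2, hp0, hlθ0]
  have hN2b : N2 ≤ 9 / 1024 * Q := by
    rw [hN2, hQ]; linarith only [hl2s', hlp1, hlp2, hp0, hlθ0]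
  have hm'Q : 0 ≤ m' * Q := mul_nonneg hm'.le hQ0
  have hmN1 : m * N1 ≤ 1 / 64 * (m' * Q) := by
    calc m * N1 ≤ 2 * m' * N1 := mul_le_mul_of_nonneg_right hmm hN1a
      _ ≤ 2 * m' * (1 / 128 * Q) := mul_le_mul_of_nonneg_left hN1b (by positivity)
      _ = 1 / 64 * (m' * Q) := by ring
  have hmN1' : 0 ≤ m * N1 := mul_nonneg hm.le hN1a
  have hmN2 : m' * N2 ≤ 9 / 1024 * (m' * Q) := by
    calc m' * N2 ≤ m' * (9 / 1024 * Q) := mul_le_mul_of_nonneg_left hN2b hm'.le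
      _ = _ := by ring
  have hmN2' : -(9 / 1024 * (m' * Q)) ≤ m' * N2 := by
    calc -(9 / 1024 * (m' * Q)) = m' * (-(9 / 1024 * Q)) := by ring
      _ ≤ m' * N2 := mul_le_mul_of_nonneg_left hN2a hm'.le
  have hsum : I1 + I2 + 1 / 32 * (m' * Q) ≤ A + B := by
    rw [hA, hB]; linarith only [hmN1, hmN2, hm'Q]
  have hQ2 : Q ≤ 2 * (R * X) + 2 * |θ| := by
    have e1 : p ≤ 2 * (R * X) := by
      calc p = X * X := by rw [hp]; ring
        _ ≤ 2 * R * X := mul_le_mul_of_nonneg_right hX hX0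
        _ = _ := by ring
    have e2 : l * θ ≤ 4 * |θ| := by
      calc l * θ ≤ |l * θ| := le_abs_self _
        _ = |l| * |θ| := abs_mul _ _
        _ ≤ 4 * |θ| := mul_le_mul_of_nonneg_right hlabs (abs_nonneg _)
    rw [hQ]; linarith only [e1, e2]
  have hI12 : |I1 - I2| ≤ 2305 * R ^ 2 * |m - m'| + m' * (2 * (R * X) + |θ|) := by
    have e : I1 - I2 = (m - m') * (2305 * R ^ 2 - bb - s) - m' * (2 * β + θ) := by
      rw [hI1, hI2, hθ]; ring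
    rw [e]
    exact real_aux3 hm' hbb hs0 h1 hβ
  have hdiff : |A - B| ≤ 2305 * R ^ 2 * |m - m'| + m' * (3 * (R * X) + 2 * |θ|) := by
    have e : A - B = (I1 - I2) - (m * N1 + (1 / 16 * (m' * Q) - m' * N2)) := by
      rw [hA, hB]; ring
    rw [e]
    have e1 : |m * N1 + (1 / 16 * (m' * Q) - m' * N2)| ≤ 3 / 32 * (m' * Q) := by
      rw [abs_le]; constructor <;> linarith only [hmN1, hmN1', hmN2, hmN2', hm'Q]
    have e2 : m' * Q ≤ m' * (2 * (R * X) + 2 * |θ|) := mul_le_mul_of_nonneg_left hQ2 hm'.le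
    have e3 := (abs_sub (I1 - I2) (m * N1 + (1 / 16 * (m' * Q) - m' * N2)))
    have e4 : 0 ≤ m' * (R * X) := by positivity
    have e5 : 0 ≤ m' * |θ| := by positivity
    have e6 : m' * (2 * (R * X) + 2 * |θ|) = 2 * (m' * (R * X)) + 2 * (m' * |θ|) := by ring
    have e7 : m' * (2 * (R * X) + |θ|) = 2 * (m' * (R * X)) + (m' * |θ|) := by ring
    have e8 : m' * (3 * (R * X) + 2 * |θ|) = 3 * (m' * (R * X)) + 2 * (m' * |θ|) := by ring
    rw [e6] at e2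
    rw [e7] at hI12
    rw [e8]
    linarith only [e1, e2, e3, e4, e5, hI12]
  have hdiff2 : (A - B) ^ 2 ≤ 2 * (2305 * R ^ 2 * |m - m'|) ^ 2 + 36 * R ^ 2 * m' ^ 2 * Q := by
    have e1 : (A - B) ^ 2 ≤ (2305 * R ^ 2 * |m - m'| + m' * (3 * (R * X) + 2 * |θ|)) ^ 2 := by
      rw [← sq_abs (A - B)]
      exact pow_le_pow_left₀ (abs_nonneg _) hdiff 2
    have e2 := real_aux1 (R := R) hp hQ hlθ
    have e3 : (m' * (3 * (R * X) + 2 * |θ|)) ^ 2 ≤ m' ^ 2 * (18 * R ^ 2 * Q) := by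
      rw [mul_pow]; exact mul_le_mul_of_nonneg_left e2 (sq_nonneg _)
    have e4 := add_sq_le_two (2305 * R ^ 2 * |m - m'|) (m' * (3 * (R * X) + 2 * |θ|))
    calc (A - B) ^ 2 ≤ _ := e1
      _ ≤ _ := e4
      _ ≤ 2 * (2305 * R ^ 2 * |m - m'|) ^ 2 + 2 * (m' ^ 2 * (18 * R ^ 2 * Q)) := by gcongr
      _ = _ := by ring
  have hI1pos : 0 ≤ I1 := by
    rw [hI1]; exact mul_nonneg hm.le (by linarith only [h1, hR2])
  have hI2pos : 2304 * R ^ 2 * m' ≤ I2 := by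
    rw [hI2]
    have : 2304 * R ^ 2 ≤ 2305 * R ^ 2 - bb + 2 * β - s' := by linarith only [h2]
    calc 2304 * R ^ 2 * m' = m' * (2304 * R ^ 2) := by ring
      _ ≤ _ := mul_le_mul_of_nonneg_left this hm'.le
  have hTlow : 2304 * R ^ 2 * m' ≤ A + B := by linarith only [hsum, hI1pos, hI2pos, hm'Q]
  have hTpos : 0 < A + B := lt_of_lt_of_le (by positivity) hTlow
  have hWlow := wlow hTpos hW hWW
  have hfrac := real_aux2 hR hm' hQ0 hTlow rfl hdiff2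
  have hfin : m' * p ≤ m' * Q := mul_le_mul_of_nonneg_left hpQ hm'.le
  linarith only [hfin, hfrac, hWlow, hsum]

end Crest.Agent.H3.OT
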