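import Mathlib
import Crest.Agent.H3.OT.Pair

set_option autoImplicit false
open MeasureTheory Set
open scoped ENNReal NNReal Pointwise RealInnerProductSpace

namespace Crest.Agent.H3.OT

variable {d : ℕ}

local notation "𝔼" => EuclideanSpace ℝ (Fin d)

lemma integrableOn_of_continuous {F : Type*} [NormedAddCommGroup F] {f : 𝔼 → F}
    (hf : Continuous f) {A : Set 𝔼} {R : ℝ} (hA : A ⊆ Metric.closedBall 0 R) :
    IntegrableOn f A :=
  (hf.continuousOn.integrableOn_compact (isCompact_closedBall 0 R)).mono_set hA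

/-- the tilted weight -/
noncomputable def wt (Λ κ l s : ℝ) (ξ b x : 𝔼) : ℝ :=
  Λ - ‖x‖ ^ 2 + κ * (⟪ξ, x - b⟫ + l / 2 * (‖x - b‖ ^ 2 - s)) - κ ^ 2 / 4 * ‖ξ + l • (x - b)‖ ^ 2

lemma continuous_wt (Λ κ l s : ℝ) (ξ b : 𝔼) : Continuous (wt Λ κ l s ξ b) := by
  unfold wt
  fun_prop

lemma wt_mid (Λ κ l s : ℝ) (ξ b x x' : 𝔼) :
    wt Λ κ l s ξ b x + wt Λ (-κ) l s ξ b x' ≤ 2 * (Λ - ‖(2⁻¹ : ℝ) • (x + x')‖ ^ 2) := by
  have h0 : ‖(2⁻¹ : ℝ) • (x + x')‖ ^ 2 = (‖x‖ ^ 2 + 2 * ⟪x, x'⟫ + ‖x'‖ ^ 2) / 4 := by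
    rw [norm_smul, mul_pow, norm_add_sq_real]; norm_num; ring
  have h1 : ∀ a G : 𝔼, 1 / 2 * ⟪a, G⟫ ≤ 1 / 4 * ‖a‖ ^ 2 + 1 / 4 * ‖G‖ ^ 2 := by
    intro a G
    have := sq_nonneg ‖a - G‖
    rw [norm_sub_sq_real] at this
    linarith
  have h2 := h1 (x - x') (κ • (ξ + l • (x - b)))
  have h3 := h1 (x - x') (κ • (ξ + l • (x' - b)))
  have n1 : ‖κ • (ξ + l • (x - b))‖ ^ 2 = κ ^ 2 * ‖ξ + l • (x - b)‖ ^ 2 := by
    rw [norm_smul, mul_pow, Real.norm_eq_abs, sq_abs]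
  have n2 : ‖κ • (ξ + l • (x' - b))‖ ^ 2 = κ ^ 2 * ‖ξ + l • (x' - b)‖ ^ 2 := by
    rw [norm_smul, mul_pow, Real.norm_eq_abs, sq_abs]
  rw [n1] at h2
  rw [n2] at h3
  have n3 : ‖x - x'‖ ^ 2 = ‖x‖ ^ 2 - 2 * ⟪x, x'⟫ + ‖x'‖ ^ 2 := norm_sub_sq_real x x'
  have n4 : κ * (⟪ξ, x - b⟫ + l / 2 * (‖x - b‖ ^ 2 - s)) -
      κ * (⟪ξ, x' - b⟫ + l / 2 * (‖x' - b‖ ^ 2 - s)) =
      1 / 2 * ⟪x - x', κ • (ξ + l • (x - b))⟫ + 1 / 2 * ⟪x - x', κ • (ξ + l • (x' - b))⟫ := by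
    have hx : x - x' = (x - b) - (x' - b) := by abel
    rw [hx]
    generalize x - b = u
    generalize x' - b = u'
    simp only [inner_smul_right, inner_add_right, inner_sub_left, inner_sub_right, real_inner_comm ξ,
      real_inner_self_eq_norm_sq, real_inner_comm u u']
    ring
  unfold wt
  rw [h0]
  have e : (-κ) * (⟪ξ, x' - b⟫ + l / 2 * (‖x' - b‖ ^ 2 - s)) =
    - (κ * (⟪ξ, x' - b⟫ + l / 2 * (‖x' - b‖ ^ 2 - s))) := by ring
  have e' : (-κ) ^ 2 = κ ^ 2 := by ring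
  rw [e, e']
  linarith

lemma integral_wt (Λ κ l s : ℝ) (ξ b : 𝔼) {A : Set 𝔼} {R : ℝ}
    (hA : A ⊆ Metric.closedBall 0 R) :
    ∫ x in A, wt Λ κ l s ξ b x =
      (Λ - ‖b‖ ^ 2 - κ * l / 2 * s - κ ^ 2 / 4 * ‖ξ‖ ^ 2) * volume.real A +
      ⟪(κ - κ ^ 2 / 2 * l) • ξ - (2 : ℝ) • b, ∫ x in A, (x - b)⟫ +
      (-1 + κ * l / 2 - κ ^ 2 / 4 * l ^ 2) * ∫ x in A, ‖x - b‖ ^ 2 := by
  have hq : ∀ x, wt Λ κ l s ξ b x = (Λ - ‖b‖ ^ 2 - κ * l / 2 * s - κ ^ 2 / 4 * ‖ξ‖ ^ 2) +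
      ⟪(κ - κ ^ 2 / 2 * l) • ξ - (2 : ℝ) • b, x - b⟫ +
      (-1 + κ * l / 2 - κ ^ 2 / 4 * l ^ 2) * ‖x - b‖ ^ 2 := by
    intro x
    unfold wt
    have hx : ‖x‖ ^ 2 = ‖x - b‖ ^ 2 + 2 * ⟪b, x - b⟫ + ‖b‖ ^ 2 := by
      have : x = (x - b) + b := by abel
      conv_lhs => rw [this]
      rw [norm_add_sq_real, real_inner_comm]
    have hx2 : ‖ξ + l • (x - b)‖ ^ 2 = ‖ξ‖ ^ 2 + 2 * (l * ⟪ξ, x - b⟫) + l ^ 2 * ‖x - b‖ ^ 2 := by
      rw [norm_add_sq_real, inner_smul_right, norm_smul, mul_pow, Real.norm_eq_abs, sq_abs]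
    rw [hx, hx2, inner_sub_left, inner_smul_left, inner_smul_left]
    simp only [conj_trivial]
    ring
  simp_rw [hq]
  have i1 : IntegrableOn (fun _ : 𝔼 => (Λ - ‖b‖ ^ 2 - κ * l / 2 * s - κ ^ 2 / 4 * ‖ξ‖ ^ 2)) A :=
    integrableOn_of_continuous (by fun_prop) hA
  have i2 : IntegrableOn (fun x : 𝔼 => ⟪(κ - κ ^ 2 / 2 * l) • ξ - (2 : ℝ) • b, x - b⟫) A :=
    integrableOn_of_continuous (by fun_prop) hA
  have i3 : IntegrableOn (fun x : 𝔼 => (-1 + κ * l / 2 - κ ^ 2 / 4 * l ^ 2) * ‖x - b‖ ^ 2) A :=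
    integrableOn_of_continuous (by fun_prop) hA
  have i4 : IntegrableOn (fun x : 𝔼 => x - b) A :=
    integrableOn_of_continuous (by fun_prop) hA
  have i12 : IntegrableOn (fun x : 𝔼 => (Λ - ‖b‖ ^ 2 - κ * l / 2 * s - κ ^ 2 / 4 * ‖ξ‖ ^ 2) +
      ⟪(κ - κ ^ 2 / 2 * l) • ξ - (2 : ℝ) • b, x - b⟫) A := i1.add i2
  rw [integral_add i12 i3, integral_add i1 i2, integral_const_mul, integral_inner i4]
  simp [Measure.real, mul_comm]

lemma norm_avg_le {A : Set 𝔼} {R : ℝ} (hR : 0 ≤ R) (hA : A ⊆ Metric.closedBall 0 R) :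
    ‖(volume.real A)⁻¹ • ∫ x in A, x‖ ≤ R := by
  have hfin : volume A < ∞ := lt_of_le_of_lt (measure_mono hA) measure_closedBall_lt_top
  have h1 : ‖∫ x in A, x‖ ≤ R * volume.real A := by
    refine norm_setIntegral_le_of_norm_le_const hfin ?_
    intro x hx
    simpa using hA hx
  rw [norm_smul, norm_inv, Real.norm_of_nonneg measureReal_nonneg]
  rcases eq_or_ne (volume.real A) 0 with h0 | h0
  · rw [h0]; simpa using hR
  · have hpos : 0 < volume.real A := lt_of_le_of_ne measureReal_nonneg (Ne.symm h0)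
    rw [inv_mul_le_iff₀ hpos]
    linarith

/-- first and second moments about a point -/
lemma integral_sub_bary {A : Set 𝔼} {R : ℝ} (hA : A ⊆ Metric.closedBall 0 R) (b : 𝔼) :
    ∫ x in A, (x - b) = (∫ x in A, x) - volume.real A • b := by
  have hfin : volume A ≠ ∞ := (lt_of_le_of_lt (measure_mono hA) measure_closedBall_lt_top).ne
  have i1 : IntegrableOn (fun x : 𝔼 => x) A := integrableOn_of_continuous continuous_id hA
  have i2 : IntegrableOn (fun _ : 𝔼 => b) A := integrableOn_of_continuous continuous_const hA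
  rw [integral_sub i1 i2, setIntegral_const]

set_option maxHeartbeats 1000000 in
lemma pair_ineq {R : ℝ} (hR : 0 < R) {A A' M : Set 𝔼} (hAm : MeasurableSet A)
    (hAm' : MeasurableSet A') (hMm : MeasurableSet M)
    (hA : A ⊆ Metric.closedBall 0 R) (hA' : A' ⊆ Metric.closedBall 0 R)
    (hM : M ⊆ Metric.closedBall 0 R)
    (hmid : ∀ x ∈ A, ∀ y ∈ A', (2⁻¹ : ℝ) • (x + y) ∈ M)
    (hm : 0 < volume.real A) (hm' : 0 < volume.real A')
    (hmm : volume.real A ≤ 2 * volume.real A') :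
    1 / 2 * ((∫ x in A, (2305 * R ^ 2 - ‖x‖ ^ 2)) + ∫ x in A', (2305 * R ^ 2 - ‖x‖ ^ 2))
      + 1 / 128 * (volume.real A' * ‖(volume.real A)⁻¹ • (∫ x in A, x) -
          (volume.real A')⁻¹ • (∫ x in A', x)‖ ^ 2)
      - 2307 * R ^ 2 * ((volume.real A - volume.real A') ^ 2 / volume.real A')
      ≤ ∫ x in M, (2305 * R ^ 2 - ‖x‖ ^ 2) := by
  set m := volume.real A with hmdef
  set m' := volume.real A' with hmdef'
  set b := m⁻¹ • (∫ x in A, x) with hb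
  set b' := m'⁻¹ • (∫ x in A', x) with hb'
  set ξ := b - b' with hξ
  have hbR : ‖b‖ ≤ R := norm_avg_le hR.le hA
  have hbR' : ‖b'‖ ≤ R := norm_avg_le hR.le hA'
  have hmb : (∫ x in A, x) = m • b := by rw [hb, smul_inv_smul₀ hm.ne']
  have hmb' : (∫ x in A', x) = m' • b' := by rw [hb', smul_inv_smul₀ hm'.ne']
  have hV1 : ∫ x in A, (x - b) = 0 := by
    rw [integral_sub_bary hA, hmb, sub_self]
  have hV1' : ∫ x in A', (x - b) = -(m' • ξ) := by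
    rw [integral_sub_bary hA', hmb', hξ, smul_sub]; abel
  have hfin : volume A ≠ ∞ := (lt_of_le_of_lt (measure_mono hA) measure_closedBall_lt_top).ne
  have hfin' : volume A' ≠ ∞ := (lt_of_le_of_lt (measure_mono hA') measure_closedBall_lt_top).ne
  -- second moments
  set s := m⁻¹ * ∫ x in A, ‖x - b‖ ^ 2 with hs
  set s' := m'⁻¹ * ∫ x in A', ‖x - b‖ ^ 2 with hs'
  have hV2 : ∫ x in A, ‖x - b‖ ^ 2 = m * s := by rw [hs, mul_inv_cancel_left₀ hm.ne']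
  have hV2' : ∫ x in A', ‖x - b‖ ^ 2 = m' * s' := by rw [hs', mul_inv_cancel_left₀ hm'.ne']
  have hs0 : 0 ≤ s := by
    rw [hs]; exact mul_nonneg (inv_nonneg.2 hm.le) (integral_nonneg fun x => by positivity)
  have hs0' : 0 ≤ s' := by
    rw [hs']; exact mul_nonneg (inv_nonneg.2 hm'.le) (integral_nonneg fun x => by positivity)
  have hball : ∀ x ∈ Metric.closedBall (0 : 𝔼) R, ‖x - b‖ ^ 2 ≤ 4 * R ^ 2 := by
    intro x hx
    have h1 : ‖x‖ ≤ R := by simpa using hx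
    have h2 : ‖x - b‖ ≤ 2 * R := (norm_sub_le _ _).trans (by linarith)
    calc ‖x - b‖ ^ 2 ≤ (2 * R) ^ 2 := pow_le_pow_left₀ (norm_nonneg _) h2 2
      _ = _ := by ring
  have hs4 : s ≤ 4 * R ^ 2 := by
    have : ∫ x in A, ‖x - b‖ ^ 2 ≤ ∫ x in A, 4 * R ^ 2 :=
      setIntegral_mono_on (integrableOn_of_continuous (by fun_prop) hA)
        (integrableOn_of_continuous (by fun_prop) hA) hAm (fun x hx => hball x (hA hx))
    rw [hV2, setIntegral_const, smul_eq_mul] at this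
    exact le_of_mul_le_mul_left this hm
  have hs4' : s' ≤ 4 * R ^ 2 := by
    have : ∫ x in A', ‖x - b‖ ^ 2 ≤ ∫ x in A', 4 * R ^ 2 :=
      setIntegral_mono_on (integrableOn_of_continuous (by fun_prop) hA')
        (integrableOn_of_continuous (by fun_prop) hA') hAm' (fun x hx => hball x (hA' hx))
    rw [hV2', setIntegral_const, smul_eq_mul] at this
    exact le_of_mul_le_mul_left this hm'
  -- the weight with κ = 0
  have hI : ∀ (D : Set 𝔼), D ⊆ Metric.closedBall 0 R → ∫ x in D, (2305 * R ^ 2 - ‖x‖ ^ 2) =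
      (2305 * R ^ 2 - ‖b‖ ^ 2) * volume.real D - 2 * ⟪b, ∫ x in D, (x - b)⟫ -
        ∫ x in D, ‖x - b‖ ^ 2 := by
    intro D hD
    have := integral_wt (2305 * R ^ 2) 0 0 0 ξ b hD
    have e : ∀ x, wt (2305 * R ^ 2) 0 0 0 ξ b x = 2305 * R ^ 2 - ‖x‖ ^ 2 := by
      intro x; simp [wt]
    simp_rw [e] at this
    rw [this]
    simp only [inner_sub_left, inner_smul_left, conj_trivial]
    ring
  have hIA := hI A hA
  rw [hV1, hV2] at hIA
  have hIA' := hI A' hA'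
  rw [hV1', hV2'] at hIA'
  simp only [inner_zero_right, inner_neg_right, inner_smul_right] at hIA hIA'
  set β := ⟪b, ξ⟫ with hβ
  have hβ' : |β| ≤ R * ‖ξ‖ :=
    (abs_real_inner_le_norm b ξ).trans (mul_le_mul_of_nonneg_right hbR (norm_nonneg _))
  have hX2 : ‖ξ‖ ≤ 2 * R := (norm_sub_le _ _).trans (by linarith)
  have hquadR : ∀ (D : Set 𝔼), MeasurableSet D → D ⊆ Metric.closedBall 0 R →
      2304 * R ^ 2 * volume.real D ≤ ∫ x in D, (2305 * R ^ 2 - ‖x‖ ^ 2) := by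
    intro D hDm hD
    have : ∫ x in D, (2304 * R ^ 2) ≤ ∫ x in D, (2305 * R ^ 2 - ‖x‖ ^ 2) :=
      setIntegral_mono_on (integrableOn_of_continuous (by fun_prop) hD)
        (integrableOn_of_continuous (by fun_prop) hD) hDm (fun x hx => by
          have h1 : ‖x‖ ≤ R := by simpa using hD hx
          have h2 : ‖x‖ ^ 2 ≤ R ^ 2 := pow_le_pow_left₀ (norm_nonneg _) h1 2
          linarith)
    rw [setIntegral_const, smul_eq_mul] at this
    linarith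
  have hqA := hquadR A hAm hA
  have hqA' := hquadR A' hAm' hA'
  rw [hIA] at hqA
  rw [hIA'] at hqA'
  have h1 : ‖b‖ ^ 2 + s ≤ R ^ 2 := by
    have : m * (2304 * R ^ 2) ≤ m * (2305 * R ^ 2 - ‖b‖ ^ 2 - s) := by linarith
    have := le_of_mul_le_mul_left this hm
    linarith
  have h2 : s' - 2 * β + ‖b‖ ^ 2 ≤ R ^ 2 := by
    have : m' * (2304 * R ^ 2) ≤ m' * (2305 * R ^ 2 - ‖b‖ ^ 2 + 2 * β - s') := by linarith
    have := le_of_mul_le_mul_left this hm'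
    linarith
  set θ := s - s' with hθ
  set l := θ / R ^ 2 with hl
  have hlθ : l * R ^ 2 = θ := by rw [hl]; field_simp
  set Q := ‖ξ‖ ^ 2 + 1 / 2 * (l * θ) with hQ
  set W := ∫ x in M, (2305 * R ^ 2 - ‖x‖ ^ 2) with hW
  have hWnn : 0 ≤ W := by
    have := hquadR M hMm hM
    have h0 : 0 ≤ 2304 * R ^ 2 * volume.real M := by positivity
    linarith
  have hl4 : |l| ≤ 4 := by
    have hR2 : 0 < R ^ 2 := by positivity
    have hθabs : |θ| ≤ 4 * R ^ 2 := by rw [abs_le]; constructor <;> linarith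
    rw [hl, abs_div, abs_of_pos hR2, div_le_iff₀ hR2]; exact hθabs
  -- nonnegativity of the weights
  have hwt0 : ∀ κ : ℝ, |κ| = 1 / 16 → ∀ x ∈ Metric.closedBall (0 : 𝔼) R,
      0 ≤ wt (2305 * R ^ 2) κ l s ξ b x := by
    intro κ hκ x hx
    have g1 : ‖x‖ ≤ R := by simpa using hx
    have g2 : ‖x‖ ^ 2 ≤ R ^ 2 := pow_le_pow_left₀ (norm_nonneg _) g1 2
    have g3 : ‖x - b‖ ≤ 2 * R := (norm_sub_le _ _).trans (by linarith)
    have g4 := hball x hx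
    have g5 : |⟪ξ, x - b⟫| ≤ 4 * R ^ 2 := by
      refine (abs_real_inner_le_norm _ _).trans ?_
      calc ‖ξ‖ * ‖x - b‖ ≤ (2 * R) * (2 * R) := mul_le_mul hX2 g3 (norm_nonneg _) (by linarith)
        _ = _ := by ring
    have g6 : |l / 2 * (‖x - b‖ ^ 2 - s)| ≤ 8 * R ^ 2 := by
      rw [abs_mul]
      have : |‖x - b‖ ^ 2 - s| ≤ 4 * R ^ 2 := by
        rw [abs_le]
        have := sq_nonneg ‖x - b‖
        constructor <;> linarith
      have h3 : |l / 2| ≤ 2 := by rw [abs_div, abs_two]; linarith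
      calc |l / 2| * |‖x - b‖ ^ 2 - s| ≤ 2 * (4 * R ^ 2) :=
            mul_le_mul h3 this (abs_nonneg _) (by norm_num)
        _ = _ := by ring
    have g7 : |κ * (⟪ξ, x - b⟫ + l / 2 * (‖x - b‖ ^ 2 - s))| ≤ R ^ 2 := by
      rw [abs_mul, hκ]
      have := (abs_add_le (⟪ξ, x - b⟫) (l / 2 * (‖x - b‖ ^ 2 - s)))
      have hR2 : 0 < R ^ 2 := by positivity
      linarith
    have g8 : ‖ξ + l • (x - b)‖ ≤ 10 * R := by
      refine (norm_add_le _ _).trans ?_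
      rw [norm_smul, Real.norm_eq_abs]
      have : |l| * ‖x - b‖ ≤ 4 * (2 * R) := mul_le_mul hl4 g3 (norm_nonneg _) (by norm_num)
      linarith
    have g9 : ‖ξ + l • (x - b)‖ ^ 2 ≤ 100 * R ^ 2 := by
      calc ‖ξ + l • (x - b)‖ ^ 2 ≤ (10 * R) ^ 2 := pow_le_pow_left₀ (norm_nonneg _) g8 2
        _ = _ := by ring
    have g10 : κ ^ 2 = 1 / 256 := by rw [← sq_abs, hκ]; norm_num
    have g11 := (abs_le.1 g7).1
    unfold wt
    rw [g10]
    have hR2 : 0 < R ^ 2 := by positivity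
    linarith
  have hkp : |(1 / 16 : ℝ)| = 1 / 16 := by norm_num
  have hkn : |(-(1 / 16) : ℝ)| = 1 / 16 := by rw [abs_neg]; norm_num
  have hPL := pl_sets (f := wt (2305 * R ^ 2) (1 / 16) l s ξ b)
    (g := wt (2305 * R ^ 2) (-(1 / 16)) l s ξ b) (h := fun x => 2305 * R ^ 2 - ‖x‖ ^ 2)
    (continuous_wt _ _ _ _ _ _).measurable (continuous_wt _ _ _ _ _ _).measurable
    (by fun_prop) hAm hAm' hMm (integrableOn_of_continuous (continuous_wt _ _ _ _ _ _) hA)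
    (integrableOn_of_continuous (continuous_wt _ _ _ _ _ _) hA')
    (integrableOn_of_continuous (by fun_prop) hM)
    (fun x hx => hwt0 _ hkp x (hA hx)) (fun x hx => hwt0 _ hkn x (hA' hx))
    (fun x hx => by
      have h1 : ‖x‖ ≤ R := by simpa using hM hx
      have h2 : ‖x‖ ^ 2 ≤ R ^ 2 := pow_le_pow_left₀ (norm_nonneg _) h1 2
      have hR2 : 0 < R ^ 2 := by positivity
      show 0 ≤ 2305 * R ^ 2 - ‖x‖ ^ 2
      linarith)
    hmid (by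
      intro x hx x' hx'
      have e1 := wt_mid (2305 * R ^ 2) (1 / 16) l s ξ b x x'
      have e2 := hwt0 _ hkp x (hA hx)
      have e3 := hwt0 _ hkn x' (hA' hx')
      show _ ≤ (2305 * R ^ 2 - ‖(2⁻¹ : ℝ) • (x + x')‖ ^ 2) ^ 2
      set u := wt (2305 * R ^ 2) (1 / 16) l s ξ b x
      set v := wt (2305 * R ^ 2) (-(1 / 16)) l s ξ b x'
      have e4 : ((u + v) / 2) ^ 2 ≤ (2305 * R ^ 2 - ‖(2⁻¹ : ℝ) • (x + x')‖ ^ 2) ^ 2 :=
        pow_le_pow_left₀ (by linarith) (by linarith) 2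
      refine le_trans ?_ e4
      nlinarith only [sq_nonneg (u - v)])
  rw [integral_wt _ _ _ _ _ _ hA, integral_wt _ _ _ _ _ _ hA', hV1, hV1', hV2, hV2'] at hPL
  have hres := real_key (R := R) (m := m) (m' := m') (p := ‖ξ‖ ^ 2) (X := ‖ξ‖) (β := β)
    (bb := ‖b‖ ^ 2) (s := s) (s' := s') (W := W) (θ := θ) (l := l) (Q := Q)
    (N1 := 1 / 1024 * (‖ξ‖ ^ 2 + l ^ 2 * s))
    (N2 := 1 / 1024 * (‖ξ‖ ^ 2 - 2 * (l * ‖ξ‖ ^ 2) + l ^ 2 * s'))
    (I1 := m * (2305 * R ^ 2 - ‖b‖ ^ 2 - s)) (I2 := m' * (2305 * R ^ 2 - ‖b‖ ^ 2 + 2 * β - s'))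
    (A := m * (2305 * R ^ 2 - ‖b‖ ^ 2 - s) - m * (1 / 1024 * (‖ξ‖ ^ 2 + l ^ 2 * s)))
    (B := m' * (2305 * R ^ 2 - ‖b‖ ^ 2 + 2 * β - s') + 1 / 16 * (m' * Q) -
      m' * (1 / 1024 * (‖ξ‖ ^ 2 - 2 * (l * ‖ξ‖ ^ 2) + l ^ 2 * s')))
    hR hm hm' hmm (norm_nonneg _) rfl hX2 hs0 hs4 hs0' hs4' hβ' (sq_nonneg _) h1 h2 hWnn
    rfl hlθ rfl rfl rfl rfl rfl rfl rfl (by
      refine le_trans (le_of_eq ?_) hPL
      simp only [inner_zero_right, inner_neg_right, inner_smul_right, inner_sub_left,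
        inner_smul_left, conj_trivial, real_inner_self_eq_norm_sq, ← hβ]
      rw [← hmdef, ← hmdef', hQ, hθ]
      ring)
  have e1 : ∫ x in A, (2305 * R ^ 2 - ‖x‖ ^ 2) = m * (2305 * R ^ 2 - ‖b‖ ^ 2 - s) := by
    rw [hIA]; ring
  have e2 : ∫ x in A', (2305 * R ^ 2 - ‖x‖ ^ 2) = m' * (2305 * R ^ 2 - ‖b‖ ^ 2 + 2 * β - s') := by
    rw [hIA']; ring
  rw [e1, e2]
  exact hres

end Crest.Agent.H3.OT
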