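import Mathlib
import Crest.Agent.H3.OT.PairGeo

set_option autoImplicit false
open MeasureTheory Set
open scoped ENNReal NNReal Pointwise RealInnerProductSpace

namespace Crest.Agent.H3.OT

variable {d : ℕ}

local notation "𝔼" => EuclideanSpace ℝ (Fin d)

variable {ι : Type*} [Fintype ι] [Nonempty ι]

/-- first moment of a cell -/
noncomputable def fm (K : Set 𝔼) (y : ι → 𝔼) (ψ : ι → ℝ) (i : ι) : 𝔼 :=
  ∫ x in cell K y ψ i, x

/-- volume of a cell -/
noncomputable def mass (K : Set 𝔼) (y : ι → 𝔼) (ψ : ι → ℝ) (i : ι) : ℝ :=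
  volume.real (cell K y ψ i)

lemma bary_stab {R : ℝ} (hR : 0 < R) {K : Set 𝔼} (hKc : IsCompact K) (hKv : Convex ℝ K)
    (hKR : K ⊆ Metric.closedBall 0 R) {y : ι → 𝔼} (hy : Function.Injective y) (ψ ψ' : ι → ℝ)
    (hpos : ∀ i, 0 < mass K y ψ i) (hpos' : ∀ i, 0 < mass K y ψ' i)
    (h2 : ∀ i, mass K y ψ i ≤ 2 * mass K y ψ' i) :
    ∑ i, mass K y ψ' i * ‖(mass K y ψ i)⁻¹ • fm K y ψ i - (mass K y ψ' i)⁻¹ • fm K y ψ' i‖ ^ 2 ≤
      295296 * R ^ 2 * ∑ i, (mass K y ψ i - mass K y ψ' i) ^ 2 / mass K y ψ' i := by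
  set ψm : ι → ℝ := fun j => 2⁻¹ * (ψ j + ψ' j) with hψm
  have hsub : ∀ (χ : ι → ℝ) (i : ι), cell K y χ i ⊆ Metric.closedBall 0 R := fun χ i =>
    (cell_subset K y χ i).trans hKR
  have hmeas : ∀ (χ : ι → ℝ) (i : ι), MeasurableSet (cell K y χ i) := fun χ i =>
    measurableSet_cell hKc.isClosed y χ i
  have hpair := fun i => pair_ineq hR (hmeas ψ i) (hmeas ψ' i) (hmeas ψm i) (hsub ψ i)
    (hsub ψ' i) (hsub ψm i) (fun x hx x' hx' => midpoint_mem_cell hKv hx hx') (hpos i) (hpos' i)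
    (h2 i)
  have hsum := Finset.sum_le_sum (fun i (_ : i ∈ Finset.univ) => hpair i)
  have hint : IntegrableOn (fun x : 𝔼 => 2305 * R ^ 2 - ‖x‖ ^ 2) K :=
    integrableOn_of_continuous (by fun_prop) hKR
  rw [← integral_eq_sum_cell hKc.isClosed hy ψm hint, Finset.sum_sub_distrib,
    Finset.sum_add_distrib, ← Finset.mul_sum, Finset.sum_add_distrib,
    ← integral_eq_sum_cell hKc.isClosed hy ψ hint,
    ← integral_eq_sum_cell hKc.isClosed hy ψ' hint, ← Finset.mul_sum, ← Finset.mul_sum] at hsum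
  unfold mass fm
  linarith

lemma fm_stab {R : ℝ} (hR : 0 < R) {K : Set 𝔼} (hKc : IsCompact K) (hKv : Convex ℝ K)
    (hKR : K ⊆ Metric.closedBall 0 R) {y : ι → 𝔼} (hy : Function.Injective y) (ψ ψ' : ι → ℝ)
    (hpos : ∀ i, 0 < mass K y ψ i) (hpos' : ∀ i, 0 < mass K y ψ' i)
    (h2 : ∀ i, mass K y ψ i ≤ 2 * mass K y ψ' i) (v : ι → 𝔼) :
    ∑ i, ⟪fm K y ψ' i - fm K y ψ i, v i⟫ ≤
      545 * R * (√(∑ i, (mass K y ψ i - mass K y ψ' i) ^ 2 / mass K y ψ' i) *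
        √(∑ i, mass K y ψ' i * ‖v i‖ ^ 2)) := by
  set m := mass K y ψ with hm
  set m' := mass K y ψ' with hm'
  set b : ι → 𝔼 := fun i => (m i)⁻¹ • fm K y ψ i with hb
  set b' : ι → 𝔼 := fun i => (m' i)⁻¹ • fm K y ψ' i with hb'
  set D := ∑ i, (m i - m' i) ^ 2 / m' i with hD
  set N := ∑ i, m' i * ‖v i‖ ^ 2 with hN
  have hstab := bary_stab hR hKc hKv hKR hy ψ ψ' hpos hpos' h2
  rw [← hm, ← hm'] at hstab
  have hfm : ∀ i, fm K y ψ i = m i • b i := fun i => by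
    rw [hb]; simp only; rw [smul_inv_smul₀ (hpos i).ne']
  have hfm' : ∀ i, fm K y ψ' i = m' i • b' i := fun i => by
    rw [hb']; simp only; rw [smul_inv_smul₀ (hpos' i).ne']
  have hbR : ∀ i, ‖b i‖ ≤ R := fun i =>
    norm_avg_le hR.le ((cell_subset K y ψ i).trans hKR)
  have hN0 : 0 ≤ N := Finset.sum_nonneg fun i _ => mul_nonneg (hpos' i).le (sq_nonneg _)
  have hD0 : 0 ≤ D := Finset.sum_nonneg fun i _ => div_nonneg (sq_nonneg _) (hpos' i).le
  have hterm : ∀ i, ⟪fm K y ψ' i - fm K y ψ i, v i⟫ ≤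
      (√(m' i) * ‖b i - b' i‖) * (√(m' i) * ‖v i‖) +
        (R * (|m i - m' i| / √(m' i))) * (√(m' i) * ‖v i‖) := by
    intro i
    have e : fm K y ψ' i - fm K y ψ i = m' i • (b' i - b i) + (m' i - m i) • b i := by
      rw [hfm, hfm']; module
    have hs : √(m' i) * √(m' i) = m' i := Real.mul_self_sqrt (hpos' i).le
    have hs0 : √(m' i) ≠ 0 := (Real.sqrt_pos.2 (hpos' i)).ne'
    rw [e, inner_add_left, inner_smul_left, inner_smul_left]
    simp only [conj_trivial]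
    have h1 : m' i * ⟪b' i - b i, v i⟫ ≤ (√(m' i) * ‖b i - b' i‖) * (√(m' i) * ‖v i‖) := by
      calc m' i * ⟪b' i - b i, v i⟫ ≤ m' i * (‖b' i - b i‖ * ‖v i‖) :=
            mul_le_mul_of_nonneg_left (real_inner_le_norm _ _) (hpos' i).le
        _ = (√(m' i) * √(m' i)) * (‖b' i - b i‖ * ‖v i‖) := by rw [hs]
        _ = _ := by rw [norm_sub_rev]; ring
    have h2 : (m' i - m i) * ⟪b i, v i⟫ ≤ (R * (|m i - m' i| / √(m' i))) * (√(m' i) * ‖v i‖) := by
      calc (m' i - m i) * ⟪b i, v i⟫ ≤ |(m' i - m i) * ⟪b i, v i⟫| := le_abs_self _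
        _ = |m i - m' i| * |⟪b i, v i⟫| := by rw [abs_mul, abs_sub_comm]
        _ ≤ |m i - m' i| * (R * ‖v i‖) := by
            apply mul_le_mul_of_nonneg_left _ (abs_nonneg _)
            exact (abs_real_inner_le_norm _ _).trans
              (mul_le_mul_of_nonneg_right (hbR i) (norm_nonneg _))
        _ = _ := by field_simp
    linarith
  have hCS1 : ∑ i, (√(m' i) * ‖b i - b' i‖) * (√(m' i) * ‖v i‖) ≤
      √(∑ i, m' i * ‖b i - b' i‖ ^ 2) * √N := by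
    have := Real.sum_mul_le_sqrt_mul_sqrt Finset.univ (fun i => √(m' i) * ‖b i - b' i‖)
      (fun i => √(m' i) * ‖v i‖)
    refine this.trans (le_of_eq ?_)
    congr 2
    · refine Finset.sum_congr rfl fun i _ => ?_
      rw [mul_pow, Real.sq_sqrt (hpos' i).le]
    · refine Finset.sum_congr rfl fun i _ => ?_
      rw [mul_pow, Real.sq_sqrt (hpos' i).le]
  have hCS2 : ∑ i, (R * (|m i - m' i| / √(m' i))) * (√(m' i) * ‖v i‖) ≤ R * (√D * √N) := by
    have := Real.sum_mul_le_sqrt_mul_sqrt Finset.univ (fun i => |m i - m' i| / √(m' i))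
      (fun i => √(m' i) * ‖v i‖)
    have e1 : ∑ i, (|m i - m' i| / √(m' i)) ^ 2 = D := by
      refine Finset.sum_congr rfl fun i _ => ?_
      rw [div_pow, Real.sq_sqrt (hpos' i).le, sq_abs]
    have e2 : ∑ i, (√(m' i) * ‖v i‖) ^ 2 = N := by
      refine Finset.sum_congr rfl fun i _ => ?_
      rw [mul_pow, Real.sq_sqrt (hpos' i).le]
    rw [e1, e2] at this
    calc ∑ i, (R * (|m i - m' i| / √(m' i))) * (√(m' i) * ‖v i‖)
        = R * ∑ i, (|m i - m' i| / √(m' i)) * (√(m' i) * ‖v i‖) := by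
          rw [Finset.mul_sum]; exact Finset.sum_congr rfl fun i _ => by ring
      _ ≤ _ := mul_le_mul_of_nonneg_left this hR.le
  have hsq : √(∑ i, m' i * ‖b i - b' i‖ ^ 2) ≤ 544 * R * √D := by
    rw [Real.sqrt_le_left (by positivity)]
    refine hstab.trans ?_
    rw [mul_pow, Real.sq_sqrt hD0]
    have : 0 ≤ R ^ 2 * D := by positivity
    nlinarith
  calc ∑ i, ⟪fm K y ψ' i - fm K y ψ i, v i⟫ ≤ _ := Finset.sum_le_sum fun i _ => hterm i
    _ = _ := Finset.sum_add_distrib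
    _ ≤ √(∑ i, m' i * ‖b i - b' i‖ ^ 2) * √N + R * (√D * √N) := add_le_add hCS1 hCS2
    _ ≤ 544 * R * √D * √N + R * (√D * √N) := by gcongr
    _ = _ := by ring

end Crest.Agent.H3.OT
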