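import Mathlib
import Crest.Agent.H3.OT.Stab

set_option autoImplicit false
open MeasureTheory Set
open scoped ENNReal NNReal Pointwise RealInnerProductSpace

namespace Crest.Agent.H3.OT

variable {d : ℕ}

local notation "𝔼" => EuclideanSpace ℝ (Fin d)

variable {ι : Type*} [Fintype ι] [Nonempty ι]

lemma phi_sub_le (y : ι → 𝔼) (ψ ψ' : ι → ℝ) (x : 𝔼) {c : ℝ} (h : ∀ i, ψ' i - ψ i ≤ c) :
    phi y ψ x - phi y ψ' x ≤ c := by
  obtain ⟨i, hi⟩ := exists_phi_eq y ψ x
  have := le_phi y ψ' x i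
  have := h i
  linarith

lemma abs_phi_sub_le (y : ι → 𝔼) (ψ ψ' : ι → ℝ) (x : 𝔼) :
    |phi y ψ x - phi y ψ' x| ≤ ‖ψ - ψ'‖ := by
  rw [abs_le]
  constructor
  · have := phi_sub_le y ψ' ψ x (c := ‖ψ - ψ'‖) (fun i => by
      have := norm_le_pi_norm (ψ - ψ') i
      have h2 := le_abs_self (ψ i - ψ' i)
      exact h2.trans this)
    linarith
  · exact phi_sub_le y ψ ψ' x (c := ‖ψ - ψ'‖) (fun i => by
      have := norm_le_pi_norm (ψ - ψ') i
      have h2 := neg_abs_le (ψ i - ψ' i)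
      have h3 : |ψ i - ψ' i| ≤ ‖ψ - ψ'‖ := this
      linarith)

lemma phi_x_sub_le (y : ι → 𝔼) (ψ : ι → ℝ) (x x' : 𝔼) {L : ℝ} (hL : ∀ i, ‖y i‖ ≤ L) :
    phi y ψ x - phi y ψ x' ≤ L * ‖x - x'‖ := by
  obtain ⟨i, hi⟩ := exists_phi_eq y ψ x
  have h1 := le_phi y ψ x' i
  have h2 : ⟪y i, x⟫ - ⟪y i, x'⟫ ≤ L * ‖x - x'‖ := by
    rw [← inner_sub_right]
    exact (real_inner_le_norm _ _).trans (mul_le_mul_of_nonneg_right (hL i) (norm_nonneg _))
  linarith

lemma abs_phi_x_sub_le (y : ι → 𝔼) (ψ : ι → ℝ) (x x' : 𝔼) {L : ℝ} (hL : ∀ i, ‖y i‖ ≤ L) :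
    |phi y ψ x - phi y ψ x'| ≤ L * ‖x - x'‖ := by
  rw [abs_le]
  constructor
  · have := phi_x_sub_le y ψ x' x hL
    rw [norm_sub_rev] at this
    linarith
  · exact phi_x_sub_le y ψ x x' hL

lemma exists_bound (y : ι → 𝔼) : ∃ L, 0 ≤ L ∧ ∀ i, ‖y i‖ ≤ L :=
  ⟨‖y‖, norm_nonneg _, fun i => norm_le_pi_norm y i⟩

lemma continuous_phi (y : ι → 𝔼) (ψ : ι → ℝ) : Continuous (phi y ψ) := by
  obtain ⟨L, hL0, hL⟩ := exists_bound y
  refine (LipschitzWith.of_dist_le_mul (K := ⟨L, hL0⟩) fun x x' => ?_).continuous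
  rw [Real.dist_eq, dist_eq_norm]
  exact abs_phi_x_sub_le y ψ x x' hL

/-- the integral of the potential -/
noncomputable def J (K : Set 𝔼) (y : ι → 𝔼) (ψ : ι → ℝ) : ℝ := ∫ x in K, phi y ψ x

lemma integrableOn_phi {K : Set 𝔼} (hK : IsCompact K) (y : ι → 𝔼) (ψ : ι → ℝ) :
    IntegrableOn (phi y ψ) K := (continuous_phi y ψ).continuousOn.integrableOn_compact hK

lemma abs_J_sub_le {K : Set 𝔼} (hK : IsCompact K) (y : ι → 𝔼) (ψ ψ' : ι → ℝ) :
    |J K y ψ - J K y ψ'| ≤ volume.real K * ‖ψ - ψ'‖ := by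
  unfold J
  rw [← integral_sub (integrableOn_phi hK y ψ) (integrableOn_phi hK y ψ')]
  have := norm_setIntegral_le_of_norm_le_const (μ := volume) (s := K)
    (f := fun x => phi y ψ x - phi y ψ' x) (C := ‖ψ - ψ'‖) hK.measure_lt_top
    (fun x _ => abs_phi_sub_le y ψ ψ' x)
  rw [Real.norm_eq_abs] at this
  linarith

lemma continuous_J {K : Set 𝔼} (hK : IsCompact K) (y : ι → 𝔼) :
    Continuous (fun ψ : ι → ℝ => J K y ψ) := by
  refine (LipschitzWith.of_dist_le_mul (K := ⟨volume.real K, measureReal_nonneg⟩)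
    fun ψ ψ' => ?_).continuous
  rw [Real.dist_eq, dist_eq_norm]
  exact abs_J_sub_le hK y ψ ψ'

/-- joint subgradient inequality -/
lemma J_subgradient {K : Set 𝔼} (hK : IsCompact K) {y : ι → 𝔼} (hy : Function.Injective y)
    (ψ : ι → ℝ) (y' : ι → 𝔼) (ψ' : ι → ℝ) :
    J K y ψ + ∑ i, ⟪y' i - y i, fm K y ψ i⟫ - ∑ i, mass K y ψ i * (ψ' i - ψ i) ≤ J K y' ψ' := by
  have hcl := hK.isClosed
  have hsub : ∀ i, cell K y ψ i ⊆ K := cell_subset K y ψ
  unfold J
  rw [integral_eq_sum_cell hcl hy ψ (integrableOn_phi hK y ψ),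
    integral_eq_sum_cell hcl hy ψ (integrableOn_phi hK y' ψ'), ← Finset.sum_add_distrib,
    ← Finset.sum_sub_distrib]
  refine Finset.sum_le_sum fun i _ => ?_
  have hfin : volume (cell K y ψ i) ≠ ∞ :=
    (lt_of_le_of_lt (measure_mono (hsub i)) hK.measure_lt_top).ne
  have icont : ∀ {f : 𝔼 → ℝ}, Continuous f → IntegrableOn f (cell K y ψ i) := fun hf =>
    (hf.continuousOn.integrableOn_compact hK).mono_set (hsub i)
  have iid : IntegrableOn (fun x : 𝔼 => x) (cell K y ψ i) :=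
    (continuous_id.continuousOn.integrableOn_compact hK).mono_set (hsub i)
  have e1 : ⟪y' i - y i, fm K y ψ i⟫ = ∫ x in cell K y ψ i, ⟪y' i - y i, x⟫ := by
    unfold fm; rw [← integral_inner iid]
  have e2 : mass K y ψ i * (ψ' i - ψ i) = ∫ x in cell K y ψ i, (ψ' i - ψ i) := by
    rw [setIntegral_const, smul_eq_mul]; rfl
  have c0 : Continuous (fun x : 𝔼 => ⟪y' i - y i, x⟫) := by fun_prop
  have c1 : Continuous (fun x : 𝔼 => phi y ψ x + ⟪y' i - y i, x⟫) :=
    (continuous_phi y ψ).add c0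
  have c2 : Continuous (fun _ : 𝔼 => ψ' i - ψ i) := continuous_const
  rw [e1, e2, ← integral_add (icont (continuous_phi y ψ)) (icont c0),
    ← integral_sub (icont c1) (icont c2)]
  refine setIntegral_mono_on (icont (c1.sub c2))
    (icont (continuous_phi y' ψ')) (measurableSet_cell hcl y ψ i) ?_
  intro x hx
  have h1 := phi_eq_of_mem_cell hx
  have h2 := le_phi y' ψ' x i
  rw [h1, inner_sub_left]
  linarith

lemma theta_lower {K : Set 𝔼} (hK : IsCompact K) {R L : ℝ}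
    (hKR : K ⊆ Metric.closedBall 0 R) {y : ι → 𝔼} (hL : ∀ i, ‖y i‖ ≤ L) {m : ι → ℝ} {μ : ℝ}
    (hm : ∀ i, μ ≤ m i) (hμ : 0 ≤ μ) (hsum : ∑ i, m i = volume.real K) (ψ : ι → ℝ) (j k : ι) :
    μ * (ψ j - ψ k) ≤ J K y ψ + ∑ i, m i * ψ i + volume.real K * (R * L) := by
  obtain ⟨i₀, hi₀⟩ := Finite.exists_min ψ
  have hV0 : 0 ≤ volume.real K := measureReal_nonneg
  have hJ : volume.real K * (-(R * L) - ψ i₀) ≤ J K y ψ := by
    unfold J
    have : ∫ x in K, (-(R * L) - ψ i₀) ≤ ∫ x in K, phi y ψ x := by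
      refine setIntegral_mono_on (by simpa using Or.inr hK.measure_lt_top)
        (integrableOn_phi hK y ψ) hK.measurableSet ?_
      intro x hx
      refine le_trans ?_ (le_phi y ψ x i₀)
      have h1 : ‖x‖ ≤ R := by simpa using hKR hx
      have h2 := abs_real_inner_le_norm (y i₀) x
      have h3 : ‖y i₀‖ * ‖x‖ ≤ L * R := mul_le_mul (hL i₀) h1 (norm_nonneg _)
        ((norm_nonneg _).trans (hL i₀))
      have h4 := neg_abs_le (⟪y i₀, x⟫)
      linarith
    rwa [setIntegral_const, smul_eq_mul] at this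
  have hs : ∑ i, m i * (ψ i - ψ i₀) = ∑ i, m i * ψ i - volume.real K * ψ i₀ := by
    rw [← hsum, Finset.sum_mul, ← Finset.sum_sub_distrib]
    exact Finset.sum_congr rfl fun i _ => by ring
  have hs2 : m j * (ψ j - ψ i₀) ≤ ∑ i, m i * (ψ i - ψ i₀) :=
    Finset.single_le_sum (f := fun i => m i * (ψ i - ψ i₀))
      (fun i _ => mul_nonneg (hμ.trans (hm i)) (sub_nonneg.2 (hi₀ i))) (Finset.mem_univ j)
  have h5 : μ * (ψ j - ψ k) ≤ μ * (ψ j - ψ i₀) :=
    mul_le_mul_of_nonneg_left (by linarith [hi₀ k]) hμ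
  have h6 : μ * (ψ j - ψ i₀) ≤ m j * (ψ j - ψ i₀) :=
    mul_le_mul_of_nonneg_right (hm j) (sub_nonneg.2 (hi₀ j))
  nlinarith

/-- lowering one dual value by `s` -/
lemma J_update_le {K : Set 𝔼} (hK : IsCompact K) (y : ι → 𝔼) (ψ : ι → ℝ)
    (i : ι) {s : ℝ} (hs : 0 ≤ s) [DecidableEq ι] :
    J K y (Function.update ψ i (ψ i - s)) ≤
      J K y ψ + s * mass K y (Function.update ψ i (ψ i - s)) i := by
  set ψs := Function.update ψ i (ψ i - s) with hψs
  have hcl := hK.isClosed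
  have hmeas := measurableSet_cell hcl y ψs i
  have hsub : cell K y ψs i ⊆ K := cell_subset K y ψs i
  have e2 : s * mass K y ψs i = ∫ x in K, (cell K y ψs i).indicator (fun _ => s) x := by
    rw [setIntegral_indicator hmeas, Set.inter_eq_self_of_subset_right hsub, setIntegral_const,
      smul_eq_mul, mul_comm]
    rfl
  have hind : IntegrableOn ((cell K y ψs i).indicator (fun _ => s)) K :=
    (continuous_const.continuousOn.integrableOn_compact hK).indicator hmeas
  rw [e2]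
  unfold J
  rw [← integral_add (integrableOn_phi hK y ψ) hind]
  refine setIntegral_mono_on (integrableOn_phi hK y ψs)
    ((integrableOn_phi hK y ψ).add hind) hK.measurableSet ?_
  intro x hx
  by_cases hxc : x ∈ cell K y ψs i
  · rw [Set.indicator_of_mem hxc, phi_eq_of_mem_cell hxc]
    have := le_phi y ψ x i
    simp only [hψs, Function.update_self]
    linarith
  · rw [Set.indicator_of_notMem hxc, add_zero]
    obtain ⟨j, hj⟩ := exists_phi_eq y ψs x
    have hji : j ≠ i := by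
      rintro rfl
      exact hxc (mem_cell_iff.2 ⟨hx, hj⟩)
    rw [hj]
    have := le_phi y ψ x j
    simp only [hψs, Function.update_of_ne hji]
    exact this

omit [Nonempty ι] in
lemma mass_tendsto {K : Set 𝔼} (hK : IsCompact K) (y : ι → 𝔼) (ψ : ι → ℝ) (i : ι)
    [DecidableEq ι] :
    Filter.Tendsto (fun n : ℕ => mass K y (Function.update ψ i (ψ i - 1 / ((n : ℝ) + 1))) i)
      Filter.atTop (nhds (mass K y ψ i)) := by
  set S : ℕ → Set 𝔼 := fun n => cell K y (Function.update ψ i (ψ i - 1 / ((n : ℝ) + 1))) i with hS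
  have hmem : ∀ (t : ℝ) (x : 𝔼), x ∈ cell K y (Function.update ψ i (ψ i - t)) i ↔
      x ∈ K ∧ ∀ j, j ≠ i → ⟪y j, x⟫ - ψ j ≤ ⟪y i, x⟫ - ψ i + t := by
    intro t x
    constructor
    · rintro ⟨h1, h2⟩
      refine ⟨h1, fun j hj => ?_⟩
      have := h2 j
      simp only [Function.update_of_ne hj, Function.update_self] at this
      linarith
    · rintro ⟨h1, h2⟩
      refine ⟨h1, fun j => ?_⟩
      by_cases hj : j = i
      · subst hj; exact le_refl _
      · have := h2 j hj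
        simp only [Function.update_of_ne hj, Function.update_self]
        linarith
  have hanti : Antitone S := by
    intro a b hab x hx
    rw [hS] at hx ⊢
    simp only [hmem] at hx ⊢
    refine ⟨hx.1, fun j hj => (hx.2 j hj).trans ?_⟩
    have : 1 / ((b : ℝ) + 1) ≤ 1 / ((a : ℝ) + 1) := by
      apply one_div_le_one_div_of_le
      · positivity
      · have : (a : ℝ) ≤ b := by exact_mod_cast hab
        linarith
    linarith
  have hinter : ⋂ n, S n = cell K y ψ i := by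
    ext x
    simp only [Set.mem_iInter, hS, hmem]
    constructor
    · intro h
      refine ⟨(h 0).1, fun j => ?_⟩
      by_cases hj : j = i
      · subst hj; exact le_refl _
      · have hlim : Filter.Tendsto (fun n : ℕ => ⟪y i, x⟫ - ψ i + 1 / ((n : ℝ) + 1)) Filter.atTop
            (nhds (⟪y i, x⟫ - ψ i + 0)) :=
          tendsto_const_nhds.add tendsto_one_div_add_atTop_nhds_zero_nat
        rw [add_zero] at hlim
        exact ge_of_tendsto' hlim fun n => (h n).2 j hj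
    · intro h n
      refine ⟨h.1, fun j _ => (h.2 j).trans ?_⟩
      have : 0 ≤ 1 / ((n : ℝ) + 1) := by positivity
      linarith
  have h := tendsto_measure_iInter_atTop (μ := volume) (s := S)
    (fun n => (measurableSet_cell hK.isClosed y _ i).nullMeasurableSet) hanti
    ⟨0, (lt_of_le_of_lt (measure_mono (cell_subset K y _ i)) hK.measure_lt_top).ne⟩
  rw [hinter] at h
  have hne : volume (cell K y ψ i) ≠ ∞ :=
    (lt_of_le_of_lt (measure_mono (cell_subset K y _ i)) hK.measure_lt_top).ne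
  exact (ENNReal.tendsto_toReal hne).comp h

/-- existence of dual potentials with prescribed (perturbed) masses -/
lemma exists_pot {K : Set 𝔼} (hK : IsCompact K) (hV : 0 < volume.real K) {y : ι → 𝔼}
    (hy : Function.Injective y) {m : ι → ℝ} (hm : ∀ i, 0 < m i)
    (hsum : ∑ i, m i = volume.real K) (ψ₀ : ι → ℝ) :
    ∃ B : ℝ, 0 ≤ B ∧ ∀ ε : ℝ, 0 ≤ ε → ∃ ψ : ι → ℝ, ∃ c : ℝ,
      (∑ i, m i * (ψ i - ψ₀ i - c) = 0) ∧ (∀ i, |ψ i - ψ₀ i - c| ≤ B) ∧
      ∀ i, mass K y ψ i = m i * (1 + ε * (ψ i - ψ₀ i - c)) := by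
  classical
  obtain ⟨L, hL0, hL⟩ := exists_bound y
  obtain ⟨R, hR⟩ := hK.isBounded.subset_closedBall (0 : 𝔼)
  obtain ⟨i₀, hi₀⟩ := Finite.exists_min m
  set V := volume.real K with hVdef
  set μ := m i₀ with hμ
  have hμ0 : 0 < μ := hm i₀
  -- the functionals
  set Θ0 : (ι → ℝ) → ℝ := fun ψ => J K y ψ + ∑ i, m i * ψ i with hΘ0
  set q : (ι → ℝ) → ℝ := fun ψ => ∑ i, m i * (ψ i - ψ₀ i) ^ 2 -
    (∑ i, m i * (ψ i - ψ₀ i)) ^ 2 / V with hq
  have hlow : ∀ (ψ : ι → ℝ) (j k : ι), μ * (ψ j - ψ k) ≤ Θ0 ψ + V * (R * L) :=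
    fun ψ j k => theta_lower hK hR hL hi₀ hμ0.le hsum ψ j k
  have hqnn : ∀ ψ, 0 ≤ q ψ := by
    intro ψ
    rw [hq]
    simp only
    rw [sub_nonneg, div_le_iff₀ hV, ← hsum, mul_comm]
    have := Finset.sum_mul_sq_le_sq_mul_sq Finset.univ (fun i => √(m i))
      (fun i => √(m i) * (ψ i - ψ₀ i))
    have e1 : ∀ i, √(m i) * (√(m i) * (ψ i - ψ₀ i)) = m i * (ψ i - ψ₀ i) := fun i => by
      rw [← mul_assoc, Real.mul_self_sqrt (hm i).le]
    have e2 : ∀ i, √(m i) ^ 2 = m i := fun i => Real.sq_sqrt (hm i).le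
    have e3 : ∀ i, (√(m i) * (ψ i - ψ₀ i)) ^ 2 = m i * (ψ i - ψ₀ i) ^ 2 := fun i => by
      rw [mul_pow, e2]
    simp only [e1, e2, e3] at this
    exact this
  have hq0 : q ψ₀ = 0 := by simp [hq]
  have hshift0 : ∀ ψ (c : ℝ), Θ0 (fun i => ψ i - c) = Θ0 ψ := by
    intro ψ c
    have h1 : ∀ x, phi y (fun i => ψ i - c) x = phi y ψ x + c := by
      intro x
      apply le_antisymm
      · refine phi_le fun i => ?_
        have := le_phi y ψ x i
        linarith
      · have : phi y ψ x ≤ phi y (fun i => ψ i - c) x - c := by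
          refine phi_le fun i => ?_
          have := le_phi y (fun i => ψ i - c) x i
          linarith
        linarith
    have h2 : J K y (fun i => ψ i - c) = J K y ψ + V * c := by
      unfold J
      simp_rw [h1]
      rw [integral_add (integrableOn_phi hK y ψ)
        (continuous_const.continuousOn.integrableOn_compact hK), setIntegral_const, smul_eq_mul]
    rw [hΘ0]
    simp only
    rw [h2]
    simp_rw [mul_sub]
    rw [Finset.sum_sub_distrib, ← Finset.sum_mul, hsum]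
    ring
  have hshiftq : ∀ ψ (c : ℝ), q (fun i => ψ i - c) = q ψ := by
    intro ψ c
    rw [hq]
    simp only
    have e1 : ∑ i, m i * (ψ i - c - ψ₀ i) ^ 2 = ∑ i, m i * (ψ i - ψ₀ i) ^ 2 -
        2 * c * ∑ i, m i * (ψ i - ψ₀ i) + c ^ 2 * V := by
      rw [← hsum, Finset.mul_sum, Finset.mul_sum, ← Finset.sum_sub_distrib,
        ← Finset.sum_add_distrib]
      exact Finset.sum_congr rfl fun i _ => by ring
    have e2 : ∑ i, m i * (ψ i - c - ψ₀ i) = ∑ i, m i * (ψ i - ψ₀ i) - c * V := by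
      rw [← hsum, Finset.mul_sum, ← Finset.sum_sub_distrib]
      exact Finset.sum_congr rfl fun i _ => by ring
    rw [e1, e2]
    field_simp
    ring
  set a₀ := Θ0 ψ₀ with ha₀
  set B₁ := (a₀ + V * (R * L)) / μ with hB₁
  set B₂ : ℝ := max B₁ 0 + 2 * ‖ψ₀‖ with hB₂
  have hB₂0 : 0 ≤ B₂ := by
    have := le_max_right B₁ 0
    have := norm_nonneg ψ₀
    positivity
  refine ⟨B₂, hB₂0, fun ε hε => ?_⟩
  set Θ : (ι → ℝ) → ℝ := fun ψ => Θ0 ψ + ε / 2 * q ψ with hΘ
  have hΘcont : Continuous Θ := by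
    have h1 : Continuous Θ0 := (continuous_J hK y).add (by fun_prop)
    have h2 : Continuous q := by
      rw [hq]; fun_prop
    exact h1.add (h2.const_mul _)
  -- minimiser on a box
  have hcomp : IsCompact (Metric.closedBall (0 : ι → ℝ) B₂) := isCompact_closedBall _ _
  obtain ⟨ψ, hψmem, hψmin⟩ := hcomp.exists_isMinOn ⟨0, by simpa using hB₂0⟩ hΘcont.continuousOn
  have hψmin' : ∀ χ ∈ Metric.closedBall (0 : ι → ℝ) B₂, Θ ψ ≤ Θ χ := fun χ hχ => hψmin hχ
  have hψ₀mem : ψ₀ ∈ Metric.closedBall (0 : ι → ℝ) B₂ := by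
    simp only [mem_closedBall_zero_iff, hB₂]
    have := le_max_right B₁ 0
    have := norm_nonneg ψ₀
    linarith
  have hΘψ₀ : Θ ψ₀ = a₀ := by rw [hΘ]; simp only; rw [hq0]; simp [ha₀]
  have hψa : Θ ψ ≤ a₀ := hΘψ₀ ▸ hψmin' ψ₀ hψ₀mem
  have hmin : ∀ χ, Θ ψ ≤ Θ χ := by
    intro χ
    by_contra hcon
    push Not at hcon
    set χ' : ι → ℝ := fun i => χ i - χ i₀ with hχ'
    have hχΘ : Θ χ' = Θ χ := by
      rw [hΘ]; simp only; rw [hχ', hshift0, hshiftq]
    have hχa : Θ0 χ' < a₀ := by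
      have h1 : Θ0 χ' ≤ Θ χ' := by
        rw [hΘ]; simp only
        have := mul_nonneg (by positivity : 0 ≤ ε / 2) (hqnn χ')
        linarith
      linarith
    have hosc : ∀ j k, χ' j - χ' k ≤ B₁ := by
      intro j k
      rw [hB₁, le_div_iff₀ hμ0]
      have := hlow χ' j k
      linarith
    have hmem : χ' ∈ Metric.closedBall (0 : ι → ℝ) B₂ := by
      rw [mem_closedBall_zero_iff]
      rw [pi_norm_le_iff_of_nonneg hB₂0]
      intro i
      have h0 : χ' i₀ = 0 := by simp [hχ']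
      have h1 := hosc i i₀
      have h2 := hosc i₀ i
      rw [h0] at h1 h2
      have h3 := le_max_left B₁ 0
      have h4 := norm_nonneg ψ₀
      rw [Real.norm_eq_abs, abs_le]
      constructor <;> linarith
    have := hψmin' χ' hmem
    linarith
  -- oscillation bound
  have hΘ0ψ : Θ0 ψ ≤ a₀ := by
    have h1 : Θ0 ψ ≤ Θ ψ := by
      rw [hΘ]; simp only
      have := mul_nonneg (by positivity : 0 ≤ ε / 2) (hqnn ψ)
      linarith
    linarith
  have hosc : ∀ j k, ψ j - ψ k ≤ B₁ := by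
    intro j k
    rw [hB₁, le_div_iff₀ hμ0]
    have := hlow ψ j k
    linarith
  set c := (∑ i, m i * (ψ i - ψ₀ i)) / V with hc
  have hcV : c * V = ∑ i, m i * (ψ i - ψ₀ i) := by rw [hc]; field_simp
  have hmean : ∑ i, m i * (ψ i - ψ₀ i - c) = 0 := by
    have : ∑ i, m i * (ψ i - ψ₀ i - c) = ∑ i, m i * (ψ i - ψ₀ i) - c * V := by
      rw [← hsum, Finset.mul_sum, ← Finset.sum_sub_distrib]
      exact Finset.sum_congr rfl fun i _ => by ring
    rw [this, hcV, sub_self]
  have hosc2 : ∀ j k, (ψ j - ψ₀ j) - (ψ k - ψ₀ k) ≤ B₂ := by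
    intro j k
    have h1 := hosc j k
    have h2 := norm_le_pi_norm ψ₀ j
    have h3 := norm_le_pi_norm ψ₀ k
    rw [Real.norm_eq_abs] at h2 h3
    have h4 := neg_abs_le (ψ₀ j)
    have h5 := le_abs_self (ψ₀ k)
    have h6 := le_max_left B₁ 0
    rw [hB₂]; linarith
  have hbd : ∀ i, |ψ i - ψ₀ i - c| ≤ B₂ := by
    intro i
    rw [abs_le]
    constructor
    · -- c ≤ ψ i - ψ₀ i + B₂
      have : c * V ≤ (ψ i - ψ₀ i + B₂) * V := by
        rw [hcV, ← hsum, Finset.mul_sum]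
        refine Finset.sum_le_sum fun j _ => ?_
        rw [mul_comm (ψ i - ψ₀ i + B₂)]
        exact mul_le_mul_of_nonneg_left (by linarith [hosc2 j i]) (hm j).le
      have := le_of_mul_le_mul_right this hV
      linarith
    · have : (ψ i - ψ₀ i - B₂) * V ≤ c * V := by
        rw [hcV, ← hsum, Finset.mul_sum]
        refine Finset.sum_le_sum fun j _ => ?_
        rw [mul_comm (ψ i - ψ₀ i - B₂)]
        exact mul_le_mul_of_nonneg_left (by linarith [hosc2 i j]) (hm j).le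
      have := le_of_mul_le_mul_right this hV
      linarith
  refine ⟨ψ, c, hmean, hbd, ?_⟩
  -- first-order condition
  have hstep : ∀ i, ∀ s : ℝ, 0 < s →
      m i * (1 + ε * (ψ i - ψ₀ i - c)) ≤
        mass K y (Function.update ψ i (ψ i - s)) i + ε / 2 * m i * s := by
    intro i s hs
    set ψs := Function.update ψ i (ψ i - s) with hψs
    have h1 := hmin ψs
    have h2 := J_update_le hK y ψ i hs.le
    rw [← hψs] at h2
    have hsm : ∀ (F : ι → ℝ → ℝ), ∑ j, F j (ψs j) = ∑ j, F j (ψ j) + (F i (ψ i - s) - F i (ψ i)) := by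
      intro F
      rw [← Finset.add_sum_erase _ _ (Finset.mem_univ i),
        ← Finset.add_sum_erase (a := i) _ (fun j => F j (ψ j)) (Finset.mem_univ i)]
      have : ∑ j ∈ Finset.univ.erase i, F j (ψs j) = ∑ j ∈ Finset.univ.erase i, F j (ψ j) := by
        refine Finset.sum_congr rfl fun j hj => ?_
        rw [hψs, Function.update_of_ne (Finset.ne_of_mem_erase hj)]
      rw [this, hψs, Function.update_self]
      ring
    have h3 := hsm (fun j t => m j * t)
    have h4 := hsm (fun j t => m j * (t - ψ₀ j) ^ 2)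
    have h5 := hsm (fun j t => m j * (t - ψ₀ j))
    rw [hΘ, hΘ0, hq] at h1
    simp only at h1
    rw [h3, h4, h5, ← hcV] at h1
    have h6 : (c * V + (m i * (ψ i - s - ψ₀ i) - m i * (ψ i - ψ₀ i))) ^ 2 / V =
        (c * V) ^ 2 / V - 2 * c * (m i * s) + (m i * s) ^ 2 / V := by
      field_simp
      ring
    rw [h6] at h1
    have h7 : 0 ≤ (m i * s) ^ 2 / V := by positivity
    have h8 : 0 ≤ ε / 2 * ((m i * s) ^ 2 / V) := by positivity
    have h9 : s * (m i * (1 + ε * (ψ i - ψ₀ i - c))) ≤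
        s * (mass K y ψs i + ε / 2 * m i * s) := by nlinarith
    exact le_of_mul_le_mul_left h9 hs
  have hge : ∀ i, m i * (1 + ε * (ψ i - ψ₀ i - c)) ≤ mass K y ψ i := by
    intro i
    have hlim : Filter.Tendsto (fun n : ℕ =>
        mass K y (Function.update ψ i (ψ i - 1 / ((n : ℝ) + 1))) i +
          ε / 2 * m i * (1 / ((n : ℝ) + 1))) Filter.atTop
        (nhds (mass K y ψ i + ε / 2 * m i * 0)) :=
      (mass_tendsto hK y ψ i).add (tendsto_one_div_add_atTop_nhds_zero_nat.const_mul _)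
    rw [mul_zero, add_zero] at hlim
    exact ge_of_tendsto' hlim fun n => hstep i _ (by positivity)
  have hsums : ∑ i, m i * (1 + ε * (ψ i - ψ₀ i - c)) = ∑ i, mass K y ψ i := by
    have e1 : ∑ i, mass K y ψ i = V := sum_volume_cell hK hy ψ
    rw [e1, ← hsum]
    have : ∑ i, m i * (1 + ε * (ψ i - ψ₀ i - c)) = ∑ i, m i +
        ε * ∑ i, m i * (ψ i - ψ₀ i - c) := by
      rw [Finset.mul_sum, ← Finset.sum_add_distrib]
      exact Finset.sum_congr rfl fun i _ => by ring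
    rw [this, hmean, mul_zero, add_zero]
  have := (Finset.sum_eq_sum_iff_of_le (fun i _ => hge i)).1 hsums
  exact fun i => (this i (Finset.mem_univ i)).symm

end Crest.Agent.H3.OT
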