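import Mathlib
import Crest.Agent.H3.OT.Pot

set_option autoImplicit false
open MeasureTheory Set
open scoped ENNReal NNReal Pointwise RealInnerProductSpace

namespace Crest.Agent.H3.OT

variable {d : ℕ}

local notation "𝔼" => EuclideanSpace ℝ (Fin d)

variable {ι : Type*} [Fintype ι] [Nonempty ι]

lemma chain_le {S : Set ℝ} (hS : S.Finite) {G D : ℝ → ℝ} {C : ℝ}
    (hstep : ∀ a b, a < b → a ∉ S → b ∉ S → G b - G a ≤ (b - a) * (C + (D b - D a)))
    (hmono : ∀ a b, a < b → a ∉ S → b ∉ S → D a ≤ D b) (h0 : (0 : ℝ) ∉ S) (h1 : (1 : ℝ) ∉ S) :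
    G 1 - G 0 ≤ C := by
  have key : ∀ δ : ℝ, 0 < δ → G 1 - G 0 ≤ C + δ * (D 1 - D 0) := by
    intro δ hδ
    have hsmall : ∀ a b, a < b → a ∉ S → b ∉ S → b - a ≤ δ →
        G b - G a ≤ (b - a) * C + δ * (D b - D a) := by
      intro a b hab ha hb hle
      have e1 := hstep a b hab ha hb
      have e2 := hmono a b hab ha hb
      have e3 : (b - a) * (D b - D a) ≤ δ * (D b - D a) :=
        mul_le_mul_of_nonneg_right hle (by linarith)
      linarith
    have hall : ∀ n : ℕ, ∀ a b, a < b → a ∉ S → b ∉ S → b - a ≤ ((n : ℝ) + 1) * (δ / 2) →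
        G b - G a ≤ (b - a) * C + δ * (D b - D a) := by
      intro n
      induction n with
      | zero =>
        intro a b hab ha hb hle
        refine hsmall a b hab ha hb ?_
        norm_num at hle
        linarith
      | succ n ih =>
        intro a b hab ha hb hle
        rcases le_or_gt (b - a) δ with hc | hc
        · exact hsmall a b hab ha hb hc
        · have hinf : (Set.Ioo (a + δ / 2) (a + δ)).Infinite := Set.Ioo_infinite (by linarith)
          obtain ⟨c, ⟨hc1, hc2⟩, hcS⟩ := (hinf.sdiff hS).nonempty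
          have e1 := hsmall a c (by linarith) ha hcS (by linarith)
          have e2 := ih c b (by linarith) hcS hb (by
            push_cast at hle
            linarith)
          have e3 : (b - a) * C = (c - a) * C + (b - c) * C := by ring
          have e4 : δ * (D b - D a) = δ * (D c - D a) + δ * (D b - D c) := by ring
          linarith
    obtain ⟨n, hn⟩ := exists_nat_gt (1 / (δ / 2))
    have h2 := hall n 0 1 one_pos h0 h1 (by
      have hd : 0 < δ / 2 := by positivity
      rw [div_lt_iff₀ hd] at hn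
      nlinarith)
    linarith
  by_contra hcon
  push Not at hcon
  set a := G 1 - G 0 - C with ha
  have ha0 : 0 < a := by linarith
  have hD : 0 ≤ D 1 - D 0 := sub_nonneg.2 (hmono 0 1 one_pos h0 h1)
  have := key (a / (2 * (D 1 - D 0 + 1))) (by positivity)
  have h3 : a / (2 * (D 1 - D 0 + 1)) * (D 1 - D 0) ≤ a / 2 := by
    rw [div_mul_eq_mul_div, div_le_div_iff₀ (by positivity) (by norm_num)]
    nlinarith
  linarith

omit [Fintype ι] [Nonempty ι] in
lemma bad_finite [Finite ι] {y v : ι → 𝔼} (hy : Function.Injective y) :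
    {t : ℝ | ¬ Function.Injective (fun i => y i + t • v i)}.Finite := by
  have : {t : ℝ | ¬ Function.Injective (fun i => y i + t • v i)} ⊆
      ⋃ p : ι × ι, {t : ℝ | p.1 ≠ p.2 ∧ y p.1 + t • v p.1 = y p.2 + t • v p.2} := by
    intro t ht
    simp only [Set.mem_ofPred_eq, Function.Injective, not_forall] at ht
    obtain ⟨i, j, h1, h2⟩ := ht
    simp only [Set.mem_iUnion]
    exact ⟨(i, j), h2, h1⟩
  refine (Set.finite_iUnion fun p => ?_).subset this
  apply Set.Subsingleton.finite
  rintro s ⟨hne, hs⟩ t ⟨_, ht⟩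
  by_contra hst
  have e1 : (s - t) • (v p.1 - v p.2) = 0 := by
    have : (s - t) • (v p.1 - v p.2) =
      ((y p.1 + s • v p.1) - (y p.2 + s • v p.2)) - ((y p.1 + t • v p.1) - (y p.2 + t • v p.2)) := by
      module
    rw [this, hs, ht]; simp
  rcases smul_eq_zero.1 e1 with h | h
  · exact hst (sub_eq_zero.1 h)
  · have hv : v p.1 = v p.2 := sub_eq_zero.1 h
    rw [hv] at hs
    exact hy.ne hne (add_right_cancel hs)

set_option maxHeartbeats 1000000 in
/-- discrete Lipschitz stability of the dual potentials -/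
theorem disc_stab {R : ℝ} (hR : 0 < R) {K : Set 𝔼} (hK : IsCompact K) (hKv : Convex ℝ K)
    (hKR : K ⊆ Metric.closedBall 0 R) (hV : 0 < volume.real K) {y z : ι → 𝔼}
    (hy : Function.Injective y) (hz : Function.Injective z) {m : ι → ℝ} (hm : ∀ i, 0 < m i)
    (hsum : ∑ i, m i = volume.real K) {η : ℝ} (hη : 0 < η) :
    ∃ ψ ψ' : ι → ℝ, ∃ c : ℝ, (∀ i, mass K y ψ i = m i) ∧
      (∀ i, |mass K z ψ' i - m i| ≤ η * m i) ∧
      ∑ i, m i * (ψ' i - ψ i - c) ^ 2 ≤ 1090 ^ 2 * R ^ 2 * ∑ i, m i * ‖z i - y i‖ ^ 2 := by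
  classical
  obtain ⟨B₀, -, hex₀⟩ := exists_pot hK hV hy hm hsum (fun _ => 0)
  obtain ⟨ψ, c₀, _, _, hψ⟩ := hex₀ 0 le_rfl
  have hψ' : ∀ i, mass K y ψ i = m i := fun i => by rw [hψ]; ring
  obtain ⟨B, hB0, hex⟩ := exists_pot hK hV hz hm hsum ψ
  set ε := min η (1 / 2) / (B + 1) with hε
  have hmin0 : 0 < min η (1 / 2) := lt_min hη (by norm_num)
  have hε0 : 0 < ε := by positivity
  have hεB : ε * B ≤ min η (1 / 2) := by
    rw [hε, div_mul_eq_mul_div, div_le_iff₀ (by positivity)]
    nlinarith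
  obtain ⟨ψ', c, hmean, hbd, hmass⟩ := hex ε hε0.le
  set c' : ι → ℝ := fun i => ψ' i - ψ i - c with hc'
  set m' : ι → ℝ := fun i => m i * (1 + ε * c' i) with hm'
  have hεc : ∀ i, |ε * c' i| ≤ min η (1 / 2) := by
    intro i
    rw [abs_mul, abs_of_pos hε0]
    exact (mul_le_mul_of_nonneg_left (hbd i) hε0.le).trans hεB
  have hm'lo : ∀ i, 1 / 2 * m i ≤ m' i := by
    intro i
    have h1 := (abs_le.1 ((hεc i).trans (min_le_right _ _))).1
    have := hm i
    simp only [hm']
    nlinarith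
  have hm'hi : ∀ i, m' i ≤ 2 * m i := by
    intro i
    have h1 := (abs_le.1 ((hεc i).trans (min_le_right _ _))).2
    have := hm i
    simp only [hm']
    nlinarith
  have hm'pos : ∀ i, 0 < m' i := fun i => by have := hm i; have := hm'lo i; linarith
  have hm'sum : ∑ i, m' i = volume.real K := by
    have h1 : ∑ i, m' i = ∑ i, m i + ε * ∑ i, m i * (ψ' i - ψ i - c) := by
      rw [Finset.mul_sum, ← Finset.sum_add_distrib]
      exact Finset.sum_congr rfl fun i _ => by simp only [hm', hc']; ring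
    rw [h1, hmean, hsum]; ring
  have hmass' : ∀ i, mass K z ψ' i = m' i := fun i => hmass i
  refine ⟨ψ, ψ', c, hψ', fun i => ?_, ?_⟩
  · rw [hmass' i]
    have : m' i - m i = m i * (ε * c' i) := by simp only [hm']; ring
    rw [this, abs_mul, abs_of_pos (hm i), mul_comm]
    exact mul_le_mul_of_nonneg_right ((hεc i).trans (min_le_left _ _)) (hm i).le
  set v : ι → 𝔼 := fun i => z i - y i with hv
  set X := ∑ i, m i * (c' i) ^ 2 with hX
  set Y := ∑ i, m i * ‖v i‖ ^ 2 with hY
  have hX0 : 0 ≤ X := Finset.sum_nonneg fun i _ => mul_nonneg (hm i).le (sq_nonneg _)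
  have hY0 : 0 ≤ Y := Finset.sum_nonneg fun i _ => mul_nonneg (hm i).le (sq_nonneg _)
  -- the path
  set yt : ℝ → ι → 𝔼 := fun t i => y i + t • v i with hyt
  set S : Set ℝ := {t : ℝ | ¬ Function.Injective (yt t)} with hS
  have hSfin : S.Finite := bad_finite hy
  have hyt0 : yt 0 = y := by funext i; simp [hyt]
  have hyt1 : yt 1 = z := by funext i; simp [hyt, hv]
  have h0S : (0 : ℝ) ∉ S := by simp only [hS, Set.mem_ofPred_eq, not_not, hyt0]; exact hy
  have h1S : (1 : ℝ) ∉ S := by simp only [hS, Set.mem_ofPred_eq, not_not, hyt1]; exact hz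
  have hpot : ∀ (n : ι → ℝ), (∀ i, 0 < n i) → ∑ i, n i = volume.real K → ∀ t : ℝ,
      ∃ χ : ι → ℝ, t ∉ S → ∀ i, mass K (yt t) χ i = n i := by
    intro n hn hnsum t
    by_cases ht : t ∈ S
    · exact ⟨fun _ => 0, fun h => absurd ht h⟩
    · have hinj : Function.Injective (yt t) := by
        simpa only [hS, Set.mem_ofPred_eq, not_not] using ht
      obtain ⟨B₁, -, hex₁⟩ := exists_pot hK hV hinj hn hnsum (fun _ => 0)
      obtain ⟨χ, c₁, _, _, hχ⟩ := hex₁ 0 le_rfl
      exact ⟨χ, fun _ i => by rw [hχ]; ring⟩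
  choose P hP using hpot m hm hsum
  choose P' hP' using hpot m' hm'pos hm'sum
  have hinjt : ∀ t, t ∉ S → Function.Injective (yt t) := fun t ht => by
    simpa only [hS, Set.mem_ofPred_eq, not_not] using ht
  set Vt : ℝ → ℝ := fun t => J K (yt t) (P t) + ∑ i, m i * P t i with hVt
  set Vt' : ℝ → ℝ := fun t => J K (yt t) (P' t) + ∑ i, m' i * P' t i with hVt'
  set Dt : ℝ → ℝ := fun t => ∑ i, ⟪v i, fm K (yt t) (P t) i⟫ with hDt
  set Dt' : ℝ → ℝ := fun t => ∑ i, ⟪v i, fm K (yt t) (P' t) i⟫ with hDt'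
  -- general comparison of values
  have hcomp : ∀ s t, t ∉ S → Vt t + (s - t) * Dt t ≤ Vt s := by
    intro s t ht
    have h := J_subgradient hK (hinjt t ht) (P t) (yt s) (P s)
    have e1 : ∑ i, ⟪yt s i - yt t i, fm K (yt t) (P t) i⟫ = (s - t) * Dt t := by
      rw [hDt, Finset.mul_sum]
      refine Finset.sum_congr rfl fun i _ => ?_
      have : yt s i - yt t i = (s - t) • v i := by simp only [hyt]; module
      rw [this, inner_smul_left]; simp
    have e2 : ∑ i, mass K (yt t) (P t) i * (P s i - P t i) =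
        ∑ i, m i * P s i - ∑ i, m i * P t i := by
      rw [← Finset.sum_sub_distrib]
      refine Finset.sum_congr rfl fun i _ => ?_
      rw [hP t ht i]; ring
    rw [e1, e2] at h
    simp only [hVt]
    linarith
  have hcomp' : ∀ s t, t ∉ S → Vt' t + (s - t) * Dt' t ≤ Vt' s := by
    intro s t ht
    have h := J_subgradient hK (hinjt t ht) (P' t) (yt s) (P' s)
    have e1 : ∑ i, ⟪yt s i - yt t i, fm K (yt t) (P' t) i⟫ = (s - t) * Dt' t := by
      rw [hDt', Finset.mul_sum]
      refine Finset.sum_congr rfl fun i _ => ?_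
      have : yt s i - yt t i = (s - t) • v i := by simp only [hyt]; module
      rw [this, inner_smul_left]; simp
    have e2 : ∑ i, mass K (yt t) (P' t) i * (P' s i - P' t i) =
        ∑ i, m' i * P' s i - ∑ i, m' i * P' t i := by
      rw [← Finset.sum_sub_distrib]
      refine Finset.sum_congr rfl fun i _ => ?_
      rw [hP' t ht i]; ring
    rw [e1, e2] at h
    simp only [hVt']
    linarith
  set C := 1090 * R * ε * (√X * √Y) with hC
  have hstab : ∀ t, t ∉ S → Dt' t - Dt t ≤ C := by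
    intro t ht
    have h := fm_stab hR hK hKv hKR (hinjt t ht) (P t) (P' t)
      (fun i => by rw [hP t ht i]; exact hm i) (fun i => by rw [hP' t ht i]; exact hm'pos i)
      (fun i => by rw [hP t ht i, hP' t ht i]; have := hm'lo i; linarith) v
    have e1 : ∑ i, ⟪fm K (yt t) (P' t) i - fm K (yt t) (P t) i, v i⟫ = Dt' t - Dt t := by
      simp only [hDt, hDt']
      rw [← Finset.sum_sub_distrib]
      refine Finset.sum_congr rfl fun i _ => ?_
      rw [inner_sub_left, real_inner_comm, real_inner_comm (v i)]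
    rw [e1] at h
    simp only [hP t ht, hP' t ht] at h
    refine h.trans ?_
    have e2 : ∑ i, (m i - m' i) ^ 2 / m' i ≤ 2 * ε ^ 2 * X := by
      rw [hX, Finset.mul_sum]
      refine Finset.sum_le_sum fun i _ => ?_
      rw [div_le_iff₀ (hm'pos i)]
      have e3 : (m i - m' i) ^ 2 = m i * (ε ^ 2 * c' i ^ 2) * m i := by
        simp only [hm']; ring
      rw [e3]
      have e4 : 0 ≤ m i * (ε ^ 2 * c' i ^ 2) := mul_nonneg (hm i).le (by positivity)
      calc m i * (ε ^ 2 * c' i ^ 2) * m i ≤ m i * (ε ^ 2 * c' i ^ 2) * (2 * m' i) :=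
            mul_le_mul_of_nonneg_left (by have := hm'lo i; linarith) e4
        _ = _ := by ring
    have e3 : ∑ i, m' i * ‖v i‖ ^ 2 ≤ 2 * Y := by
      rw [hY, Finset.mul_sum]
      refine Finset.sum_le_sum fun i _ => ?_
      calc m' i * ‖v i‖ ^ 2 ≤ (2 * m i) * ‖v i‖ ^ 2 :=
            mul_le_mul_of_nonneg_right (hm'hi i) (sq_nonneg _)
        _ = _ := by ring
    have e4 : √(∑ i, (m i - m' i) ^ 2 / m' i) ≤ √(2 * ε ^ 2 * X) := Real.sqrt_le_sqrt e2
    have e5 : √(∑ i, m' i * ‖v i‖ ^ 2) ≤ √(2 * Y) := Real.sqrt_le_sqrt e3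
    have e6 : √(2 * ε ^ 2 * X) * √(2 * Y) = 2 * ε * (√X * √Y) := by
      rw [Real.sqrt_mul (by positivity), Real.sqrt_mul (by positivity),
        Real.sqrt_mul (by positivity), Real.sqrt_sq hε0.le]
      have : √2 * √2 = (2 : ℝ) := Real.mul_self_sqrt (by norm_num)
      calc √2 * ε * √X * (√2 * √Y) = (√2 * √2) * ε * (√X * √Y) := by ring
        _ = _ := by rw [this]
    calc 545 * R * (√(∑ i, (m i - m' i) ^ 2 / m' i) * √(∑ i, m' i * ‖v i‖ ^ 2))
        ≤ 545 * R * (√(2 * ε ^ 2 * X) * √(2 * Y)) := by gcongr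
      _ = C := by rw [e6, hC]; ring
  -- chain
  have hchain := chain_le hSfin (G := fun t => Vt' t - Vt t) (D := Dt) (C := C) (by
      intro a b hab ha hb
      have h1 := hcomp' a b hb
      have h2 := hcomp b a ha
      have h3 := hstab b hb
      have h4 : (b - a) * (Dt' b - Dt b) ≤ (b - a) * C :=
        mul_le_mul_of_nonneg_left h3 (by linarith)
      linarith)
    (by
      intro a b hab ha hb
      have h1 := hcomp a b hb
      have h2 := hcomp b a ha
      have h3 : 0 ≤ (b - a) * (Dt b - Dt a) := by linarith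
      have h4 : 0 < b - a := by linarith
      have := nonneg_of_mul_nonneg_right h3 h4
      linarith) h0S h1S
  -- endpoints
  have hend0 : Vt' 0 - Vt 0 ≤ ∑ i, (m' i - m i) * ψ i := by
    have h1 := J_subgradient hK (hinjt 0 h0S) (P' 0) y ψ
    have h2 := J_subgradient hK hy ψ (yt 0) (P 0)
    simp only [hyt0, sub_self, inner_zero_left, Finset.sum_const_zero, add_zero] at h1 h2
    have e1 : ∑ i, mass K y (P' 0) i * (ψ i - P' 0 i) = ∑ i, m' i * ψ i - ∑ i, m' i * P' 0 i := by
      rw [← Finset.sum_sub_distrib]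
      refine Finset.sum_congr rfl fun i _ => ?_
      have := hP' 0 h0S i
      rw [hyt0] at this
      rw [this]; ring
    have e2 : ∑ i, mass K y ψ i * (P 0 i - ψ i) = ∑ i, m i * P 0 i - ∑ i, m i * ψ i := by
      rw [← Finset.sum_sub_distrib]
      refine Finset.sum_congr rfl fun i _ => ?_
      rw [hψ' i]; ring
    rw [e1] at h1
    rw [e2] at h2
    have e3 : ∑ i, (m' i - m i) * ψ i = ∑ i, m' i * ψ i - ∑ i, m i * ψ i := by
      rw [← Finset.sum_sub_distrib]
      exact Finset.sum_congr rfl fun i _ => by ring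
    simp only [hVt, hVt', hyt0]
    rw [e3]
    linarith
  have hend1 : ∑ i, (m' i - m i) * ψ' i ≤ Vt' 1 - Vt 1 := by
    have h1 := J_subgradient hK (hinjt 1 h1S) (P 1) z ψ'
    have h2 := J_subgradient hK hz ψ' (yt 1) (P' 1)
    simp only [hyt1, sub_self, inner_zero_left, Finset.sum_const_zero, add_zero] at h1 h2
    have e1 : ∑ i, mass K z (P 1) i * (ψ' i - P 1 i) = ∑ i, m i * ψ' i - ∑ i, m i * P 1 i := by
      rw [← Finset.sum_sub_distrib]
      refine Finset.sum_congr rfl fun i _ => ?_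
      have := hP 1 h1S i
      rw [hyt1] at this
      rw [this]; ring
    have e2 : ∑ i, mass K z ψ' i * (P' 1 i - ψ' i) = ∑ i, m' i * P' 1 i - ∑ i, m' i * ψ' i := by
      rw [← Finset.sum_sub_distrib]
      refine Finset.sum_congr rfl fun i _ => ?_
      rw [hmass' i]; ring
    rw [e1] at h1
    rw [e2] at h2
    have e3 : ∑ i, (m' i - m i) * ψ' i = ∑ i, m' i * ψ' i - ∑ i, m i * ψ' i := by
      rw [← Finset.sum_sub_distrib]
      exact Finset.sum_congr rfl fun i _ => by ring
    simp only [hVt, hVt', hyt1]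
    rw [e3]
    linarith
  have hεX : ε * X ≤ C := by
    have e1 : ε * X = ∑ i, (m' i - m i) * ψ' i - ∑ i, (m' i - m i) * ψ i := by
      rw [← Finset.sum_sub_distrib]
      have : ∑ i, ((m' i - m i) * ψ' i - (m' i - m i) * ψ i) =
          ε * X + ε * c * ∑ i, m i * (ψ' i - ψ i - c) := by
        rw [hX, Finset.mul_sum, Finset.mul_sum, ← Finset.sum_add_distrib]
        refine Finset.sum_congr rfl fun i _ => ?_
        simp only [hm', hc']; ring
      rw [this, hmean, mul_zero, add_zero]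
    rw [e1]
    linarith
  have hX1 : X ≤ 1090 * R * (√X * √Y) := by
    have : ε * X ≤ ε * (1090 * R * (√X * √Y)) := by
      refine hεX.trans (le_of_eq ?_)
      rw [hC]; ring
    exact le_of_mul_le_mul_left this hε0
  have hXs : √X ≤ 1090 * R * √Y := by
    rcases eq_or_lt_of_le hX0 with h | h
    · rw [← h]; simp; positivity
    · have hsX : 0 < √X := Real.sqrt_pos.2 h
      have : √X * √X ≤ √X * (1090 * R * √Y) := by
        rw [Real.mul_self_sqrt hX0]
        refine hX1.trans (le_of_eq ?_)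
        ring
      exact le_of_mul_le_mul_left this hsX
  calc X = √X ^ 2 := (Real.sq_sqrt hX0).symm
    _ ≤ (1090 * R * √Y) ^ 2 := pow_le_pow_left₀ (Real.sqrt_nonneg _) hXs 2
    _ = 1090 ^ 2 * R ^ 2 * Y := by rw [mul_pow, mul_pow, Real.sq_sqrt hY0]

end Crest.Agent.H3.OT
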