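import Mathlib
import Crest.Agent.H3.OT.Path

set_option autoImplicit false
open MeasureTheory Set
open scoped ENNReal NNReal Pointwise RealInnerProductSpace

namespace Crest.Agent.H3.OT

variable {d : ℕ}

local notation "𝔼" => EuclideanSpace ℝ (Fin d)

/-- `p` is a.e. on `K` a subgradient (relative to `K`) of `u`. -/
def Subgrad (K : Set 𝔼) (u : 𝔼 → ℝ) (p : 𝔼 → 𝔼) : Prop :=
  ∀ᵐ x ∂(volume.restrict K), ∀ x' ∈ K, u x + ⟪p x, x' - x⟫ ≤ u x'

/-- volume of the part of `K` that leaves `K` under a small translation -/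
lemma volume_shift_le {K : Set 𝔼} (hK : IsCompact K) (hKv : Convex ℝ K) {x₀ : 𝔼} {r : ℝ}
    (hr : 0 < r) (hball : Metric.closedBall x₀ r ⊆ K) {e : 𝔼} (he : ‖e‖ = 1) {h : ℝ} (hh : 0 < h)
    (hhr : h ≤ r) :
    volume.real (K \ {x | x + h • e ∈ K}) ≤ d * h / r * volume.real K := by
  set s := h / r with hs
  have hs0 : 0 < s := by positivity
  have hs1 : s ≤ 1 := by rw [hs, div_le_one hr]; exact hhr
  have hsub : AffineMap.homothety x₀ (1 - s) '' K ⊆ K ∩ {x | x + h • e ∈ K} := by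
    rintro _ ⟨k, hk, rfl⟩
    have hx₀ : x₀ ∈ K := hball (Metric.mem_closedBall_self hr.le)
    have e1 : AffineMap.homothety x₀ (1 - s) k = (1 - s) • k + s • x₀ := by
      rw [AffineMap.homothety_apply]
      simp only [vsub_eq_sub, vadd_eq_add]
      module
    have e2 : AffineMap.homothety x₀ (1 - s) k + h • e = (1 - s) • k + s • (x₀ + r • e) := by
      rw [e1]
      have : h = s * r := by rw [hs]; field_simp
      rw [this]; module
    refine ⟨?_, ?_⟩
    · rw [e1]; exact hKv hk hx₀ (by linarith) hs0.le (by ring)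
    · show _ ∈ K
      rw [e2]
      refine hKv hk (hball ?_) (by linarith) hs0.le (by ring)
      rw [Metric.mem_closedBall, dist_eq_norm, add_sub_cancel_left, norm_smul, he, mul_one,
        Real.norm_of_nonneg hr.le]
  have hfin : volume K ≠ ∞ := hK.measure_lt_top.ne
  have hmeas2 : MeasurableSet {x : 𝔼 | x + h • e ∈ K} :=
    (hK.measurableSet).preimage (measurable_id.add_const _)
  have hvol : (1 - s) ^ d * volume.real K ≤ volume.real (K ∩ {x | x + h • e ∈ K}) := by
    have h1 := measureReal_mono (μ := volume) hsub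
      (ne_top_of_le_ne_top hfin (measure_mono Set.inter_subset_left))
    refine le_trans (le_of_eq ?_) h1
    simp only [Measure.real]
    rw [Measure.addHaar_image_homothety, ENNReal.toReal_mul]
    congr 1
    rw [finrank_euclideanSpace_fin, abs_of_nonneg (pow_nonneg (by linarith) _),
      ENNReal.toReal_ofReal (pow_nonneg (by linarith) _)]
  have hbern : 1 - d * s ≤ (1 - s) ^ d := by
    have := one_add_mul_le_pow (a := -s) (by linarith) d
    have e : (1 : ℝ) + -s = 1 - s := by ring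
    rw [e] at this
    linarith
  have hdecomp : volume.real (K ∩ {x | x + h • e ∈ K}) + volume.real (K \ {x | x + h • e ∈ K}) =
      volume.real K := by
    have := measureReal_inter_add_sdiff (μ := volume) (s := K) hmeas2 hfin
    exact this
  have hV0 : 0 ≤ volume.real K := measureReal_nonneg
  have h3 : (1 - d * s) * volume.real K ≤ (1 - s) ^ d * volume.real K :=
    mul_le_mul_of_nonneg_right hbern hV0
  have h4 : d * h / r = d * s := by rw [hs]; ring
  rw [h4]
  linarith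

set_option maxHeartbeats 1000000 in
/-- directional estimate -/
lemma gn_dir {K : Set 𝔼} (hK : IsCompact K) (hKv : Convex ℝ K) {x₀ : 𝔼} {r : ℝ}
    (hr : 0 < r) (hball : Metric.closedBall x₀ r ⊆ K) {L : ℝ} (hL : 0 ≤ L) {u v : 𝔼 → ℝ}
    {p q : 𝔼 → 𝔼} (hu : Continuous u) (hv : Continuous v) (hp : Measurable p) (hq : Measurable q)
    (hpL : ∀ᵐ x ∂(volume.restrict K), ‖p x‖ ≤ L) (hqL : ∀ᵐ x ∂(volume.restrict K), ‖q x‖ ≤ L)
    (hup : Subgrad K u p) (hvq : Subgrad K v q) {e : 𝔼} (he : ‖e‖ = 1) {h : ℝ} (hh : 0 < h)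
    (hhr : h ≤ r) :
    ∫ x in K, ⟪p x - q x, e⟫ ^ 2 ≤
      8 / h ^ 2 * (∫ x in K, (u x - v x) ^ 2) + 36 * L ^ 2 * (d * h / r * volume.real K) := by
  set V := volume.real K with hV
  set w : 𝔼 → ℝ := fun x => u x - v x with hw
  have hwc : Continuous w := hu.sub hv
  have hKm : MeasurableSet K := hK.measurableSet
  have hfin : volume K ≠ ∞ := hK.measure_lt_top.ne
  set Kp : Set 𝔼 := K ∩ {x | x + h • e ∈ K} with hKp
  set Km : Set 𝔼 := K ∩ {x | x - h • e ∈ K} with hKm'
  have hKpm : MeasurableSet Kp := hKm.inter (hKm.preimage (measurable_id.add_const _))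
  have hKmm : MeasurableSet Km := hKm.inter (hKm.preimage (measurable_id.sub_const _))
  have hKpK : Kp ⊆ K := Set.inter_subset_left
  have hKmK : Km ⊆ K := Set.inter_subset_left
  set τ : 𝔼 → 𝔼 := fun x => x + h • e with hτ
  have hτmp : MeasurePreserving τ volume volume := measurePreserving_add_right volume (h • e)
  have hτemb : MeasurableEmbedding τ := measurableEmbedding_addRight (h • e)
  have hpre : τ ⁻¹' Km = Kp := by
    ext x
    simp only [hτ, hKm', hKp, Set.mem_preimage, Set.mem_inter_iff, Set.mem_ofPred_eq,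
      add_sub_cancel_right]
    tauto
  have htrans : ∀ F : 𝔼 → ℝ, ∫ x in Kp, F (x + h • e) = ∫ x in Km, F x := by
    intro F
    have := hτmp.setIntegral_preimage_emb hτemb F Km
    rw [hpre] at this
    exact this
  have hvolpm : volume.real Kp = volume.real Km := by
    have := hτmp.measure_preimage_emb hτemb Km
    rw [hpre] at this
    simp only [Measure.real, this]
  set δ := d * h / r * V with hδ
  have hvolp : volume.real (K \ Kp) ≤ δ := by
    have h1 := volume_shift_le hK hKv hr hball he hh hhr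
    have : K \ Kp = K \ {x | x + h • e ∈ K} := by
      ext x; simp only [hKp, Set.mem_sdiff, Set.mem_inter_iff, Set.mem_ofPred_eq]; tauto
    rw [this]; exact h1
  have hd1 : volume.real (K \ Kp) = V - volume.real Kp :=
    measureReal_sdiff hKpK hKpm (ne_top_of_le_ne_top hfin (measure_mono le_rfl))
  have hd2 : volume.real (K \ Km) = V - volume.real Km :=
    measureReal_sdiff hKmK hKmm (ne_top_of_le_ne_top hfin (measure_mono le_rfl))
  have hvolm : volume.real (K \ Km) ≤ δ := by rw [hd2, ← hvolpm, ← hd1]; exact hvolp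
  -- integrability
  have hintK : ∀ {F : 𝔼 → ℝ}, Measurable F → ∀ {C : ℝ}, (∀ᵐ x ∂(volume.restrict K), ‖F x‖ ≤ C) →
      IntegrableOn F K := by
    intro F hF C hC
    exact Measure.integrableOn_of_bounded hfin hF.aestronglyMeasurable hC
  have hpe : ∀ᵐ x ∂(volume.restrict K), ‖⟪p x, e⟫‖ ≤ L := by
    filter_upwards [hpL] with x hx
    exact (norm_inner_le_norm _ _).trans (by rw [he, mul_one]; exact hx)
  have hqe : ∀ᵐ x ∂(volume.restrict K), ‖⟪q x, e⟫‖ ≤ L := by
    filter_upwards [hqL] with x hx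
    exact (norm_inner_le_norm _ _).trans (by rw [he, mul_one]; exact hx)
  have hpem : Measurable fun x => ⟪p x, e⟫ := hp.inner_const
  have hqem : Measurable fun x => ⟪q x, e⟫ := hq.inner_const
  have hipe : IntegrableOn (fun x => ⟪p x, e⟫) K := hintK hpem hpe
  have hiqe : IntegrableOn (fun x => ⟪q x, e⟫) K := hintK hqem hqe
  -- ∫_{Kp} (g(x+he) - g x) ≤ 2 L δ
  have hdiffint : ∀ (g : 𝔼 → ℝ), IntegrableOn g K → (∀ᵐ x ∂(volume.restrict K), ‖g x‖ ≤ L) →
      ∫ x in Kp, (g (x + h • e) - g x) ≤ 2 * L * δ := by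
    intro g hg hgL
    have hgs : IntegrableOn (fun x => g (x + h • e)) Kp := by
      have := (hτmp.integrableOn_comp_preimage hτemb (f := g) (s := Km)).2 (hg.mono_set hKmK)
      rw [hpre] at this
      exact this
    rw [integral_sub hgs (hg.mono_set hKpK), htrans]
    have h1 : ∫ x in K \ Km, g x = (∫ x in K, g x) - ∫ x in Km, g x :=
      setIntegral_sdiff hKmm hg hKmK
    have h2 : ∫ x in K \ Kp, g x = (∫ x in K, g x) - ∫ x in Kp, g x :=
      setIntegral_sdiff hKpm hg hKpK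
    have h3 : ‖∫ x in K \ Km, g x‖ ≤ L * volume.real (K \ Km) :=
      norm_setIntegral_le_of_norm_le_const_ae
        (lt_of_le_of_lt (measure_mono Set.sdiff_subset) hK.measure_lt_top)
        (ae_mono (Measure.restrict_mono_set volume Set.sdiff_subset) hgL)
    have h4 : ‖∫ x in K \ Kp, g x‖ ≤ L * volume.real (K \ Kp) :=
      norm_setIntegral_le_of_norm_le_const_ae
        (lt_of_le_of_lt (measure_mono Set.sdiff_subset) hK.measure_lt_top)
        (ae_mono (Measure.restrict_mono_set volume Set.sdiff_subset) hgL)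
    rw [Real.norm_eq_abs] at h3 h4
    have h5 := (abs_le.1 h3).1
    have h6 := (abs_le.1 h4).2
    have h7 : L * volume.real (K \ Km) ≤ L * δ := mul_le_mul_of_nonneg_left hvolm hL
    have h8 : L * volume.real (K \ Kp) ≤ L * δ := mul_le_mul_of_nonneg_left hvolp hL
    linarith
  have hDq := hdiffint _ hiqe hqe
  have hDp := hdiffint _ hipe hpe
  -- pointwise estimate on Kp
  have hae : ∀ (P : 𝔼 → Prop), (∀ᵐ x ∂(volume.restrict K), P x) →
      ∀ᵐ x ∂(volume.restrict Kp), P x ∧ P (x + h • e) := by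
    intro P hP
    have h1 : ∀ᵐ x ∂(volume.restrict Kp), P x :=
      ae_mono (Measure.restrict_mono_set volume hKpK) hP
    have h2 : ∀ᵐ x ∂(volume.restrict Kp), P (x + h • e) := by
      have h3 : ∀ᵐ x ∂(volume.restrict Km), P x :=
        ae_mono (Measure.restrict_mono_set volume hKmK) hP
      have h4 : MeasurePreserving τ (volume.restrict Kp) (volume.restrict Km) := by
        rw [← hpre]; exact hτmp.restrict_preimage_emb hτemb Km
      exact h4.quasiMeasurePreserving.ae h3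
    filter_upwards [h1, h2] with x a b using ⟨a, b⟩
  have hpt : ∀ᵐ x ∂(volume.restrict Kp), ⟪p x - q x, e⟫ ^ 2 ≤
      (4 / h ^ 2 * (w (x + h • e) ^ 2 + w x ^ 2)) +
        8 * L * ((⟪q (x + h • e), e⟫ - ⟪q x, e⟫) + (⟪p (x + h • e), e⟫ - ⟪p x, e⟫)) := by
    filter_upwards [hae _ hup, hae _ hvq, hae _ hpL, hae _ hqL, ae_restrict_mem hKpm]
      with x ⟨a1, a2⟩ ⟨b1, b2⟩ ⟨c1, c2⟩ ⟨d1, d2⟩ hx
    have hxK : x ∈ K := hx.1
    have hxK' : x + h • e ∈ K := hx.2
    have e1 := a1 _ hxK'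
    have e2 := a2 _ hxK
    have f1 := b1 _ hxK'
    have f2 := b2 _ hxK
    have s1 : x + h • e - x = h • e := by abel
    have s2 : x - (x + h • e) = -(h • e) := by abel
    rw [s1, inner_smul_right] at e1 f1
    rw [s2, inner_neg_right, inner_smul_right] at e2 f2
    have hin : ∀ a : 𝔼, ‖a‖ ≤ L → -L ≤ ⟪a, e⟫ ∧ ⟪a, e⟫ ≤ L := fun a ha =>
      abs_le.1 ((abs_real_inner_le_norm a e).trans (by rw [he, mul_one]; exact ha))
    have n1 := hin _ c1
    have n2 := hin _ c2
    have n3 := hin _ d1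
    have n4 := hin _ d2
    rw [inner_sub_left]
    set P0 := ⟪p x, e⟫
    set P1 := ⟪p (x + h • e), e⟫
    set Q0 := ⟪q x, e⟫
    set Q1 := ⟪q (x + h • e), e⟫
    set W := w (x + h • e) - w x with hW
    have hWe : W = (u (x + h • e) - u x) - (v (x + h • e) - v x) := by
      simp only [hW, hw]; ring
    have m1 : 0 ≤ P1 - P0 := by
      have : 0 ≤ h * (P1 - P0) := by linarith
      exact nonneg_of_mul_nonneg_right this hh
    have m2 : 0 ≤ Q1 - Q0 := by
      have : 0 ≤ h * (Q1 - Q0) := by linarith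
      exact nonneg_of_mul_nonneg_right this hh
    set M := (Q1 - Q0) + (P1 - P0) with hM
    have hM0 : 0 ≤ M := by linarith
    have hM4 : M ≤ 4 * L := by linarith [n1.1, n2.2, n3.1, n4.2]
    have k1 : h * (P0 - Q0) ≤ |W| + h * M := by
      have := le_abs_self W
      have h' : h * M = h * (Q1 - Q0) + h * (P1 - P0) := by rw [hM]; ring
      have : 0 ≤ h * (P1 - P0) := mul_nonneg hh.le m1
      linarith
    have k2 : -(h * (P0 - Q0)) ≤ |W| + h * M := by
      have := neg_abs_le W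
      have h' : h * M = h * (Q1 - Q0) + h * (P1 - P0) := by rw [hM]; ring
      have : 0 ≤ h * (Q1 - Q0) := mul_nonneg hh.le m2
      linarith
    have k3 : |h * (P0 - Q0)| ≤ |W| + h * M := abs_le'.2 ⟨k1, k2⟩
    have k4 : (h * (P0 - Q0)) ^ 2 ≤ 2 * W ^ 2 + 2 * (h * M) ^ 2 := by
      have : (h * (P0 - Q0)) ^ 2 ≤ (|W| + h * M) ^ 2 := by
        rw [← sq_abs (h * (P0 - Q0))]
        exact pow_le_pow_left₀ (abs_nonneg _) k3 2
      refine this.trans ?_
      have := add_sq_le_two |W| (h * M)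
      rwa [sq_abs] at this
    have k5 : W ^ 2 ≤ 2 * (w (x + h • e) ^ 2 + w x ^ 2) := by
      rw [hW]; nlinarith [sq_nonneg (w (x + h • e) + w x)]
    have k6 : M ^ 2 ≤ 4 * L * M := by
      calc M ^ 2 = M * M := sq M
        _ ≤ 4 * L * M := mul_le_mul_of_nonneg_right hM4 hM0
    have hh2 : 0 < h ^ 2 := by positivity
    have k7 : (P0 - Q0) ^ 2 * h ^ 2 ≤
        (4 / h ^ 2 * (w (x + h • e) ^ 2 + w x ^ 2) + 8 * L * M) * h ^ 2 := by
      have r1 : (4 / h ^ 2 * (w (x + h • e) ^ 2 + w x ^ 2) + 8 * L * M) * h ^ 2 =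
          4 * (w (x + h • e) ^ 2 + w x ^ 2) + 8 * L * M * h ^ 2 := by
        field_simp
      rw [r1]
      have r2 : (h * M) ^ 2 ≤ 4 * L * M * h ^ 2 := by
        rw [mul_pow, mul_comm]
        exact mul_le_mul_of_nonneg_right k6 hh2.le
      have r3 : (h * (P0 - Q0)) ^ 2 = (P0 - Q0) ^ 2 * h ^ 2 := by ring
      rw [r3] at k4
      linarith
    exact le_of_mul_le_mul_right k7 hh2
  -- integrate over Kp
  have hw2 : IntegrableOn (fun x => w x ^ 2) K :=
    (hwc.pow 2).continuousOn.integrableOn_compact hK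
  have hw2s : IntegrableOn (fun x => w (x + h • e) ^ 2) Kp := by
    have := (hτmp.integrableOn_comp_preimage hτemb (f := fun x => w x ^ 2) (s := Km)).2
      (hw2.mono_set hKmK)
    rw [hpre] at this
    exact this
  have hshift : ∀ g : 𝔼 → ℝ, IntegrableOn g K → IntegrableOn (fun x => g (x + h • e)) Kp := by
    intro g hg
    have := (hτmp.integrableOn_comp_preimage hτemb (f := g) (s := Km)).2 (hg.mono_set hKmK)
    rw [hpre] at this
    exact this
  have hsqm : Measurable fun x => ⟪p x - q x, e⟫ ^ 2 := ((hp.sub hq).inner_const).pow_const 2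
  have hsqb : ∀ᵐ x ∂(volume.restrict K), ⟪p x - q x, e⟫ ^ 2 ≤ 4 * L ^ 2 := by
    filter_upwards [hpe, hqe] with x h1 h2
    rw [Real.norm_eq_abs, abs_le] at h1 h2
    rw [inner_sub_left]
    have : |⟪p x, e⟫ - ⟪q x, e⟫| ≤ 2 * L := by rw [abs_le]; constructor <;> linarith [h1.1, h1.2, h2.1, h2.2]
    calc (⟪p x, e⟫ - ⟪q x, e⟫) ^ 2 = |⟪p x, e⟫ - ⟪q x, e⟫| ^ 2 := (sq_abs _).symm
      _ ≤ (2 * L) ^ 2 := pow_le_pow_left₀ (abs_nonneg _) this 2
      _ = _ := by ring
  have hsqi : IntegrableOn (fun x => ⟪p x - q x, e⟫ ^ 2) K :=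
    hintK hsqm (C := 4 * L ^ 2) (by
      filter_upwards [hsqb] with x hx
      rw [Real.norm_of_nonneg (sq_nonneg _)]; exact hx)
  have i1 : IntegrableOn (fun x => 4 / h ^ 2 * (w (x + h • e) ^ 2 + w x ^ 2)) Kp :=
    (hw2s.add (hw2.mono_set hKpK)).const_mul _
  have i2a : IntegrableOn (fun x => ⟪q (x + h • e), e⟫ - ⟪q x, e⟫) Kp :=
    (hshift _ hiqe).sub (hiqe.mono_set hKpK)
  have i2b : IntegrableOn (fun x => ⟪p (x + h • e), e⟫ - ⟪p x, e⟫) Kp :=
    (hshift _ hipe).sub (hipe.mono_set hKpK)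
  have i2 : IntegrableOn (fun x => 8 * L * ((⟪q (x + h • e), e⟫ - ⟪q x, e⟫) +
      (⟪p (x + h • e), e⟫ - ⟪p x, e⟫))) Kp := (i2a.add i2b).const_mul _
  have i12 : IntegrableOn (fun x => (4 / h ^ 2 * (w (x + h • e) ^ 2 + w x ^ 2)) +
      8 * L * ((⟪q (x + h • e), e⟫ - ⟪q x, e⟫) + (⟪p (x + h • e), e⟫ - ⟪p x, e⟫))) Kp := i1.add i2
  have hI1 : ∫ x in Kp, ⟪p x - q x, e⟫ ^ 2 ≤
      8 / h ^ 2 * (∫ x in K, w x ^ 2) + 32 * L ^ 2 * δ := by
    calc ∫ x in Kp, ⟪p x - q x, e⟫ ^ 2
        ≤ ∫ x in Kp, ((4 / h ^ 2 * (w (x + h • e) ^ 2 + w x ^ 2)) +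
          8 * L * ((⟪q (x + h • e), e⟫ - ⟪q x, e⟫) + (⟪p (x + h • e), e⟫ - ⟪p x, e⟫))) :=
          integral_mono_ae (hsqi.mono_set hKpK) i12 hpt
      _ = 4 / h ^ 2 * ((∫ x in Kp, w (x + h • e) ^ 2) + ∫ x in Kp, w x ^ 2) +
          8 * L * ((∫ x in Kp, (⟪q (x + h • e), e⟫ - ⟪q x, e⟫)) +
            ∫ x in Kp, (⟪p (x + h • e), e⟫ - ⟪p x, e⟫)) := by
          rw [integral_add i1 i2, integral_const_mul, integral_const_mul,
            integral_add hw2s (hw2.mono_set hKpK), integral_add i2a i2b]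
      _ ≤ 4 / h ^ 2 * ((∫ x in K, w x ^ 2) + ∫ x in K, w x ^ 2) +
          8 * L * (2 * L * δ + 2 * L * δ) := by
          have j1 : ∫ x in Kp, w (x + h • e) ^ 2 ≤ ∫ x in K, w x ^ 2 := by
            rw [htrans (fun x => w x ^ 2)]
            exact setIntegral_mono_set hw2 (Filter.Eventually.of_forall fun x => sq_nonneg _)
              (Filter.Eventually.of_forall fun x hx => hKmK hx)
          have j2 : ∫ x in Kp, w x ^ 2 ≤ ∫ x in K, w x ^ 2 :=
            setIntegral_mono_set hw2 (Filter.Eventually.of_forall fun x => sq_nonneg _)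
              (Filter.Eventually.of_forall fun x hx => hKpK hx)
          gcongr
      _ = _ := by ring
  have hI2 : ∫ x in K \ Kp, ⟪p x - q x, e⟫ ^ 2 ≤ 4 * L ^ 2 * δ := by
    calc ∫ x in K \ Kp, ⟪p x - q x, e⟫ ^ 2 ≤ ∫ x in K \ Kp, 4 * L ^ 2 :=
          integral_mono_ae (hsqi.mono_set Set.sdiff_subset)
            (integrableOn_const (ne_top_of_le_ne_top hfin (measure_mono Set.sdiff_subset)))
            (ae_mono (Measure.restrict_mono_set volume Set.sdiff_subset) hsqb)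
      _ = 4 * L ^ 2 * volume.real (K \ Kp) := by
          rw [setIntegral_const, smul_eq_mul, mul_comm]
      _ ≤ 4 * L ^ 2 * δ := mul_le_mul_of_nonneg_left hvolp (by positivity)
  have hsplit : ∫ x in K \ Kp, ⟪p x - q x, e⟫ ^ 2 =
      (∫ x in K, ⟪p x - q x, e⟫ ^ 2) - ∫ x in Kp, ⟪p x - q x, e⟫ ^ 2 :=
    setIntegral_sdiff hKpm hsqi hKpK
  have : ∫ x in K, (u x - v x) ^ 2 = ∫ x in K, w x ^ 2 := rfl
  rw [this]
  linarith

/-- Gagliardo–Nirenberg type estimate -/
lemma gn {K : Set 𝔼} (hK : IsCompact K) (hKv : Convex ℝ K) {x₀ : 𝔼} {r : ℝ}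
    (hr : 0 < r) (hball : Metric.closedBall x₀ r ⊆ K) {L : ℝ} (hL : 0 ≤ L) {u v : 𝔼 → ℝ}
    {p q : 𝔼 → 𝔼} (hu : Continuous u) (hv : Continuous v) (hp : Measurable p) (hq : Measurable q)
    (hpL : ∀ᵐ x ∂(volume.restrict K), ‖p x‖ ≤ L) (hqL : ∀ᵐ x ∂(volume.restrict K), ‖q x‖ ≤ L)
    (hup : Subgrad K u p) (hvq : Subgrad K v q) {h : ℝ} (hh : 0 < h) (hhr : h ≤ r) :
    ∫ x in K, ‖p x - q x‖ ^ 2 ≤
      d * (8 / h ^ 2 * (∫ x in K, (u x - v x) ^ 2) + 36 * L ^ 2 * (d * h / r * volume.real K)) := by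
  set b := EuclideanSpace.basisFun (Fin d) ℝ with hb
  have hfin : volume K ≠ ∞ := hK.measure_lt_top.ne
  have e1 : ∀ x, ‖p x - q x‖ ^ 2 = ∑ i, ⟪p x - q x, b i⟫ ^ 2 := by
    intro x
    rw [← b.sum_sq_norm_inner_left (p x - q x)]
    refine Finset.sum_congr rfl fun i _ => ?_
    rw [Real.norm_eq_abs, sq_abs]
  have hint : ∀ i, IntegrableOn (fun x => ⟪p x - q x, b i⟫ ^ 2) K := by
    intro i
    refine Measure.integrableOn_of_bounded (M := (2 * L) ^ 2) hfin
      (((hp.sub hq).inner_const).pow_const 2).aestronglyMeasurable ?_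
    filter_upwards [hpL, hqL] with x h1 h2
    rw [norm_pow]
    refine pow_le_pow_left₀ (norm_nonneg _) ?_ 2
    refine (norm_inner_le_norm _ _).trans ?_
    rw [b.norm_eq_one, mul_one]
    exact (norm_sub_le _ _).trans (by linarith)
  simp_rw [e1]
  rw [integral_finsetSum _ (fun i _ => hint i)]
  calc ∑ i, ∫ x in K, ⟪p x - q x, b i⟫ ^ 2 ≤
      ∑ _i : Fin d, (8 / h ^ 2 * (∫ x in K, (u x - v x) ^ 2) +
        36 * L ^ 2 * (d * h / r * volume.real K)) :=
        Finset.sum_le_sum fun i _ =>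
          gn_dir hK hKv hr hball hL hu hv hp hq hpL hqL hup hvq (b.norm_eq_one i) hh hhr
    _ = _ := by rw [Finset.sum_const, Finset.card_univ, Fintype.card_fin, nsmul_eq_mul]

end Crest.Agent.H3.OT
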