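import Mathlib
import Crest.Agent.H3.OT.GN

set_option autoImplicit false
open MeasureTheory Set
open scoped ENNReal NNReal Pointwise RealInnerProductSpace

namespace Crest.Agent.H3.OT

variable {d : ℕ}

local notation "𝔼" => EuclideanSpace ℝ (Fin d)

variable {ι : Type*} [Fintype ι] [Nonempty ι]

lemma exists_sel (y : ι → 𝔼) (ψ : ι → ℝ) : ∃ s : 𝔼 → ι,
    (∀ x, phi y ψ x = ⟪y (s x), x⟫ - ψ (s x)) ∧
      ∀ (F : ι → 𝔼), Measurable fun x => F (s x) := by
  classical
  set N := Fintype.card ι with hN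
  set ee := Fintype.equivFin ι with hee
  set p : 𝔼 → ℕ → Prop := fun x k => ∃ h : k < N, phi y ψ x = ⟪y (ee.symm ⟨k, h⟩), x⟫ -
    ψ (ee.symm ⟨k, h⟩) with hp
  have hex : ∀ x, ∃ k, p x k := by
    intro x
    obtain ⟨i, hi⟩ := exists_phi_eq y ψ x
    refine ⟨(ee i).1, (ee i).2, ?_⟩
    simp only [Fin.eta, Equiv.symm_apply_apply]
    exact hi
  have hmeas : ∀ k, MeasurableSet {x | p x k} := by
    intro k
    by_cases hk : k < N
    · have : {x | p x k} = {x | phi y ψ x = ⟪y (ee.symm ⟨k, hk⟩), x⟫ - ψ (ee.symm ⟨k, hk⟩)} := by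
        ext x
        simp only [hp, Set.mem_ofPred_eq]
        exact ⟨fun ⟨_, h⟩ => h, fun h => ⟨hk, h⟩⟩
      rw [this]
      exact measurableSet_eq_fun (continuous_phi y ψ).measurable (by fun_prop)
    · have : {x : 𝔼 | p x k} = ∅ := by
        ext x
        simp only [hp, Set.mem_ofPred_eq, Set.mem_empty_iff_false, iff_false]
        rintro ⟨h, _⟩
        exact hk h
      rw [this]; exact MeasurableSet.empty
  have hfind : Measurable fun x => Nat.find (hex x) := measurable_find hex hmeas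
  have hlt : ∀ x, Nat.find (hex x) < N := fun x => (Nat.find_spec (hex x)).1
  refine ⟨fun x => ee.symm ⟨Nat.find (hex x), hlt x⟩, fun x => (Nat.find_spec (hex x)).2, ?_⟩
  intro F
  set G : ℕ → 𝔼 := fun k => if h : k < N then F (ee.symm ⟨k, h⟩) else 0 with hG
  have hGm : Measurable G := measurable_from_nat
  have : (fun x => F (ee.symm ⟨Nat.find (hex x), hlt x⟩)) = fun x => G (Nat.find (hex x)) := by
    funext x
    simp only [hG, dif_pos (hlt x)]
  rw [this]
  exact hGm.comp hfind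

lemma integral_sel {K : Set 𝔼} (hK : IsCompact K) {y : ι → 𝔼} (hy : Function.Injective y)
    {ψ : ι → ℝ} {s : 𝔼 → ι} (hs : ∀ x, phi y ψ x = ⟪y (s x), x⟫ - ψ (s x))
    (hsm : ∀ (F : ι → 𝔼), Measurable fun x => F (s x)) {g : 𝔼 → ℝ} (hg : Continuous g) :
    ∫ x in K, g (y (s x)) = ∑ i, mass K y ψ i * g (y i) := by
  have hfinK : volume K ≠ ∞ := hK.measure_lt_top.ne
  obtain ⟨C, hC⟩ : ∃ C, ∀ i, ‖g (y i)‖ ≤ C :=
    ⟨‖fun i => g (y i)‖, fun i => norm_le_pi_norm (fun i => g (y i)) i⟩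
  have hint : IntegrableOn (fun x => g (y (s x))) K :=
    Measure.integrableOn_of_bounded (M := C) hfinK
      (hg.measurable.comp (hsm y)).aestronglyMeasurable
      (Filter.Eventually.of_forall fun x => hC (s x))
  rw [integral_eq_sum_cell hK.isClosed hy ψ hint]
  refine Finset.sum_congr rfl fun i _ => ?_
  have hae : ∀ᵐ x ∂(volume.restrict (cell K y ψ i)), g (y (s x)) = g (y i) := by
    rw [ae_restrict_iff' (measurableSet_cell hK.isClosed y ψ i)]
    have hnull : ∀ j, j ≠ i → ∀ᵐ x ∂(volume : Measure 𝔼), x ∉ cell K y ψ i ∩ cell K y ψ j := by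
      intro j hj
      exact measure_eq_zero_iff_ae_notMem.1 (volume_cell_inter hy ψ (Ne.symm hj))
    have hnull' : ∀ᵐ x ∂(volume : Measure 𝔼), ∀ j, j ≠ i → x ∉ cell K y ψ i ∩ cell K y ψ j := by
      rw [ae_all_iff]
      intro j
      by_cases hj : j = i
      · exact Filter.Eventually.of_forall fun x h => absurd hj h
      · filter_upwards [hnull j hj] with x hx _ using hx
    filter_upwards [hnull'] with x hx hxi
    by_cases hsi : s x = i
    · rw [hsi]
    · exact absurd ⟨hxi, mem_cell_iff.2 ⟨hxi.1, hs x⟩⟩ (hx (s x) hsi)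
  rw [integral_congr_ae hae, setIntegral_const, smul_eq_mul]
  rfl

lemma subgrad_sel (K : Set 𝔼) {y : ι → 𝔼}
    {ψ : ι → ℝ} {s : 𝔼 → ι} (hs : ∀ x, phi y ψ x = ⟪y (s x), x⟫ - ψ (s x)) :
    Subgrad K (phi y ψ) (fun x => y (s x)) := by
  refine Filter.Eventually.of_forall fun x x' _ => ?_
  have := le_phi y ψ x' (s x)
  rw [hs x, inner_sub_right]
  linarith

/-- `L²` bound for the primal potentials -/
lemma phi_stab {R : ℝ} (hR : 0 < R) {K : Set 𝔼} (hK : IsCompact K)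
    (hKR : K ⊆ Metric.closedBall 0 R) {y z : ι → 𝔼}
    (hy : Function.Injective y) (hz : Function.Injective z) {m : ι → ℝ} (hm : ∀ i, 0 < m i)
    {ψ ψ' : ι → ℝ} {c : ℝ} (hψ : ∀ i, mass K y ψ i = m i)
    (hψ' : ∀ i, mass K z ψ' i ≤ 2 * m i)
    (hX : ∑ i, m i * (ψ' i - ψ i - c) ^ 2 ≤ 1090 ^ 2 * R ^ 2 * ∑ i, m i * ‖z i - y i‖ ^ 2) :
    ∫ x in K, (phi y ψ x - (phi z ψ' x + c)) ^ 2 ≤
      7128606 * R ^ 2 * ∑ i, m i * ‖z i - y i‖ ^ 2 := by
  set Y := ∑ i, m i * ‖z i - y i‖ ^ 2 with hY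
  set w : 𝔼 → ℝ := fun x => phi y ψ x - (phi z ψ' x + c) with hw
  have hwc : Continuous w := (continuous_phi y ψ).sub ((continuous_phi z ψ').add continuous_const)
  have hKcl := hK.isClosed
  set a : ι → ℝ := fun i => R * ‖z i - y i‖ + |ψ' i - ψ i - c| with ha
  have ha0 : ∀ i, 0 ≤ a i := fun i => by positivity
  have hin : ∀ x ∈ K, ∀ i, |⟪z i - y i, x⟫| ≤ R * ‖z i - y i‖ := by
    intro x hx i
    have h1 : ‖x‖ ≤ R := by simpa using hKR hx
    refine (abs_real_inner_le_norm _ _).trans ?_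
    rw [mul_comm]
    exact mul_le_mul_of_nonneg_right h1 (norm_nonneg _)
  have hpos : ∀ i, ∀ x ∈ cell K y ψ i, max (w x) 0 ^ 2 ≤ a i ^ 2 := by
    intro i x hx
    have h1 := phi_eq_of_mem_cell hx
    have h2 := le_phi z ψ' x i
    have h3 := (abs_le.1 (hin x hx.1 i)).1
    have h4 := le_abs_self (ψ' i - ψ i - c)
    rw [inner_sub_left] at h3
    have h5 : w x ≤ a i := by simp only [hw, ha]; linarith
    exact pow_le_pow_left₀ (le_max_right _ _) (max_le h5 (ha0 i)) 2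
  have hneg : ∀ i, ∀ x ∈ cell K z ψ' i, max (-w x) 0 ^ 2 ≤ a i ^ 2 := by
    intro i x hx
    have h1 := phi_eq_of_mem_cell hx
    have h2 := le_phi y ψ x i
    have h3 := (abs_le.1 (hin x hx.1 i)).2
    have h4 := neg_abs_le (ψ' i - ψ i - c)
    rw [inner_sub_left] at h3
    have h5 : -w x ≤ a i := by simp only [hw, ha]; linarith
    exact pow_le_pow_left₀ (le_max_right _ _) (max_le h5 (ha0 i)) 2
  have hc1 : Continuous fun x => max (w x) 0 ^ 2 := (hwc.max continuous_const).pow 2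
  have hc2 : Continuous fun x => max (-w x) 0 ^ 2 := (hwc.neg.max continuous_const).pow 2
  have hi1 := hc1.continuousOn.integrableOn_compact (μ := volume) hK
  have hi2 := hc2.continuousOn.integrableOn_compact (μ := volume) hK
  have hsplit : ∀ x, w x ^ 2 = max (w x) 0 ^ 2 + max (-w x) 0 ^ 2 := by
    intro x
    rcases le_total 0 (w x) with h | h
    · rw [max_eq_left h, max_eq_right (by linarith)]; ring
    · rw [max_eq_right h, max_eq_left (by linarith)]; ring
  have hfinc : ∀ (y' : ι → 𝔼) (χ : ι → ℝ) (i : ι), volume (cell K y' χ i) ≠ ∞ := fun y' χ i =>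
    (lt_of_le_of_lt (measure_mono (cell_subset K y' χ i)) hK.measure_lt_top).ne
  have hb1 : ∫ x in K, max (w x) 0 ^ 2 ≤ ∑ i, m i * a i ^ 2 := by
    rw [integral_eq_sum_cell hKcl hy ψ hi1]
    refine Finset.sum_le_sum fun i _ => ?_
    calc ∫ x in cell K y ψ i, max (w x) 0 ^ 2 ≤ ∫ x in cell K y ψ i, a i ^ 2 :=
          setIntegral_mono_on (hi1.mono_set (cell_subset _ _ _ _))
            (integrableOn_const (hfinc y ψ i)) (measurableSet_cell hKcl y ψ i) (hpos i)
      _ = m i * a i ^ 2 := by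
          rw [setIntegral_const, smul_eq_mul, ← hψ i]; rfl
  have hb2 : ∫ x in K, max (-w x) 0 ^ 2 ≤ ∑ i, 2 * m i * a i ^ 2 := by
    rw [integral_eq_sum_cell hKcl hz ψ' hi2]
    refine Finset.sum_le_sum fun i _ => ?_
    calc ∫ x in cell K z ψ' i, max (-w x) 0 ^ 2 ≤ ∫ x in cell K z ψ' i, a i ^ 2 :=
          setIntegral_mono_on (hi2.mono_set (cell_subset _ _ _ _))
            (integrableOn_const (hfinc z ψ' i)) (measurableSet_cell hKcl z ψ' i) (hneg i)
      _ = mass K z ψ' i * a i ^ 2 := by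
          rw [setIntegral_const, smul_eq_mul]; rfl
      _ ≤ 2 * m i * a i ^ 2 := mul_le_mul_of_nonneg_right (hψ' i) (sq_nonneg _)
  have hsuma : ∑ i, m i * a i ^ 2 ≤ 2 * R ^ 2 * Y + 2 * ∑ i, m i * (ψ' i - ψ i - c) ^ 2 := by
    rw [hY, Finset.mul_sum, Finset.mul_sum, ← Finset.sum_add_distrib]
    refine Finset.sum_le_sum fun i _ => ?_
    have h1 := add_sq_le_two (R * ‖z i - y i‖) |ψ' i - ψ i - c|
    rw [sq_abs] at h1
    calc m i * a i ^ 2 ≤ m i * (2 * (R * ‖z i - y i‖) ^ 2 + 2 * (ψ' i - ψ i - c) ^ 2) :=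
          mul_le_mul_of_nonneg_left h1 (hm i).le
      _ = _ := by ring
  have hY0 : 0 ≤ Y := Finset.sum_nonneg fun i _ => mul_nonneg (hm i).le (sq_nonneg _)
  calc ∫ x in K, (phi y ψ x - (phi z ψ' x + c)) ^ 2
      = ∫ x in K, (max (w x) 0 ^ 2 + max (-w x) 0 ^ 2) := by
        congr 1; funext x; exact hsplit x
    _ = (∫ x in K, max (w x) 0 ^ 2) + ∫ x in K, max (-w x) 0 ^ 2 := integral_add hi1 hi2
    _ ≤ ∑ i, m i * a i ^ 2 + ∑ i, 2 * m i * a i ^ 2 := add_le_add hb1 hb2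
    _ = 3 * ∑ i, m i * a i ^ 2 := by
        rw [Finset.mul_sum, ← Finset.sum_add_distrib]
        exact Finset.sum_congr rfl fun i _ => by ring
    _ ≤ 3 * (2 * R ^ 2 * Y + 2 * (1090 ^ 2 * R ^ 2 * Y)) := by
        have := hsuma.trans (add_le_add_right (mul_le_mul_of_nonneg_left hX (by norm_num))
          (2 * R ^ 2 * Y))
        linarith
    _ = _ := by ring

end Crest.Agent.H3.OT
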