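import Mathlib
import Crest.Agent.H3.OT.Sel
import Crest.Prelude.Def_QuadraticTransport

set_option autoImplicit false
open MeasureTheory Set Filter Topology
open scoped ENNReal NNReal Pointwise RealInnerProductSpace
open Crest.AnalysisR.OT

namespace Crest.Agent.H3.OT

variable {d : ℕ}

local notation "𝔼" => EuclideanSpace ℝ (Fin d)

/-- pointwise convergent subsequence of equi-Lipschitz functions normalised at a point -/
lemma exists_pointwise_subseq {L : ℝ} (hL : 0 ≤ L) {U : ℕ → 𝔼 → ℝ} {x₀ : 𝔼}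
    (hlip : ∀ n x x', |U n x - U n x'| ≤ L * ‖x - x'‖) (h0 : ∀ n, U n x₀ = 0) :
    ∃ φ : ℕ → ℕ, StrictMono φ ∧ ∃ W : 𝔼 → ℝ, ∀ x, Tendsto (fun k => U (φ k) x) atTop (𝓝 (W x)) := by
  set q : ℕ → 𝔼 := TopologicalSpace.denseSeq 𝔼 with hq
  have hqd : DenseRange q := TopologicalSpace.denseRange_denseSeq 𝔼
  set a : ℕ → (ℕ → ℝ) := fun n j => U n (q j) with ha
  have hcomp : IsCompact (Set.pi Set.univ fun j : ℕ =>
      Set.Icc (-(L * ‖q j - x₀‖)) (L * ‖q j - x₀‖)) := isCompact_univ_pi fun j => isCompact_Icc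
  have hmem : ∀ n, a n ∈ Set.pi Set.univ fun j : ℕ =>
      Set.Icc (-(L * ‖q j - x₀‖)) (L * ‖q j - x₀‖) := by
    intro n j _
    have := hlip n (q j) x₀
    rw [h0, sub_zero] at this
    exact abs_le.1 this
  obtain ⟨b, -, φ, hφ, hb⟩ := hcomp.tendsto_subseq hmem
  refine ⟨φ, hφ, ?_⟩
  have hbj : ∀ j, Tendsto (fun k => U (φ k) (q j)) atTop (𝓝 (b j)) := fun j =>
    (tendsto_pi_nhds.1 hb) j
  have hlim : ∀ x, ∃ w, Tendsto (fun k => U (φ k) x) atTop (𝓝 w) := by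
    intro x
    apply cauchySeq_tendsto_of_complete
    rw [Metric.cauchySeq_iff]
    intro ε hε
    obtain ⟨j, hj⟩ := hqd.exists_dist_lt x (ε := ε / (3 * (L + 1))) (by positivity)
    have hc := (hbj j).cauchySeq
    rw [Metric.cauchySeq_iff] at hc
    obtain ⟨N, hN⟩ := hc (ε / 3) (by positivity)
    refine ⟨N, fun m hm n hn => ?_⟩
    have h1 := hN m hm n hn
    have h2 := hlip (φ m) x (q j)
    have h3 := hlip (φ n) x (q j)
    have h4 : L * ‖x - q j‖ < ε / 3 := by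
      have h5 : ‖x - q j‖ < ε / (3 * (L + 1)) := by rw [← dist_eq_norm]; exact hj
      rw [lt_div_iff₀ (by positivity)] at h5
      have := norm_nonneg (x - q j)
      nlinarith
    rw [Real.dist_eq, abs_lt] at h1 ⊢
    rw [abs_le] at h2 h3
    constructor <;> linarith [h1.1, h1.2, h2.1, h2.2, h3.1, h3.2]
  choose W hW using hlim
  exact ⟨W, hW⟩

lemma L2_norm_sq {μ : Measure 𝔼} (f : Lp 𝔼 2 μ) : ‖f‖ ^ 2 = ∫ x, ‖f x‖ ^ 2 ∂μ := by
  rw [← real_inner_self_eq_norm_sq, L2.inner_def]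
  simp_rw [real_inner_self_eq_norm_sq]

lemma L2_toLp_sub {μ : Measure 𝔼} {F G : 𝔼 → 𝔼} (hF : MemLp F 2 μ) (hG : MemLp G 2 μ) :
    ‖hF.toLp F - hG.toLp G‖ ^ 2 = ∫ x, ‖F x - G x‖ ^ 2 ∂μ := by
  rw [L2_norm_sq]
  refine integral_congr_ae ?_
  filter_upwards [Lp.coeFn_sub (hF.toLp F) (hG.toLp G), hF.coeFn_toLp, hG.coeFn_toLp]
    with x h1 h2 h3
  rw [h1, Pi.sub_apply, h2, h3]

/-- a sequence of uniformly bounded maps that is Cauchy in `L²` has an `L²` limit, and a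
subsequence converges almost everywhere -/
lemma exists_L2_limit {μ : Measure 𝔼} [IsFiniteMeasure μ] {S : ℕ → 𝔼 → 𝔼} {L : ℝ}
    (hSm : ∀ n, Measurable (S n)) (hSL : ∀ n x, ‖S n x‖ ≤ L)
    (hc : ∀ ε > 0, ∃ N, ∀ m ≥ N, ∀ n ≥ N, ∫ x, ‖S m x - S n x‖ ^ 2 ∂μ < ε) :
    ∃ T : 𝔼 → 𝔼, Measurable T ∧ Tendsto (fun n => ∫ x, ‖S n x - T x‖ ^ 2 ∂μ) atTop (𝓝 0) ∧
      ∃ φ : ℕ → ℕ, StrictMono φ ∧ ∀ᵐ x ∂μ, Tendsto (fun k => S (φ k) x) atTop (𝓝 (T x)) := by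
  have hmem : ∀ n, MemLp (S n) 2 μ := fun n =>
    MemLp.of_bound (hSm n).aestronglyMeasurable L (Eventually.of_forall (hSL n))
  set s : ℕ → Lp 𝔼 2 μ := fun n => (hmem n).toLp (S n) with hs
  have hcs : CauchySeq s := by
    rw [Metric.cauchySeq_iff]
    intro ε hε
    obtain ⟨N, hN⟩ := hc (ε ^ 2) (by positivity)
    refine ⟨N, fun m hm n hn => ?_⟩
    have := hN m hm n hn
    rw [dist_eq_norm]
    have h2 := L2_toLp_sub (hmem m) (hmem n)
    have h3 : ‖s m - s n‖ ^ 2 < ε ^ 2 := by rw [hs]; rw [h2]; exact this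
    exact lt_of_pow_lt_pow_left₀ 2 hε.le h3
  obtain ⟨t, ht⟩ := cauchySeq_tendsto_of_complete hcs
  refine ⟨t, (Lp.stronglyMeasurable t).measurable, ?_, ?_⟩
  · have h1 : Tendsto (fun n => ‖s n - t‖ ^ 2) atTop (𝓝 0) := by
      have := (tendsto_iff_norm_sub_tendsto_zero.1 ht).pow 2
      simpa using this
    refine h1.congr fun n => ?_
    have h2 := L2_toLp_sub (hmem n) (Lp.memLp t)
    rw [Lp.toLp_coeFn] at h2
    exact h2
  · have h1 := tendstoInMeasure_of_tendsto_Lp ht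
    obtain ⟨φ, hφ, h2⟩ := h1.exists_seq_tendsto_ae
    refine ⟨φ, hφ, ?_⟩
    have h3 : ∀ᵐ x ∂μ, ∀ n, s n x = S n x := by
      rw [ae_all_iff]; exact fun n => (hmem n).coeFn_toLp
    filter_upwards [h2, h3] with x hx hx3
    refine hx.congr fun k => ?_
    exact hx3 (φ k)

end Crest.Agent.H3.OT
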