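import Mathlib
import Crest.Agent.H3.OT.Lim

set_option autoImplicit false
open MeasureTheory Set Filter Topology
open scoped ENNReal NNReal Pointwise RealInnerProductSpace
open Crest.AnalysisR.OT

namespace Crest.Agent.H3.OT

variable {d : ℕ}

local notation "𝔼" => EuclideanSpace ℝ (Fin d)

/-- Legendre transform relative to `K` -/
noncomputable def leg (K : Set 𝔼) (W : 𝔼 → ℝ) (p : 𝔼) : ℝ :=
  sSup ((fun x => ⟪p, x⟫ - W x) '' K)

lemma leg_bdd {K : Set 𝔼} (hK : IsCompact K) {W : 𝔼 → ℝ} (hW : Continuous W) (p : 𝔼) :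
    BddAbove ((fun x => ⟪p, x⟫ - W x) '' K) :=
  (hK.image (by fun_prop)).bddAbove

lemma le_leg {K : Set 𝔼} (hK : IsCompact K) {W : 𝔼 → ℝ} (hW : Continuous W) (p : 𝔼) {x : 𝔼}
    (hx : x ∈ K) : ⟪p, x⟫ - W x ≤ leg K W p :=
  le_csSup (leg_bdd hK hW p) ⟨x, hx, rfl⟩

lemma leg_le {K : Set 𝔼} (hne : K.Nonempty) {W : 𝔼 → ℝ} {p : 𝔼} {c : ℝ}
    (h : ∀ x ∈ K, ⟪p, x⟫ - W x ≤ c) : leg K W p ≤ c := by
  refine csSup_le (hne.image _) ?_
  rintro _ ⟨x, hx, rfl⟩
  exact h x hx

lemma continuous_leg {K : Set 𝔼} (hK : IsCompact K) (hne : K.Nonempty) {W : 𝔼 → ℝ}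
    (hW : Continuous W) : Continuous (leg K W) := by
  obtain ⟨R, hR⟩ := hK.isBounded.subset_closedBall (0 : 𝔼)
  obtain ⟨x₁, hx₁⟩ := hne
  have hR0 : 0 ≤ R := by
    have := hR hx₁
    rw [mem_closedBall_zero_iff] at this
    exact (norm_nonneg _).trans this
  have key : ∀ p q : 𝔼, leg K W p - leg K W q ≤ R * ‖p - q‖ := by
    intro p q
    have : leg K W p ≤ leg K W q + R * ‖p - q‖ := by
      refine leg_le ⟨x₁, hx₁⟩ fun x hx => ?_
      have h1 := le_leg hK hW q hx
      have h2 : ⟪p, x⟫ - ⟪q, x⟫ ≤ R * ‖p - q‖ := by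
        rw [← inner_sub_left]
        refine (real_inner_le_norm _ _).trans ?_
        rw [mul_comm]
        have : ‖x‖ ≤ R := by simpa using hR hx
        exact mul_le_mul_of_nonneg_right this (norm_nonneg _)
      linarith
    linarith
  refine (LipschitzWith.of_dist_le_mul (K := ⟨R, hR0⟩) fun p q => ?_).continuous
  rw [Real.dist_eq, dist_eq_norm, abs_le]
  constructor
  · have := key q p
    rw [norm_sub_rev] at this
    show -(R * ‖p - q‖) ≤ _
    linarith
  · exact key p q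

lemma integrableOn_of_bdd {K : Set 𝔼} (hK : IsCompact K) {F : 𝔼 → ℝ} (hF : Measurable F) {C : ℝ}
    (hC : ∀ᵐ x ∂(volume.restrict K), ‖F x‖ ≤ C) : IntegrableOn F K :=
  Measure.integrableOn_of_bounded hK.measure_lt_top.ne hF.aestronglyMeasurable hC

lemma integral_uniform (K : Set 𝔼) {F : 𝔼 → ℝ} :
    ∫ x, F x ∂(uniformProbOn K) = (volume.real K)⁻¹ * ∫ x in K, F x := by
  unfold uniformProbOn
  rw [integral_smul_measure, ENNReal.toReal_inv]
  rfl

lemma ae_uniform_iff {K : Set 𝔼} (hK : IsCompact K) {P : 𝔼 → Prop} :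
    (∀ᵐ x ∂(uniformProbOn K), P x) ↔ ∀ᵐ x ∂(volume.restrict K), P x := by
  unfold uniformProbOn
  rw [Measure.ae_ennreal_smul_measure_iff]
  exact ENNReal.inv_ne_zero.2 hK.measure_lt_top.ne

lemma isProb_uniform {K : Set 𝔼} (hK : IsCompact K) (hV : 0 < volume.real K) :
    IsProbabilityMeasure (uniformProbOn K) := by
  constructor
  unfold uniformProbOn
  rw [Measure.smul_apply, Measure.restrict_apply_univ, smul_eq_mul]
  refine ENNReal.inv_mul_cancel ?_ hK.measure_lt_top.ne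
  intro h
  simp [Measure.real, h] at hV

set_option maxHeartbeats 1000000 in
/-- the limit lemma: maps with potentials whose images converge to `μ` converge (along a
subsequence) to any optimal map -/
theorem lim_opt {K : Set 𝔼} (hK : IsCompact K) (hKv : Convex ℝ K) {x₀ : 𝔼} {r : ℝ}
    (hr : 0 < r) (hball : Metric.closedBall x₀ r ⊆ K) (hV : 0 < volume.real K) {L : ℝ}
    (hL : 0 ≤ L) {u : ℕ → 𝔼 → ℝ} {S : ℕ → 𝔼 → 𝔼}
    (hlip : ∀ n x x', |u n x - u n x'| ≤ L * ‖x - x'‖) (hSm : ∀ n, Measurable (S n))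
    (hSL : ∀ n x, ‖S n x‖ ≤ L) (hsub : ∀ n, Subgrad K (u n) (S n)) {μ : Measure 𝔼}
    [IsProbabilityMeasure μ] (hμL : ∀ᵐ x ∂μ, ‖x‖ ≤ L)
    (hpush : ∀ g : 𝔼 → ℝ, Continuous g →
      Tendsto (fun n => ∫ x in K, g (S n x)) atTop (𝓝 (volume.real K * ∫ x, g x ∂μ)))
    {T : 𝔼 → 𝔼} (hT : IsOptimalMap (uniformProbOn K) μ T) :
    ∃ φ : ℕ → ℕ, StrictMono φ ∧
      Tendsto (fun k => ∫ x in K, ‖S (φ k) x - T x‖ ^ 2) atTop (𝓝 0) := by
  haveI := isProb_uniform hK hV
  obtain ⟨hTm, hTmap, hTopt⟩ := hT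
  have hKm : MeasurableSet K := hK.measurableSet
  have hfin : volume K ≠ ∞ := hK.measure_lt_top.ne
  have hx₀K : x₀ ∈ K := hball (Metric.mem_closedBall_self hr.le)
  have hne : K.Nonempty := ⟨x₀, hx₀K⟩
  haveI : IsFiniteMeasure (volume.restrict K : Measure 𝔼) :=
    ⟨by rw [Measure.restrict_apply_univ]; exact hK.measure_lt_top⟩
  set V := volume.real K with hVdef
  -- normalised potentials
  set U : ℕ → 𝔼 → ℝ := fun n x => u n x - u n x₀ with hU
  have hUlip : ∀ n x x', |U n x - U n x'| ≤ L * ‖x - x'‖ := by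
    intro n x x'
    have : U n x - U n x' = u n x - u n x' := by simp only [hU]; ring
    rw [this]; exact hlip n x x'
  obtain ⟨φ, hφ, W, hW⟩ := exists_pointwise_subseq hL hUlip (x₀ := x₀) (fun n => by simp [hU])
  have hcont : ∀ (F : 𝔼 → ℝ), (∀ x x', |F x - F x'| ≤ L * ‖x - x'‖) → Continuous F := by
    intro F hF
    refine (LipschitzWith.of_dist_le_mul (K := ⟨L, hL⟩) fun x x' => ?_).continuous
    rw [Real.dist_eq, dist_eq_norm]
    exact hF x x'
  have hUc : ∀ n, Continuous (U n) := fun n => hcont _ (hUlip n)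
  have hWlip : ∀ x x', |W x - W x'| ≤ L * ‖x - x'‖ := by
    intro x x'
    exact le_of_tendsto' ((hW x).sub (hW x')).abs fun k => hUlip (φ k) x x'
  have hWc : Continuous W := hcont W hWlip
  have hsubU : ∀ n, Subgrad K (U n) (S n) := by
    intro n
    filter_upwards [hsub n] with x hx x' hx'
    have := hx x' hx'
    simp only [hU]
    linarith
  -- L² convergence of the potentials
  obtain ⟨R, hR⟩ := hK.isBounded.subset_closedBall x₀
  have hUbd : ∀ n, ∀ x ∈ K, |U n x| ≤ L * R := by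
    intro n x hx
    have h1 := hUlip n x x₀
    have h2 : U n x₀ = 0 := by simp [hU]
    rw [h2, sub_zero] at h1
    refine h1.trans (mul_le_mul_of_nonneg_left ?_ hL)
    have := hR hx
    rwa [Metric.mem_closedBall, dist_eq_norm] at this
  have hWbd : ∀ x ∈ K, |W x| ≤ L * R := fun x hx =>
    le_of_tendsto' (hW x).abs fun k => hUbd (φ k) x hx
  have hI : Tendsto (fun k => ∫ x in K, (U (φ k) x - W x) ^ 2) atTop (𝓝 0) := by
    have h1 : Tendsto (fun k => ∫ x in K, (U (φ k) x - W x) ^ 2) atTop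
        (𝓝 (∫ x in K, (0 : ℝ))) := by
      refine tendsto_integral_of_dominated_convergence (fun _ => (2 * (L * R)) ^ 2)
        (fun k => (((hUc _).sub hWc).pow 2).aestronglyMeasurable)
        (integrable_const _) (fun k => ?_) ?_
      · rw [ae_restrict_iff' hKm]
        refine Eventually.of_forall fun x hx => ?_
        rw [norm_pow, Real.norm_eq_abs]
        refine pow_le_pow_left₀ (abs_nonneg _) ?_ 2
        have h1 := hUbd (φ k) x hx
        have h2 := hWbd x hx
        exact (abs_sub _ _).trans (by linarith)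
      · refine Eventually.of_forall fun x => ?_
        have := ((hW x).sub_const (W x)).pow 2
        simpa using this
    simpa using h1
  -- Cauchy
  have hcauchy : ∀ ε > 0, ∃ N, ∀ m ≥ N, ∀ n ≥ N,
      ∫ x in K, ‖S (φ m) x - S (φ n) x‖ ^ 2 < ε := by
    intro ε hε
    set A := (d : ℝ) * (36 * L ^ 2 * (d / r * V)) + 1 with hA
    have hA0 : 0 < A := by positivity
    set h := min r (ε / (2 * A)) with hh
    have hh0 : 0 < h := lt_min hr (by positivity)
    have hhr : h ≤ r := min_le_left _ _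
    have hhA : h * A ≤ ε / 2 := by
      have : h ≤ ε / (2 * A) := min_le_right _ _
      calc h * A ≤ ε / (2 * A) * A := mul_le_mul_of_nonneg_right this hA0.le
        _ = ε / 2 := by field_simp
    set B := (d : ℝ) * (8 / h ^ 2) with hB
    have hB0 : 0 ≤ B := by positivity
    have hev : ∀ᶠ k in atTop, ∫ x in K, (U (φ k) x - W x) ^ 2 < ε / (8 * (B + 1)) :=
      (tendsto_order.1 hI).2 _ (by positivity)
    obtain ⟨N, hN⟩ := eventually_atTop.1 hev
    refine ⟨N, fun m hm n hn => ?_⟩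
    have h1 := gn hK hKv hr hball hL (hUc (φ m)) (hUc (φ n)) (hSm _) (hSm _)
      (Eventually.of_forall (hSL _)) (Eventually.of_forall (hSL _)) (hsubU (φ m)) (hsubU (φ n))
      hh0 hhr
    have hUi : ∀ k, IntegrableOn (fun x => (U (φ k) x - W x) ^ 2) K := fun k =>
      (((hUc _).sub hWc).pow 2).continuousOn.integrableOn_compact hK
    have h2 : ∫ x in K, (U (φ m) x - U (φ n) x) ^ 2 ≤
        2 * (∫ x in K, (U (φ m) x - W x) ^ 2) + 2 * ∫ x in K, (U (φ n) x - W x) ^ 2 := by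
      rw [← integral_const_mul, ← integral_const_mul,
        ← integral_add ((hUi m).const_mul 2) ((hUi n).const_mul 2)]
      refine integral_mono ((((hUc _).sub (hUc _)).pow 2).continuousOn.integrableOn_compact hK)
        (((hUi m).const_mul 2).add ((hUi n).const_mul 2)) fun x => ?_
      show (U (φ m) x - U (φ n) x) ^ 2 ≤ 2 * (U (φ m) x - W x) ^ 2 + 2 * (U (φ n) x - W x) ^ 2
      nlinarith [sq_nonneg ((U (φ m) x - W x) + (U (φ n) x - W x))]
    have h3 : ∫ x in K, (U (φ m) x - U (φ n) x) ^ 2 ≤ ε / (2 * (B + 1)) := by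
      have e1 := hN m hm
      have e2 := hN n hn
      have e3 : ε / (2 * (B + 1)) = 2 * (ε / (8 * (B + 1))) + 2 * (ε / (8 * (B + 1))) := by
        field_simp; ring
      rw [e3]
      linarith
    have h4 : B * (ε / (2 * (B + 1))) < ε / 2 := by
      rw [mul_div_assoc', div_lt_div_iff₀ (by positivity) (by norm_num)]
      nlinarith
    have h5 : (d : ℝ) * (8 / h ^ 2 * (∫ x in K, (U (φ m) x - U (φ n) x) ^ 2) +
        36 * L ^ 2 * (d * h / r * V)) =
        B * (∫ x in K, (U (φ m) x - U (φ n) x) ^ 2) + h * (A - 1) := by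
      rw [hB, hA]; field_simp; ring
    rw [h5] at h1
    have h6 := mul_le_mul_of_nonneg_left h3 hB0
    have h7 : h * (A - 1) ≤ ε / 2 := by nlinarith
    linarith
  obtain ⟨Si, hSim, hSlim, χ, hχ, hSae⟩ := exists_L2_limit (μ := volume.restrict K)
    (S := fun k => S (φ k)) (L := L) (fun k => hSm _) (fun k x => hSL _ x) hcauchy
  -- properties of the limit
  have hSiL : ∀ᵐ x ∂(volume.restrict K), ‖Si x‖ ≤ L := by
    filter_upwards [hSae] with x hx
    exact le_of_tendsto' hx.norm fun k => hSL _ x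
  have hSisub : Subgrad K W Si := by
    have hall : ∀ᵐ x ∂(volume.restrict K), ∀ n, ∀ x' ∈ K, U n x + ⟪S n x, x' - x⟫ ≤ U n x' := by
      rw [ae_all_iff]; exact hsubU
    filter_upwards [hSae, hall] with x hx hx2 x' hx'
    have t1 : Tendsto (fun k => U (φ (χ k)) x + ⟪S (φ (χ k)) x, x' - x⟫) atTop
        (𝓝 (W x + ⟪Si x, x' - x⟫)) :=
      ((hW x).comp hχ.tendsto_atTop).add (hx.inner tendsto_const_nhds)
    exact le_of_tendsto_of_tendsto' t1 ((hW x').comp hχ.tendsto_atTop)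
      fun k => hx2 (φ (χ k)) x' hx'
  have hSipush : ∀ g : 𝔼 → ℝ, Continuous g → (∃ C, ∀ x, ‖g x‖ ≤ C) →
      ∫ x in K, g (Si x) = V * ∫ x, g x ∂μ := by
    rintro g hg ⟨C, hC⟩
    have t1 : Tendsto (fun k => ∫ x in K, g (S (φ (χ k)) x)) atTop (𝓝 (∫ x in K, g (Si x))) := by
      refine tendsto_integral_of_dominated_convergence (fun _ => C)
        (fun k => (hg.measurable.comp (hSm _)).aestronglyMeasurable)
        (integrable_const _) (fun k => Eventually.of_forall fun x => hC _) ?_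
      filter_upwards [hSae] with x hx
      exact (hg.tendsto _).comp hx
    have t2 := (hpush g hg).comp (hφ.tendsto_atTop.comp hχ.tendsto_atTop)
    exact tendsto_nhds_unique t1 t2
  have hSimap : (uniformProbOn K).map Si = μ := by
    haveI : IsProbabilityMeasure ((uniformProbOn K).map Si) :=
      Measure.isProbabilityMeasure_map hSim.aemeasurable
    apply ext_of_forall_integral_eq_of_IsFiniteMeasure
    intro f
    rw [integral_map hSim.aemeasurable f.continuous.aestronglyMeasurable, integral_uniform,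
      hSipush f f.continuous ⟨‖f‖, f.norm_coe_le_norm⟩, ← mul_assoc, inv_mul_cancel₀ hV.ne',
      one_mul]
  -- transfer of integrals
  have htr : ∀ (g : 𝔼 → ℝ), Continuous g → ∀ (Q : 𝔼 → 𝔼), Measurable Q →
      (uniformProbOn K).map Q = μ → ∫ x in K, g (Q x) = V * ∫ x, g x ∂μ := by
    intro g hg Q hQ hQmap
    rw [← hQmap, integral_map hQ.aemeasurable hg.aestronglyMeasurable, integral_uniform,
      ← mul_assoc, mul_inv_cancel₀ hV.ne', one_mul]
  have hTL : ∀ᵐ x ∂(volume.restrict K), ‖T x‖ ≤ L := by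
    rw [← ae_uniform_iff hK]
    rw [← hTmap] at hμL
    exact ae_of_ae_map hTm.aemeasurable hμL
  set Ws := leg K W with hWs
  have hWsc : Continuous Ws := continuous_leg hK hne hWc
  -- integrability facts
  obtain ⟨R0, hR0⟩ := hK.isBounded.subset_closedBall (0 : 𝔼)
  have hxR : ∀ x ∈ K, ‖x‖ ≤ R0 := fun x hx => by simpa using hR0 hx
  have hR0nn : 0 ≤ R0 := (norm_nonneg _).trans (hxR x₀ hx₀K)
  have hinner : ∀ (Q : 𝔼 → 𝔼), Measurable Q → (∀ᵐ x ∂(volume.restrict K), ‖Q x‖ ≤ L) →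
      IntegrableOn (fun x => ⟪Q x, x⟫) K := by
    intro Q hQ hQL
    refine integrableOn_of_bdd hK (hQ.inner measurable_id) (C := L * R0) ?_
    filter_upwards [hQL, ae_restrict_mem hKm] with x h1 h2
    exact (norm_inner_le_norm _ _).trans (mul_le_mul h1 (hxR x h2) (norm_nonneg _) hL)
  obtain ⟨C₁, hC₁⟩ : ∃ C, ∀ p ∈ Metric.closedBall (0 : 𝔼) L, ‖Ws p‖ ≤ C :=
    (isCompact_closedBall 0 L).exists_bound_of_continuousOn hWsc.continuousOn
  have hWsi : ∀ (Q : 𝔼 → 𝔼), Measurable Q → (∀ᵐ x ∂(volume.restrict K), ‖Q x‖ ≤ L) →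
      IntegrableOn (fun x => Ws (Q x)) K := by
    intro Q hQ hQL
    refine integrableOn_of_bdd hK (hWsc.measurable.comp hQ) (C := C₁) ?_
    filter_upwards [hQL] with x h1
    exact hC₁ _ (by simpa using h1)
  have hnsq : ∀ (Q : 𝔼 → 𝔼), Measurable Q → (∀ᵐ x ∂(volume.restrict K), ‖Q x‖ ≤ L) →
      IntegrableOn (fun x => ‖Q x‖ ^ 2) K := by
    intro Q hQ hQL
    refine integrableOn_of_bdd hK (hQ.norm.pow_const 2) (C := L ^ 2) ?_
    filter_upwards [hQL] with x h1
    rw [norm_pow, norm_norm]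
    exact pow_le_pow_left₀ (norm_nonneg _) h1 2
  have hWi : IntegrableOn W K := hWc.continuousOn.integrableOn_compact hK
  -- optimality in terms of inner products
  have hlint : ∀ (Q : 𝔼 → 𝔼), Measurable Q → (∀ᵐ x ∂(volume.restrict K), ‖Q x‖ ≤ L) →
      ∫⁻ x, ‖x - Q x‖ₑ ^ 2 ∂(uniformProbOn K) =
        ENNReal.ofReal (V⁻¹ * ((∫ x in K, ‖x‖ ^ 2) - 2 * (∫ x in K, ⟪Q x, x⟫) +
          ∫ x in K, ‖Q x‖ ^ 2)) := by
    intro Q hQ hQL
    have e1 : ∀ x, ‖x - Q x‖ₑ ^ 2 = ENNReal.ofReal (‖x - Q x‖ ^ 2) := by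
      intro x
      rw [← ofReal_norm, ENNReal.ofReal_pow (norm_nonneg _)]
    simp_rw [e1]
    have i0 : IntegrableOn (fun x : 𝔼 => ‖x‖ ^ 2) K :=
      (continuous_norm.pow 2).continuousOn.integrableOn_compact hK
    have e2 : ∀ x, ‖x - Q x‖ ^ 2 = ‖x‖ ^ 2 - 2 * ⟪Q x, x⟫ + ‖Q x‖ ^ 2 := by
      intro x; rw [norm_sub_sq_real, real_inner_comm]
    have i1 : IntegrableOn (fun x => ‖x‖ ^ 2 - 2 * ⟪Q x, x⟫) K :=
      i0.sub ((hinner Q hQ hQL).const_mul 2)
    have i2 : IntegrableOn (fun x => ‖x‖ ^ 2 - 2 * ⟪Q x, x⟫ + ‖Q x‖ ^ 2) K :=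
      i1.add (hnsq Q hQ hQL)
    have i3 : Integrable (fun x => ‖x - Q x‖ ^ 2) (uniformProbOn K) := by
      simp_rw [e2]
      unfold uniformProbOn
      exact Integrable.smul_measure i2 (ENNReal.inv_ne_top.2 (by
        intro h; simp [hVdef, Measure.real, h] at hV))
    rw [← ofReal_integral_eq_lintegral_ofReal i3 (Eventually.of_forall fun x => sq_nonneg _),
      integral_uniform]
    simp_rw [e2]
    rw [integral_add i1 (hnsq Q hQ hQL), integral_sub i0 ((hinner Q hQ hQL).const_mul 2),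
      integral_const_mul]
  have hopt := hTopt Si hSim hSimap
  rw [hlint T hTm hTL, hlint Si hSim hSiL] at hopt
  have hsqT := htr (fun p => ‖p‖ ^ 2) (by fun_prop) T hTm hTmap
  have hsqS := htr (fun p => ‖p‖ ^ 2) (by fun_prop) Si hSim hSimap
  have hWsT := htr Ws hWsc T hTm hTmap
  have hWsS := htr Ws hWsc Si hSim hSimap
  have hnonnegS : 0 ≤ V⁻¹ * ((∫ x in K, ‖x‖ ^ 2) - 2 * (∫ x in K, ⟪Si x, x⟫) +
      ∫ x in K, ‖Si x‖ ^ 2) := by
    refine mul_nonneg (inv_nonneg.2 hV.le) ?_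
    have i0 : IntegrableOn (fun x : 𝔼 => ‖x‖ ^ 2) K :=
      (continuous_norm.pow 2).continuousOn.integrableOn_compact hK
    have i1 : IntegrableOn (fun x => ‖x‖ ^ 2 - 2 * ⟪Si x, x⟫) K :=
      i0.sub ((hinner Si hSim hSiL).const_mul 2)
    have : (∫ x in K, ‖x‖ ^ 2) - 2 * (∫ x in K, ⟪Si x, x⟫) + ∫ x in K, ‖Si x‖ ^ 2 =
        ∫ x in K, ‖x - Si x‖ ^ 2 := by
      rw [← integral_const_mul, ← integral_sub i0 ((hinner Si hSim hSiL).const_mul 2),
        ← integral_add i1 (hnsq Si hSim hSiL)]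
      congr 1; funext x
      rw [norm_sub_sq_real, real_inner_comm]
    rw [this]
    exact integral_nonneg fun x => sq_nonneg _
  rw [ENNReal.ofReal_le_ofReal_iff hnonnegS] at hopt
  have hopt2 : ∫ x in K, ⟪Si x, x⟫ ≤ ∫ x in K, ⟪T x, x⟫ := by
    have := le_of_mul_le_mul_left hopt (inv_pos.2 hV)
    rw [hsqT, hsqS] at this
    linarith
  -- the gap of T vanishes
  set gap : 𝔼 → ℝ := fun x => W x + Ws (T x) - ⟪T x, x⟫ with hgap
  have hgapnn : ∀ x ∈ K, 0 ≤ gap x := by
    intro x hx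
    have := le_leg hK hWc (T x) hx
    simp only [hgap]
    linarith
  have hgapS : ∫ x in K, (W x + Ws (Si x) - ⟪Si x, x⟫) ≤ 0 := by
    refine integral_nonpos_of_ae ?_
    filter_upwards [hSisub] with x hx
    have : Ws (Si x) ≤ ⟪Si x, x⟫ - W x := by
      refine leg_le hne fun x' hx' => ?_
      have := hx x' hx'
      rw [inner_sub_right] at this
      linarith
    show W x + Ws (Si x) - ⟪Si x, x⟫ ≤ 0
    linarith
  have hgi : IntegrableOn gap K := (hWi.add (hWsi T hTm hTL)).sub (hinner T hTm hTL)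
  have hgapT : ∫ x in K, gap x ≤ 0 := by
    have e1 : ∫ x in K, gap x = (∫ x in K, W x) + (∫ x in K, Ws (T x)) - ∫ x in K, ⟪T x, x⟫ := by
      have j1 : IntegrableOn (fun x => W x + Ws (T x)) K := hWi.add (hWsi T hTm hTL)
      simp only [hgap]
      rw [integral_sub j1 (hinner T hTm hTL), integral_add hWi (hWsi T hTm hTL)]
    have e2 : ∫ x in K, (W x + Ws (Si x) - ⟪Si x, x⟫) =
        (∫ x in K, W x) + (∫ x in K, Ws (Si x)) - ∫ x in K, ⟪Si x, x⟫ := by
      have j1 : IntegrableOn (fun x => W x + Ws (Si x)) K := hWi.add (hWsi Si hSim hSiL)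
      rw [integral_sub j1 (hinner Si hSim hSiL), integral_add hWi (hWsi Si hSim hSiL)]
    rw [e2] at hgapS
    rw [e1]
    linarith
  have hgap0 : gap =ᵐ[volume.restrict K] 0 := by
    have h1 : 0 ≤ᵐ[volume.restrict K] gap := by
      filter_upwards [ae_restrict_mem hKm] with x hx using hgapnn x hx
    have h2 : ∫ x in K, gap x = 0 := le_antisymm hgapT (integral_nonneg_of_ae h1)
    exact (integral_eq_zero_iff_of_nonneg_ae h1 hgi).1 h2
  have hTsub : Subgrad K W T := by
    filter_upwards [hgap0] with x hx x' hx'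
    have h1 : W x + Ws (T x) - ⟪T x, x⟫ = 0 := hx
    have h2 := le_leg hK hWc (T x) hx'
    rw [inner_sub_right]
    linarith
  -- uniqueness
  have huniq : ∫ x in K, ‖Si x - T x‖ ^ 2 ≤ 0 := by
    by_contra hcon
    push Not at hcon
    set D := ∫ x in K, ‖Si x - T x‖ ^ 2 with hD
    set A := (d : ℝ) * (36 * L ^ 2 * (d / r * V)) + 1 with hA
    have hA0 : 0 < A := by positivity
    set h := min r (D / (2 * A)) with hh
    have hh0 : 0 < h := lt_min hr (by positivity)
    have h1 := gn hK hKv hr hball hL hWc hWc hSim hTm hSiL hTL hSisub hTsub hh0 (min_le_left _ _)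
    simp only [sub_self, ne_eq, OfNat.ofNat_ne_zero, not_false_eq_true, zero_pow, integral_zero,
      mul_zero, zero_add] at h1
    have h2 : (d : ℝ) * (36 * L ^ 2 * (d * h / r * V)) = h * (A - 1) := by
      rw [hA]; field_simp; ring
    rw [h2] at h1
    have h3 : h * A ≤ D / 2 := by
      have : h ≤ D / (2 * A) := min_le_right _ _
      calc h * A ≤ D / (2 * A) * A := mul_le_mul_of_nonneg_right this hA0.le
        _ = D / 2 := by field_simp
    nlinarith
  have hST : ∀ᵐ x ∂(volume.restrict K), Si x = T x := by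
    have h1 : IntegrableOn (fun x => ‖Si x - T x‖ ^ 2) K := by
      refine integrableOn_of_bdd hK ((hSim.sub hTm).norm.pow_const 2) (C := (2 * L) ^ 2) ?_
      filter_upwards [hSiL, hTL] with x a b
      rw [norm_pow, norm_norm]
      exact pow_le_pow_left₀ (norm_nonneg _) ((norm_sub_le _ _).trans (by linarith)) 2
    have h2 : ∫ x in K, ‖Si x - T x‖ ^ 2 = 0 :=
      le_antisymm huniq (integral_nonneg fun x => sq_nonneg _)
    have h3 := (integral_eq_zero_iff_of_nonneg_ae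
      (Eventually.of_forall fun x => sq_nonneg _) h1).1 h2
    filter_upwards [h3] with x hx
    have : ‖Si x - T x‖ ^ 2 = 0 := hx
    exact sub_eq_zero.1 (norm_eq_zero.1 (pow_eq_zero_iff (by norm_num)|>.1 this))
  refine ⟨φ, hφ, ?_⟩
  refine hSlim.congr fun k => ?_
  refine integral_congr_ae ?_
  filter_upwards [hST] with x hx
  rw [hx]

end Crest.Agent.H3.OT
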