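import Mathlib
import Crest.Agent.H3.OT.Lim2

set_option autoImplicit false
open MeasureTheory Set Filter Topology
open scoped ENNReal NNReal Pointwise RealInnerProductSpace
open Crest.AnalysisR.OT

namespace Crest.Agent.H3.OT

variable {d : ℕ}

local notation "𝔼" => EuclideanSpace ℝ (Fin d)

lemma exists_perturb {α : Type*} (hd : 0 < d) (Rg : Finset α) (f : α → 𝔼) {δ : ℝ} (hδ : 0 < δ) :
    ∃ a : α → 𝔼, Set.InjOn a Rg ∧ ∀ p, ‖a p - f p‖ ≤ δ := by
  classical
  set e : 𝔼 := EuclideanSpace.single ⟨0, hd⟩ 1 with he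
  have hen : ‖e‖ = 1 := by simp [he]
  have he0 : e ≠ 0 := by
    intro h; rw [h] at hen; simp at hen
  set N := Rg.card with hN
  set k : α → ℕ := fun p => if h : p ∈ Rg then (Rg.equivFin ⟨p, h⟩ : ℕ) else 0 with hk
  have hkN : ∀ p, (k p : ℝ) ≤ N := by
    intro p
    simp only [hk]
    split_ifs with h
    · exact_mod_cast (Rg.equivFin ⟨p, h⟩).2.le
    · simp
  have hkinj : Set.InjOn k Rg := by
    intro p hp q hq hpq
    have hp' : p ∈ Rg := hp
    have hq' : q ∈ Rg := hq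
    simp only [hk, dif_pos hp', dif_pos hq'] at hpq
    have := Rg.equivFin.injective (Fin.ext hpq)
    exact congrArg Subtype.val this
  set bad : Set ℝ := ⋃ p ∈ Rg, ⋃ q ∈ Rg,
    {s : ℝ | p ≠ q ∧ f p + (s * k p) • e = f q + (s * k q) • e} with hbad
  have hfin : bad.Finite := by
    refine Set.Finite.biUnion Rg.finite_toSet fun p hp => ?_
    refine Set.Finite.biUnion Rg.finite_toSet fun q hq => ?_
    apply Set.Subsingleton.finite
    rintro s ⟨hne, hs⟩ t ⟨_, ht⟩
    by_contra hst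
    have h1 : ((s - t) * ((k p : ℝ) - k q)) • e = 0 := by
      have : ((s - t) * ((k p : ℝ) - k q)) • e =
        ((f p + (s * k p) • e) - (f q + (s * k q) • e)) -
          ((f p + (t * k p) • e) - (f q + (t * k q) • e)) := by module
      rw [this, hs, ht]; simp
    rcases smul_eq_zero.1 h1 with h | h
    · rcases mul_eq_zero.1 h with h | h
      · exact hst (sub_eq_zero.1 h)
      · have h2 : (k p : ℝ) = k q := sub_eq_zero.1 h
        exact hne (hkinj hp hq (by exact_mod_cast h2))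
    · exact he0 h
  have hinf : (Set.Ioo 0 (δ / (N + 1))).Infinite := Set.Ioo_infinite (by positivity)
  obtain ⟨s, ⟨hs0, hs1⟩, hsb⟩ := (hinf.sdiff hfin).nonempty
  refine ⟨fun p => f p + (s * k p) • e, ?_, ?_⟩
  · intro p hp q hq hpq
    by_contra hne
    exact hsb (Set.mem_biUnion hp (Set.mem_biUnion hq ⟨hne, hpq⟩))
  · intro p
    rw [add_sub_cancel_left, norm_smul, hen, mul_one, Real.norm_of_nonneg (by positivity)]
    rw [lt_div_iff₀ (by positivity)] at hs1
    have := hkN p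
    nlinarith

lemma simple_sum {α : Type*} [MeasurableSpace α] {β : Type*} (F : SimpleFunc α β)
    {π : Measure α} [IsFiniteMeasure π] (G : β → ℝ) :
    ∫ ω, G (F ω) ∂π = ∑ p ∈ F.range, π.real (F ⁻¹' {p}) * G p := by
  classical
  have h1 : ∀ ω, G (F ω) = ∑ p ∈ F.range, (F ⁻¹' {p}).indicator (fun _ => G p) ω := by
    intro ω
    rw [Finset.sum_eq_single (F ω)]
    · rw [Set.indicator_of_mem (by simp)]
    · intro p _ hp
      rw [Set.indicator_of_notMem]
      simpa using Ne.symm hp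
    · intro h
      exact absurd (F.mem_range_self ω) h
  simp_rw [h1]
  rw [integral_finsetSum]
  · refine Finset.sum_congr rfl fun p _ => ?_
    rw [integral_indicator (F.measurableSet_fiber p), setIntegral_const, smul_eq_mul]
  · intro p _
    exact (integrable_const _).indicator (F.measurableSet_fiber p)

/-- one discretisation step -/
lemma disc_step {R : ℝ} (hR : 0 < R) {K : Set 𝔼} (hK : IsCompact K) (hKv : Convex ℝ K)
    (hKR : K ⊆ Metric.closedBall 0 R) (hV : 0 < volume.real K) {π : Measure (𝔼 × 𝔼)}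
    [IsProbabilityMeasure π] {L : ℝ} (hL : 0 ≤ L) {β : Type*} (F : SimpleFunc (𝔼 × 𝔼) β)
    (a b : β → 𝔼) (ha : Set.InjOn a F.range) (hb : Set.InjOn b F.range)
    (haL : ∀ p ∈ F.range, ‖a p‖ ≤ L) (hbL : ∀ p ∈ F.range, ‖b p‖ ≤ L) {η : ℝ} (hη : 0 < η)
    (hη1 : η ≤ 1) :
    ∃ (u u' : 𝔼 → ℝ) (S S' : 𝔼 → 𝔼) (c : ℝ),
      (∀ x x', |u x - u x'| ≤ L * ‖x - x'‖) ∧ (∀ x x', |u' x - u' x'| ≤ L * ‖x - x'‖) ∧
      Measurable S ∧ Measurable S' ∧ (∀ x, ‖S x‖ ≤ L) ∧ (∀ x, ‖S' x‖ ≤ L) ∧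
      Subgrad K u S ∧ Subgrad K u' S' ∧
      (∀ g : 𝔼 → ℝ, Continuous g → ∫ x in K, g (S x) = volume.real K * ∫ ω, g (a (F ω)) ∂π) ∧
      (∀ g : 𝔼 → ℝ, Continuous g → |(∫ x in K, g (S' x)) - volume.real K * ∫ ω, g (b (F ω)) ∂π| ≤
        η * (volume.real K * ∫ ω, |g (b (F ω))| ∂π)) ∧
      ∫ x in K, (u x - (u' x + c)) ^ 2 ≤
        7128606 * R ^ 2 * (volume.real K * ∫ ω, ‖b (F ω) - a (F ω)‖ ^ 2 ∂π) := by
  classical
  set V := volume.real K with hVd
  set I : Finset β := F.range.filter (fun p => π.real (F ⁻¹' {p}) ≠ 0) with hI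
  have hIsub : ∀ p ∈ I, p ∈ F.range := fun p hp => (Finset.mem_filter.1 hp).1
  have hsum : ∀ G : β → ℝ, ∫ ω, G (F ω) ∂π = ∑ p : I, π.real (F ⁻¹' {p.1}) * G p.1 := by
    intro G
    rw [simple_sum F G, Finset.sum_coe_sort I (fun p => π.real (F ⁻¹' {p}) * G p), hI,
      Finset.sum_filter_of_ne]
    intro p _ hp h
    rw [h, zero_mul] at hp
    exact hp rfl
  set m : I → ℝ := fun p => V * π.real (F ⁻¹' {p.1}) with hm
  have hmpos : ∀ p, 0 < m p := fun p =>
    mul_pos hV (lt_of_le_of_ne measureReal_nonneg (Ne.symm (Finset.mem_filter.1 p.2).2))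
  have hmsumG : ∀ G : β → ℝ, ∑ p : I, m p * G p.1 = V * ∫ ω, G (F ω) ∂π := by
    intro G
    rw [hsum G, Finset.mul_sum]
    exact Finset.sum_congr rfl fun p _ => by simp only [hm]; ring
  have hmsum : ∑ p, m p = V := by
    have := hmsumG (fun _ => 1)
    simpa using this
  haveI : Nonempty I := by
    by_contra hne
    rw [not_nonempty_iff] at hne
    rw [Fintype.sum_empty] at hmsum
    exact hV.ne hmsum
  set y : I → 𝔼 := fun p => a p.1 with hy
  set z : I → 𝔼 := fun p => b p.1 with hz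
  have hyinj : Function.Injective y := fun p q h =>
    Subtype.ext (ha (hIsub p.1 p.2) (hIsub q.1 q.2) h)
  have hzinj : Function.Injective z := fun p q h =>
    Subtype.ext (hb (hIsub p.1 p.2) (hIsub q.1 q.2) h)
  have hyL : ∀ i, ‖y i‖ ≤ L := fun i => haL _ (hIsub _ i.2)
  have hzL : ∀ i, ‖z i‖ ≤ L := fun i => hbL _ (hIsub _ i.2)
  obtain ⟨ψ, ψ', c, h1, h2, h3⟩ := disc_stab hR hK hKv hKR hV hyinj hzinj hmpos hmsum hη
  obtain ⟨s, hs, hsm⟩ := exists_sel y ψ
  obtain ⟨s', hs', hsm'⟩ := exists_sel z ψ'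
  refine ⟨phi y ψ, phi z ψ', fun x => y (s x), fun x => z (s' x), c,
    fun x x' => abs_phi_x_sub_le y ψ x x' hyL, fun x x' => abs_phi_x_sub_le z ψ' x x' hzL,
    hsm y, hsm' z, fun x => hyL _, fun x => hzL _, subgrad_sel K hs, subgrad_sel K hs', ?_, ?_, ?_⟩
  · intro g hg
    rw [integral_sel hK hyinj hs hsm hg]
    simp_rw [h1]
    exact hmsumG (fun p => g (a p))
  · intro g hg
    show |(∫ x in K, g (z (s' x))) - V * ∫ ω, g (b (F ω)) ∂π| ≤
      η * (V * ∫ ω, |g (b (F ω))| ∂π)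
    rw [integral_sel hK hzinj hs' hsm' hg, ← hmsumG (fun p => g (b p)),
      ← hmsumG (fun p => |g (b p)|), ← Finset.sum_sub_distrib, Finset.mul_sum]
    refine (Finset.abs_sum_le_sum_abs _ _).trans (Finset.sum_le_sum fun p _ => ?_)
    have : mass K z ψ' p * g (z p) - m p * g (b p.1) = (mass K z ψ' p - m p) * g (b p.1) := by
      simp only [hz]; ring
    rw [this, abs_mul]
    calc |mass K z ψ' p - m p| * |g (b p.1)| ≤ (η * m p) * |g (b p.1)| :=
          mul_le_mul_of_nonneg_right (h2 p) (abs_nonneg _)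
      _ = _ := by ring
  · have h4 := phi_stab hR hK hKR hyinj hzinj hmpos h1 (fun i => by
      have h5 := (abs_le.1 (h2 i)).2
      have h6 : η * m i ≤ 1 * m i := mul_le_mul_of_nonneg_right hη1 (hmpos i).le
      linarith) h3
    rw [← hmsumG (fun p => ‖b p - a p‖ ^ 2)]
    exact h4

end Crest.Agent.H3.OT
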