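import Mathlib
import Crest.Agent.H3.OT.Disc

set_option autoImplicit false
open MeasureTheory Set Filter Topology
open scoped ENNReal NNReal Pointwise RealInnerProductSpace
open Crest.AnalysisR.OT

namespace Crest.Agent.H3.OT

variable {d : ℕ}

local notation "𝔼" => EuclideanSpace ℝ (Fin d)

set_option maxHeartbeats 2000000 in
/-- real-valued stability estimate with a free parameter -/
theorem stab_h (hd : 0 < d) {R : ℝ} (hR : 0 < R) {K : Set 𝔼} (hK : IsCompact K)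
    (hKv : Convex ℝ K) (hKR : K ⊆ Metric.closedBall 0 R) {x₀ : 𝔼} {r : ℝ}
    (hr : 0 < r) (hball : Metric.closedBall x₀ r ⊆ K) (hV : 0 < volume.real K)
    {Y : Set 𝔼} (hY : IsCompact Y) {L : ℝ} (hL : 1 ≤ L)
    (hYL : Y ⊆ Metric.closedBall 0 (L - 1)) {μ ν : Measure 𝔼} (hμ : IsProbabilityOn Y μ)
    (hν : IsProbabilityOn Y ν) {Tμ Tν : 𝔼 → 𝔼} (hTμ : IsOptimalMap (uniformProbOn K) μ Tμ)
    (hTν : IsOptimalMap (uniformProbOn K) ν Tν) {π : Measure (𝔼 × 𝔼)}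
    (hπ : IsPairCoupling μ ν π) {h : ℝ} (hh : 0 < h) (hhr : h ≤ r) :
    ∫ x in K, ‖Tμ x - Tν x‖ ^ 2 ≤
      3 * (d * (8 / h ^ 2 * (7128606 * R ^ 2 * (volume.real K * ∫ p, ‖p.1 - p.2‖ ^ 2 ∂π)) +
        36 * L ^ 2 * (d * h / r * volume.real K))) := by
  obtain ⟨hμp, hμY⟩ := hμ
  obtain ⟨hνp, hνY⟩ := hν
  obtain ⟨hπ1, hπ2⟩ := hπ
  haveI := hμp
  haveI := hνp
  have hL0 : 0 ≤ L := by linarith
  set V := volume.real K with hVd
  haveI hπp : IsProbabilityMeasure π := by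
    constructor
    have : μ Set.univ = 1 := measure_univ
    rw [← hπ1, Measure.map_apply measurable_fst MeasurableSet.univ] at this
    simpa using this
  have hYm : MeasurableSet Y := hY.measurableSet
  have hπY1 : ∀ᵐ ω ∂π, ω.1 ∈ Y := by
    have h1 : ∀ᵐ x ∂μ, x ∈ Y := by
      rw [ae_iff]; exact hμY
    rw [← hπ1] at h1
    exact ae_of_ae_map measurable_fst.aemeasurable h1
  have hπY2 : ∀ᵐ ω ∂π, ω.2 ∈ Y := by
    have h1 : ∀ᵐ x ∂ν, x ∈ Y := by
      rw [ae_iff]; exact hνY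
    rw [← hπ2] at h1
    exact ae_of_ae_map measurable_snd.aemeasurable h1
  have hYne : Y.Nonempty := by
    by_contra hne
    rw [Set.not_nonempty_iff_eq_empty] at hne
    rw [hne, Set.compl_empty] at hμY
    have : μ Set.univ = 1 := measure_univ
    rw [hμY] at this
    exact zero_ne_one this
  obtain ⟨y₀, hy₀⟩ := hYne
  have hYYcl : IsClosed (Y ×ˢ Y) := hY.isClosed.prod hY.isClosed
  have hmem₀ : ((y₀, y₀) : 𝔼 × 𝔼) ∈ Y ×ˢ Y := ⟨hy₀, hy₀⟩
  -- simple functions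
  set F : ℕ → SimpleFunc (𝔼 × 𝔼) (𝔼 × 𝔼) := fun n =>
    SimpleFunc.approxOn id measurable_id (Y ×ˢ Y) (y₀, y₀) hmem₀ n with hF
  have hFmem : ∀ n ω, F n ω ∈ Y ×ˢ Y := fun n ω =>
    SimpleFunc.approxOn_mem measurable_id hmem₀ n ω
  have hFtend : ∀ ω ∈ Y ×ˢ Y, Tendsto (fun n => F n ω) atTop (𝓝 ω) := fun ω hω =>
    SimpleFunc.tendsto_approxOn measurable_id hmem₀ (subset_closure hω)
  have hδ : ∀ n : ℕ, (0 : ℝ) < 1 / ((n : ℝ) + 1) := fun n => by positivity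
  have hδ1 : ∀ n : ℕ, (1 : ℝ) / ((n : ℝ) + 1) ≤ 1 := fun n => by
    rw [div_le_one (by positivity)]
    have : (0 : ℝ) ≤ n := Nat.cast_nonneg n
    linarith
  choose a hainj hanear using fun n : ℕ =>
    exists_perturb hd (F n).range (fun p : 𝔼 × 𝔼 => p.1) (hδ n)
  choose b hbinj hbnear using fun n : ℕ =>
    exists_perturb hd (F n).range (fun p : 𝔼 × 𝔼 => p.2) (hδ n)
  have hYnorm : ∀ y ∈ Y, ‖y‖ ≤ L - 1 := fun y hy => by simpa using hYL hy
  have hrangeY : ∀ n, ∀ p ∈ (F n).range, p ∈ Y ×ˢ Y := by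
    intro n p hp
    obtain ⟨ω, rfl⟩ := SimpleFunc.mem_range.1 hp
    exact hFmem n ω
  have haL' : ∀ n, ∀ p ∈ Y ×ˢ Y, ‖a n p‖ ≤ L := by
    intro n p hp
    have h1 := hanear n p
    have h2 := hYnorm p.1 hp.1
    have h3 := hδ1 n
    calc ‖a n p‖ = ‖(a n p - p.1) + p.1‖ := by rw [sub_add_cancel]
      _ ≤ ‖a n p - p.1‖ + ‖p.1‖ := norm_add_le _ _
      _ ≤ L := by linarith
  have hbL' : ∀ n, ∀ p ∈ Y ×ˢ Y, ‖b n p‖ ≤ L := by
    intro n p hp
    have h1 := hbnear n p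
    have h2 := hYnorm p.2 hp.2
    have h3 := hδ1 n
    calc ‖b n p‖ = ‖(b n p - p.2) + p.2‖ := by rw [sub_add_cancel]
      _ ≤ ‖b n p - p.2‖ + ‖p.2‖ := norm_add_le _ _
      _ ≤ L := by linarith
  have haL : ∀ n, ∀ p ∈ (F n).range, ‖a n p‖ ≤ L := fun n p hp => haL' n p (hrangeY n p hp)
  have hbL : ∀ n, ∀ p ∈ (F n).range, ‖b n p‖ ≤ L := fun n p hp => hbL' n p (hrangeY n p hp)
  choose u u' S S' c hlip hlip' hSm hSm' hSL hSL' hsub hsub' hpush hpush' hdist using fun n : ℕ =>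
    disc_step hR hK hKv hKR hV (π := π) hL0 (F n) (a n) (b n) (hainj n) (hbinj n) (haL n) (hbL n)
      (hδ n) (hδ1 n)
  -- convergence of the sites
  have hatend : ∀ᵐ ω ∂π, Tendsto (fun n => a n (F n ω)) atTop (𝓝 ω.1) := by
    filter_upwards [hπY1, hπY2] with ω h1 h2
    have h3 := (hFtend ω ⟨h1, h2⟩).fst_nhds
    have h4 : Tendsto (fun n => a n (F n ω) - (F n ω).1) atTop (𝓝 0) :=
      squeeze_zero_norm (fun n => hanear n (F n ω)) tendsto_one_div_add_atTop_nhds_zero_nat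
    have h5 := h4.add h3
    simpa using h5
  have hbtend : ∀ᵐ ω ∂π, Tendsto (fun n => b n (F n ω)) atTop (𝓝 ω.2) := by
    filter_upwards [hπY1, hπY2] with ω h1 h2
    have h3 := (hFtend ω ⟨h1, h2⟩).snd_nhds
    have h4 : Tendsto (fun n => b n (F n ω) - (F n ω).2) atTop (𝓝 0) :=
      squeeze_zero_norm (fun n => hbnear n (F n ω)) tendsto_one_div_add_atTop_nhds_zero_nat
    have h5 := h4.add h3
    simpa using h5
  have hcb : ∀ g : 𝔼 → ℝ, Continuous g → ∃ C, ∀ p ∈ Metric.closedBall (0 : 𝔼) L, ‖g p‖ ≤ C :=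
    fun g hg => (isCompact_closedBall 0 L).exists_bound_of_continuousOn hg.continuousOn
  have hmeasF : ∀ (n : ℕ) (G : 𝔼 × 𝔼 → ℝ), Measurable fun ω => G (F n ω) := fun n G =>
    ((F n).map G).measurable
  have hconva : ∀ g : 𝔼 → ℝ, Continuous g →
      Tendsto (fun n => ∫ ω, g (a n (F n ω)) ∂π) atTop (𝓝 (∫ x, g x ∂μ)) := by
    intro g hg
    obtain ⟨C, hC⟩ := hcb g hg
    have e : ∫ x, g x ∂μ = ∫ ω, g ω.1 ∂π := by
      rw [← hπ1, integral_map measurable_fst.aemeasurable hg.aestronglyMeasurable]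
    rw [e]
    refine tendsto_integral_of_dominated_convergence (fun _ => C)
      (fun n => (hmeasF n (fun p => g (a n p))).aestronglyMeasurable) (integrable_const _)
      (fun n => Eventually.of_forall fun ω => hC _ (by simpa using haL' n _ (hFmem n ω))) ?_
    filter_upwards [hatend] with ω hω
    exact (hg.tendsto _).comp hω
  have hconvb : ∀ g : 𝔼 → ℝ, Continuous g →
      Tendsto (fun n => ∫ ω, g (b n (F n ω)) ∂π) atTop (𝓝 (∫ x, g x ∂ν)) := by
    intro g hg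
    obtain ⟨C, hC⟩ := hcb g hg
    have e : ∫ x, g x ∂ν = ∫ ω, g ω.2 ∂π := by
      rw [← hπ2, integral_map measurable_snd.aemeasurable hg.aestronglyMeasurable]
    rw [e]
    refine tendsto_integral_of_dominated_convergence (fun _ => C)
      (fun n => (hmeasF n (fun p => g (b n p))).aestronglyMeasurable) (integrable_const _)
      (fun n => Eventually.of_forall fun ω => hC _ (by simpa using hbL' n _ (hFmem n ω))) ?_
    filter_upwards [hbtend] with ω hω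
    exact (hg.tendsto _).comp hω
  have hconvd : Tendsto (fun n => ∫ ω, ‖b n (F n ω) - a n (F n ω)‖ ^ 2 ∂π) atTop
      (𝓝 (∫ p, ‖p.1 - p.2‖ ^ 2 ∂π)) := by
    refine tendsto_integral_of_dominated_convergence (fun _ => (2 * L) ^ 2)
      (fun n => (hmeasF n (fun p => ‖b n p - a n p‖ ^ 2)).aestronglyMeasurable)
      (integrable_const _) (fun n => Eventually.of_forall fun ω => ?_) ?_
    · rw [norm_pow, norm_norm]
      refine pow_le_pow_left₀ (norm_nonneg _) ?_ 2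
      have h1 := haL' n _ (hFmem n ω)
      have h2 := hbL' n _ (hFmem n ω)
      exact (norm_sub_le _ _).trans (by linarith)
    · filter_upwards [hatend, hbtend] with ω h1 h2
      have := ((h2.sub h1).norm).pow 2
      rwa [norm_sub_rev] at this
  have hpushS : ∀ g : 𝔼 → ℝ, Continuous g →
      Tendsto (fun n => ∫ x in K, g (S n x)) atTop (𝓝 (V * ∫ x, g x ∂μ)) := by
    intro g hg
    have := (hconva g hg).const_mul V
    refine this.congr fun n => ?_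
    exact (hpush n g hg).symm
  have hpushS' : ∀ g : 𝔼 → ℝ, Continuous g →
      Tendsto (fun n => ∫ x in K, g (S' n x)) atTop (𝓝 (V * ∫ x, g x ∂ν)) := by
    intro g hg
    have h1 := (hconvb g hg).const_mul V
    have h2 : Tendsto (fun n => (∫ x in K, g (S' n x)) - V * ∫ ω, g (b n (F n ω)) ∂π) atTop
        (𝓝 0) := by
      have h3 := ((hconvb (fun x => |g x|) hg.abs).const_mul V)
      have h4 := tendsto_one_div_add_atTop_nhds_zero_nat (𝕜 := ℝ) |>.mul h3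
      rw [zero_mul] at h4
      refine squeeze_zero_norm (fun n => ?_) h4
      rw [Real.norm_eq_abs]
      exact hpush' n g hg
    have h5 := h2.add h1
    rw [zero_add] at h5
    refine h5.congr fun n => ?_
    ring
  have hμL : ∀ᵐ x ∂μ, ‖x‖ ≤ L := by
    have h1 : ∀ᵐ x ∂μ, x ∈ Y := by rw [ae_iff]; exact hμY
    filter_upwards [h1] with x hx
    have := hYnorm x hx
    linarith
  have hνL : ∀ᵐ x ∂ν, ‖x‖ ≤ L := by
    have h1 : ∀ᵐ x ∂ν, x ∈ Y := by rw [ae_iff]; exact hνY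
    filter_upwards [h1] with x hx
    have := hYnorm x hx
    linarith
  obtain ⟨φ₁, hφ₁, hlim₁⟩ := lim_opt hK hKv hr hball hV hL0 hlip hSm hSL hsub hμL hpushS hTμ
  obtain ⟨φ₂, hφ₂, hlim₂⟩ := lim_opt hK hKv hr hball hV hL0 (u := fun k => u' (φ₁ k))
    (S := fun k => S' (φ₁ k)) (fun k => hlip' _) (fun k => hSm' _) (fun k => hSL' _)
    (fun k => hsub' _) hνL (fun g hg => (hpushS' g hg).comp hφ₁.tendsto_atTop) hTν
  set φ : ℕ → ℕ := fun k => φ₁ (φ₂ k) with hφ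
  have hφt : Tendsto φ atTop atTop := hφ₁.tendsto_atTop.comp hφ₂.tendsto_atTop
  have hlim₁' : Tendsto (fun k => ∫ x in K, ‖S (φ k) x - Tμ x‖ ^ 2) atTop (𝓝 0) :=
    hlim₁.comp hφ₂.tendsto_atTop
  have hcont : ∀ (G : 𝔼 → ℝ), (∀ x x', |G x - G x'| ≤ L * ‖x - x'‖) → Continuous G := by
    intro G hG
    refine (LipschitzWith.of_dist_le_mul (K := ⟨L, hL0⟩) fun x x' => ?_).continuous
    rw [Real.dist_eq, dist_eq_norm]
    exact hG x x'
  have hgn : ∀ k, ∫ x in K, ‖S k x - S' k x‖ ^ 2 ≤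
      d * (8 / h ^ 2 * (7128606 * R ^ 2 * (V * ∫ ω, ‖b k (F k ω) - a k (F k ω)‖ ^ 2 ∂π)) +
        36 * L ^ 2 * (d * h / r * V)) := by
    intro k
    have h1 := gn hK hKv hr hball hL0 (hcont _ (hlip k)) ((hcont _ (hlip' k)).add_const (c k))
      (hSm k) (hSm' k) (Eventually.of_forall (hSL k)) (Eventually.of_forall (hSL' k)) (hsub k)
      (v := fun x => u' k x + c k) (by
        filter_upwards [hsub' k] with x hx x' hx'
        have := hx x' hx'
        linarith) hh hhr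
    refine h1.trans ?_
    have h2 := hdist k
    gcongr
  -- conclusion
  have hTμm := hTμ.1
  have hTνm := hTν.1
  have hTμL : ∀ᵐ x ∂(volume.restrict K), ‖Tμ x‖ ≤ L := by
    rw [← ae_uniform_iff hK]
    rw [← hTμ.2.1] at hμL
    exact ae_of_ae_map hTμm.aemeasurable hμL
  have hTνL : ∀ᵐ x ∂(volume.restrict K), ‖Tν x‖ ≤ L := by
    rw [← ae_uniform_iff hK]
    rw [← hTν.2.1] at hνL
    exact ae_of_ae_map hTνm.aemeasurable hνL
  have hsqi : ∀ (P Q : 𝔼 → 𝔼), Measurable P → Measurable Q →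
      (∀ᵐ x ∂(volume.restrict K), ‖P x‖ ≤ L) → (∀ᵐ x ∂(volume.restrict K), ‖Q x‖ ≤ L) →
      IntegrableOn (fun x => ‖P x - Q x‖ ^ 2) K := by
    intro P Q hP hQ hPL hQL
    refine integrableOn_of_bdd hK ((hP.sub hQ).norm.pow_const 2) (C := (2 * L) ^ 2) ?_
    filter_upwards [hPL, hQL] with x a b
    rw [norm_pow, norm_norm]
    exact pow_le_pow_left₀ (norm_nonneg _) ((norm_sub_le _ _).trans (by linarith)) 2
  have hbound : ∀ k, ∫ x in K, ‖Tμ x - Tν x‖ ^ 2 ≤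
      3 * (∫ x in K, ‖S (φ k) x - Tμ x‖ ^ 2) + 3 * (∫ x in K, ‖S' (φ k) x - Tν x‖ ^ 2) +
      3 * (d * (8 / h ^ 2 * (7128606 * R ^ 2 *
        (V * ∫ ω, ‖b (φ k) (F (φ k) ω) - a (φ k) (F (φ k) ω)‖ ^ 2 ∂π)) +
        36 * L ^ 2 * (d * h / r * V))) := by
    intro k
    have j1 := hsqi _ _ (hSm (φ k)) hTμm (Eventually.of_forall (hSL (φ k))) hTμL
    have j2 := hsqi _ _ (hSm' (φ k)) hTνm (Eventually.of_forall (hSL' (φ k))) hTνL
    have j3 := hsqi _ _ (hSm (φ k)) (hSm' (φ k)) (Eventually.of_forall (hSL (φ k)))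
      (Eventually.of_forall (hSL' (φ k)))
    have j4 := hsqi _ _ hTμm hTνm hTμL hTνL
    have h1 : ∫ x in K, ‖Tμ x - Tν x‖ ^ 2 ≤
        ∫ x in K, (3 * ‖S (φ k) x - Tμ x‖ ^ 2 + 3 * ‖S' (φ k) x - Tν x‖ ^ 2 +
          3 * ‖S (φ k) x - S' (φ k) x‖ ^ 2) := by
      refine integral_mono j4 (((j1.const_mul 3).add (j2.const_mul 3)).add (j3.const_mul 3))
        fun x => ?_
      show ‖Tμ x - Tν x‖ ^ 2 ≤ 3 * ‖S (φ k) x - Tμ x‖ ^ 2 + 3 * ‖S' (φ k) x - Tν x‖ ^ 2 +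
          3 * ‖S (φ k) x - S' (φ k) x‖ ^ 2
      have e1 : Tμ x - Tν x = -(S (φ k) x - Tμ x) + (S' (φ k) x - Tν x) +
          (S (φ k) x - S' (φ k) x) := by abel
      have e2 : ‖Tμ x - Tν x‖ ≤ ‖S (φ k) x - Tμ x‖ + ‖S' (φ k) x - Tν x‖ +
          ‖S (φ k) x - S' (φ k) x‖ := by
        rw [e1]
        refine (norm_add_le _ _).trans (add_le_add_left ((norm_add_le _ _).trans ?_) _)
        rw [norm_neg]
      have e3 := pow_le_pow_left₀ (norm_nonneg _) e2 2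
      nlinarith [sq_nonneg (‖S (φ k) x - Tμ x‖ - ‖S' (φ k) x - Tν x‖),
        sq_nonneg (‖S (φ k) x - Tμ x‖ - ‖S (φ k) x - S' (φ k) x‖),
        sq_nonneg (‖S' (φ k) x - Tν x‖ - ‖S (φ k) x - S' (φ k) x‖)]
    have i12 : IntegrableOn (fun x => 3 * ‖S (φ k) x - Tμ x‖ ^ 2 +
        3 * ‖S' (φ k) x - Tν x‖ ^ 2) K := (j1.const_mul 3).add (j2.const_mul 3)
    rw [integral_add i12 (j3.const_mul 3), integral_add (j1.const_mul 3) (j2.const_mul 3),
      integral_const_mul, integral_const_mul, integral_const_mul] at h1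
    have h2 := hgn (φ k)
    linarith
  have hlimR : Tendsto (fun k => 3 * (∫ x in K, ‖S (φ k) x - Tμ x‖ ^ 2) +
      3 * (∫ x in K, ‖S' (φ k) x - Tν x‖ ^ 2) +
      3 * (d * (8 / h ^ 2 * (7128606 * R ^ 2 *
        (V * ∫ ω, ‖b (φ k) (F (φ k) ω) - a (φ k) (F (φ k) ω)‖ ^ 2 ∂π)) +
        36 * L ^ 2 * (d * h / r * V)))) atTop
      (𝓝 (3 * 0 + 3 * 0 + 3 * (d * (8 / h ^ 2 * (7128606 * R ^ 2 *
        (V * ∫ p, ‖p.1 - p.2‖ ^ 2 ∂π)) + 36 * L ^ 2 * (d * h / r * V))))) := by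
    have h3 := hconvd.comp hφt
    exact ((hlim₁'.const_mul 3).add (hlim₂.const_mul 3)).add
      (((((h3.const_mul V).const_mul _).const_mul _).add_const _).const_mul (d : ℝ) |>.const_mul 3)
  have := ge_of_tendsto' hlimR hbound
  simpa using this

end Crest.Agent.H3.OT
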