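import Mathlib
import Crest.Agent.H3.OT.Final

set_option autoImplicit false
open MeasureTheory Set Filter Topology
open scoped ENNReal NNReal Pointwise RealInnerProductSpace
open Crest.AnalysisR.OT

namespace Crest.Agent.H3.OT

section general
variable {d : ℕ}

local notation "𝔼" => EuclideanSpace ℝ (Fin d)

/-- a map with a potential is optimal for its image measure -/
theorem isOptimal_of_subgrad {K : Set 𝔼} (hK : IsCompact K) (hne : K.Nonempty)
    (hV : 0 < volume.real K) {L : ℝ} (hL : 0 ≤ L) {W : 𝔼 → ℝ} (hWc : Continuous W) {S : 𝔼 → 𝔼}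
    (hSm : Measurable S) (hSL : ∀ x, ‖S x‖ ≤ L) (hsub : Subgrad K W S) {μ : Measure 𝔼}
    (hmap : (uniformProbOn K).map S = μ) : IsOptimalMap (uniformProbOn K) μ S := by
  refine ⟨hSm, hmap, ?_⟩
  intro T hTm hTmap
  have := isProb_uniform hK hV
  have hKm : MeasurableSet K := hK.measurableSet
  set V := volume.real K with hVdef
  have hμL : ∀ᵐ x ∂μ, ‖x‖ ≤ L := by
    rw [← hmap, ae_map_iff hSm.aemeasurable (measurableSet_le measurable_norm measurable_const)]
    exact Eventually.of_forall hSL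
  have htr : ∀ (g : 𝔼 → ℝ), Continuous g → ∀ (Q : 𝔼 → 𝔼), Measurable Q →
      (uniformProbOn K).map Q = μ → ∫ x in K, g (Q x) = V * ∫ x, g x ∂μ := by
    intro g hg Q hQ hQmap
    rw [← hQmap, integral_map hQ.aemeasurable hg.aestronglyMeasurable, integral_uniform,
      ← mul_assoc, mul_inv_cancel₀ hV.ne', one_mul]
  have hTL : ∀ᵐ x ∂(volume.restrict K), ‖T x‖ ≤ L := by
    rw [← ae_uniform_iff hK]
    rw [← hTmap] at hμL
    exact ae_of_ae_map hTm.aemeasurable hμL
  have hSL' : ∀ᵐ x ∂(volume.restrict K), ‖S x‖ ≤ L := Eventually.of_forall hSL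
  set Ws := leg K W with hWs
  have hWsc : Continuous Ws := continuous_leg hK hne hWc
  obtain ⟨R0, hR0⟩ := hK.isBounded.subset_closedBall (0 : 𝔼)
  have hxR : ∀ x ∈ K, ‖x‖ ≤ R0 := fun x hx => by simpa using hR0 hx
  have hinner : ∀ (Q : 𝔼 → 𝔼), Measurable Q → (∀ᵐ x ∂(volume.restrict K), ‖Q x‖ ≤ L) →
      IntegrableOn (fun x => ⟪Q x, x⟫) K := by
    intro Q hQ hQL
    refine integrableOn_of_bdd hK (hQ.inner measurable_id) (C := L * R0) ?_
    filter_upwards [hQL, ae_restrict_mem hKm] with x h1 h2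
    exact (norm_inner_le_norm _ _).trans (mul_le_mul h1 (hxR x h2) (norm_nonneg _) hL)
  obtain ⟨C₁, hC₁⟩ : ∃ C, ∀ p ∈ Metric.closedBall (0 : 𝔼) L, ‖Ws p‖ ≤ C :=
    (isCompact_closedBall 0 L).exists_bound_of_continuousOn hWsc.continuousOn
  have hWsi : ∀ (Q : 𝔼 → 𝔼), Measurable Q → (∀ᵐ x ∂(volume.restrict K), ‖Q x‖ ≤ L) →
      IntegrableOn (fun x => Ws (Q x)) K := by
    intro Q hQ hQL
    refine integrableOn_of_bdd hK (hWsc.measurable.comp hQ) (C := C₁) ?_
    filter_upwards [hQL] with x h1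
    exact hC₁ _ (by simpa using h1)
  have hnsq : ∀ (Q : 𝔼 → 𝔼), Measurable Q → (∀ᵐ x ∂(volume.restrict K), ‖Q x‖ ≤ L) →
      IntegrableOn (fun x => ‖Q x‖ ^ 2) K := by
    intro Q hQ hQL
    refine integrableOn_of_bdd hK (hQ.norm.pow_const 2) (C := L ^ 2) ?_
    filter_upwards [hQL] with x h1
    rw [norm_pow, norm_norm]
    exact pow_le_pow_left₀ (norm_nonneg _) h1 2
  have hWi : IntegrableOn W K := hWc.continuousOn.integrableOn_compact hK
  have hlint : ∀ (Q : 𝔼 → 𝔼), Measurable Q → (∀ᵐ x ∂(volume.restrict K), ‖Q x‖ ≤ L) →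
      ∫⁻ x, ‖x - Q x‖ₑ ^ 2 ∂(uniformProbOn K) =
        ENNReal.ofReal (V⁻¹ * ((∫ x in K, ‖x‖ ^ 2) - 2 * (∫ x in K, ⟪Q x, x⟫) +
          ∫ x in K, ‖Q x‖ ^ 2)) := by
    intro Q hQ hQL
    have e1 : ∀ x, ‖x - Q x‖ₑ ^ 2 = ENNReal.ofReal (‖x - Q x‖ ^ 2) := by
      intro x
      rw [← ofReal_norm, ENNReal.ofReal_pow (norm_nonneg _)]
    simp_rw [e1]
    have i0 : IntegrableOn (fun x : 𝔼 => ‖x‖ ^ 2) K :=
      (continuous_norm.pow 2).continuousOn.integrableOn_compact hK
    have e2 : ∀ x, ‖x - Q x‖ ^ 2 = ‖x‖ ^ 2 - 2 * ⟪Q x, x⟫ + ‖Q x‖ ^ 2 := by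
      intro x; rw [norm_sub_sq_real, real_inner_comm]
    have i1 : IntegrableOn (fun x => ‖x‖ ^ 2 - 2 * ⟪Q x, x⟫) K :=
      i0.sub ((hinner Q hQ hQL).const_mul 2)
    have i2 : IntegrableOn (fun x => ‖x‖ ^ 2 - 2 * ⟪Q x, x⟫ + ‖Q x‖ ^ 2) K :=
      i1.add (hnsq Q hQ hQL)
    have i3 : Integrable (fun x => ‖x - Q x‖ ^ 2) (uniformProbOn K) := by
      simp_rw [e2]
      unfold uniformProbOn
      exact Integrable.smul_measure i2 (ENNReal.inv_ne_top.2 (by
        intro h; simp [hVdef, Measure.real, h] at hV))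
    rw [← ofReal_integral_eq_lintegral_ofReal i3 (Eventually.of_forall fun x => sq_nonneg _),
      integral_uniform]
    simp_rw [e2]
    rw [integral_add i1 (hnsq Q hQ hQL), integral_sub i0 ((hinner Q hQ hQL).const_mul 2),
      integral_const_mul]
  rw [hlint S hSm hSL', hlint T hTm hTL]
  refine ENNReal.ofReal_le_ofReal (mul_le_mul_of_nonneg_left ?_ (inv_nonneg.2 hV.le))
  have hsqT := htr (fun p => ‖p‖ ^ 2) (by fun_prop) T hTm hTmap
  have hsqS := htr (fun p => ‖p‖ ^ 2) (by fun_prop) S hSm hmap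
  have hWsT := htr Ws hWsc T hTm hTmap
  have hWsS := htr Ws hWsc S hSm hmap
  have hgapT : 0 ≤ ∫ x in K, (W x + Ws (T x) - ⟪T x, x⟫) := by
    refine setIntegral_nonneg hKm fun x hx => ?_
    have := le_leg hK hWc (T x) hx
    linarith
  have hgapS : ∫ x in K, (W x + Ws (S x) - ⟪S x, x⟫) ≤ 0 := by
    refine integral_nonpos_of_ae ?_
    filter_upwards [hsub] with x hx
    have : Ws (S x) ≤ ⟪S x, x⟫ - W x := by
      refine leg_le hne fun x' hx' => ?_
      have := hx x' hx'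
      rw [inner_sub_right] at this
      linarith
    show W x + Ws (S x) - ⟪S x, x⟫ ≤ 0
    linarith
  have e1 : ∫ x in K, (W x + Ws (T x) - ⟪T x, x⟫) =
      (∫ x in K, W x) + (∫ x in K, Ws (T x)) - ∫ x in K, ⟪T x, x⟫ := by
    have j1 : IntegrableOn (fun x => W x + Ws (T x)) K := hWi.add (hWsi T hTm hTL)
    rw [integral_sub j1 (hinner T hTm hTL), integral_add hWi (hWsi T hTm hTL)]
  have e2 : ∫ x in K, (W x + Ws (S x) - ⟪S x, x⟫) =
      (∫ x in K, W x) + (∫ x in K, Ws (S x)) - ∫ x in K, ⟪S x, x⟫ := by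
    have j1 : IntegrableOn (fun x => W x + Ws (S x)) K := hWi.add (hWsi S hSm hSL')
    rw [integral_sub j1 (hinner S hSm hSL'), integral_add hWi (hWsi S hSm hSL')]
  rw [e1] at hgapT
  rw [e2] at hgapS
  rw [hsqT, hsqS]
  linarith

/-- uniqueness of optimal maps when a potential is known -/
theorem unique_of_subgrad {K : Set 𝔼} (hK : IsCompact K) (hKv : Convex ℝ K) {x₀ : 𝔼} {r : ℝ}
    (hr : 0 < r) (hball : Metric.closedBall x₀ r ⊆ K) (hV : 0 < volume.real K) {L : ℝ}
    (hL : 0 ≤ L) {u : 𝔼 → ℝ} {S : 𝔼 → 𝔼}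
    (hlip : ∀ x x', |u x - u x'| ≤ L * ‖x - x'‖) (hSm : Measurable S)
    (hSL : ∀ x, ‖S x‖ ≤ L) (hsub : Subgrad K u S) {μ : Measure 𝔼}
    (hmap : (uniformProbOn K).map S = μ) {T : 𝔼 → 𝔼}
    (hT : IsOptimalMap (uniformProbOn K) μ T) :
    ∀ᵐ x ∂(volume.restrict K), T x = S x := by
  have := isProb_uniform hK hV
  have hμp : IsProbabilityMeasure μ := hmap ▸ Measure.isProbabilityMeasure_map hSm.aemeasurable
  have hμL : ∀ᵐ x ∂μ, ‖x‖ ≤ L := by
    rw [← hmap, ae_map_iff hSm.aemeasurable (measurableSet_le measurable_norm measurable_const)]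
    exact Eventually.of_forall hSL
  obtain ⟨φ, -, hφ⟩ := lim_opt hK hKv hr hball hV hL (u := fun _ => u) (S := fun _ => S)
    (fun _ => hlip) (fun _ => hSm) (fun _ => hSL) (fun _ => hsub) hμL (fun g hg => by
      have : volume.real K * ∫ x, g x ∂μ = ∫ x in K, g (S x) := by
        rw [← hmap, integral_map hSm.aemeasurable hg.aestronglyMeasurable, integral_uniform,
          ← mul_assoc, mul_inv_cancel₀ hV.ne', one_mul]
      rw [this]
      exact tendsto_const_nhds) hT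
  have h0 : ∫ x in K, ‖S x - T x‖ ^ 2 = 0 := tendsto_nhds_unique tendsto_const_nhds hφ
  have hTL : ∀ᵐ x ∂(volume.restrict K), ‖T x‖ ≤ L := by
    rw [← ae_uniform_iff hK]
    rw [← hT.2.1] at hμL
    exact ae_of_ae_map hT.1.aemeasurable hμL
  have h1 : IntegrableOn (fun x => ‖S x - T x‖ ^ 2) K := by
    refine integrableOn_of_bdd hK ((hSm.sub hT.1).norm.pow_const 2) (C := (2 * L) ^ 2) ?_
    filter_upwards [hTL] with x b
    rw [norm_pow, norm_norm]
    have a := hSL x
    exact pow_le_pow_left₀ (norm_nonneg _) ((norm_sub_le _ _).trans (by linarith)) 2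
  have h3 := (integral_eq_zero_iff_of_nonneg_ae
    (Eventually.of_forall fun x => sq_nonneg _) h1).1 h0
  filter_upwards [h3] with x hx
  have : ‖S x - T x‖ ^ 2 = 0 := hx
  exact (sub_eq_zero.1 (norm_eq_zero.1 ((pow_eq_zero_iff (by norm_num)).1 this))).symm

variable {ι : Type*} [Fintype ι] [Nonempty ι]

/-- the image of the uniform measure under the cell map -/
lemma map_sel {K : Set 𝔼} (hK : IsCompact K) (hV : 0 < volume.real K) {y : ι → 𝔼}
    (hy : Function.Injective y)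
    {ψ : ι → ℝ} {s : 𝔼 → ι} (hs : ∀ x, phi y ψ x = ⟪y (s x), x⟫ - ψ (s x))
    (hsm : ∀ (F : ι → 𝔼), Measurable fun x => F (s x)) :
    (uniformProbOn K).map (fun x => y (s x)) =
      ∑ i, ENNReal.ofReal ((volume.real K)⁻¹ * mass K y ψ i) • Measure.dirac (y i) := by
  have := isProb_uniform hK hV
  have h1 : IsProbabilityMeasure ((uniformProbOn K).map (fun x => y (s x))) :=
    Measure.isProbabilityMeasure_map (hsm y).aemeasurable
  have h2 : IsFiniteMeasure (∑ i, ENNReal.ofReal ((volume.real K)⁻¹ * mass K y ψ i) •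
      Measure.dirac (y i)) := by
    constructor
    rw [Measure.finsetSum_apply]
    refine ENNReal.sum_lt_top.2 fun i _ => ?_
    rw [Measure.smul_apply, smul_eq_mul]
    exact ENNReal.mul_lt_top ENNReal.ofReal_lt_top (measure_lt_top _ _)
  apply ext_of_forall_integral_eq_of_IsFiniteMeasure
  intro f
  rw [integral_map (hsm y).aemeasurable f.continuous.aestronglyMeasurable, integral_uniform,
    integral_sel hK hy hs hsm f.continuous, integral_finsetSum_measure, Finset.mul_sum]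
  · refine Finset.sum_congr rfl fun i _ => ?_
    have hnn : 0 ≤ (volume.real K)⁻¹ * mass K y ψ i :=
      mul_nonneg (inv_nonneg.2 hV.le) measureReal_nonneg
    rw [integral_smul_measure, integral_dirac, ENNReal.toReal_ofReal hnn, smul_eq_mul]
    ring
  · intro i _
    exact (integrable_dirac (by simp [enorm_lt_top])).smul_measure ENNReal.ofReal_ne_top

end general

end Crest.Agent.H3.OT
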